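import Crest.Agent.R82.Defs

/-!
A cell that survives extrapolation up to time `τ` has a barycentre that moved little.
-/

set_option autoImplicit false

open MeasureTheory Set
open scoped ENNReal NNReal
open Crest.AnalysisR.OT

namespace Crest.Agent.R82

variable {d : ℕ} {ι : Type} [Fintype ι] [Nonempty ι]

theorem setIntegral_uniform_of_subset {K : Set (E d)} {S : Set (E d)} (hS : MeasurableSet S)
    (hSK : S ⊆ K) {F : Type*} [NormedAddCommGroup F] [NormedSpace ℝ F] (g : E d → F) :
    ∫ x in S, g x ∂(uniformProbOn K) = ((volume K)⁻¹).toReal • ∫ x in S, g x := by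
  rw [uniformProbOn, Measure.restrict_smul, integral_smul_measure, Measure.restrict_restrict hS,
    inter_eq_self_of_subset_left hSK]

/-- change of variables under a homothety inside `K` -/
theorem setIntegral_uniform_homothety {K : Set (E d)} {S : Set (E d)} (hS : MeasurableSet S)
    (hSK : S ⊆ K) {r : ℝ} (hr : 0 < r) (v : E d)
    (hm : MeasurableSet ((fun x : E d => r • x + v) '' S))
    (hSK' : (fun x : E d => r • x + v) '' S ⊆ K)
    {F : Type*} [NormedAddCommGroup F] [NormedSpace ℝ F] (g : E d → F) :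
    ∫ x in (fun x : E d => r • x + v) '' S, g x ∂(uniformProbOn K) =
      r ^ d • ∫ x in S, g (r • x + v) ∂(uniformProbOn K) := by
  rw [setIntegral_uniform_of_subset hm hSK', setIntegral_uniform_of_subset hS hSK]
  have hd : ∀ x ∈ S, HasFDerivWithinAt (fun x : E d => r • x + v)
      (r • ContinuousLinearMap.id ℝ (E d)) S x := fun x _ =>
    (((hasFDerivAt_id x).const_smul r).add_const v).hasFDerivWithinAt
  have hinj : InjOn (fun x : E d => r • x + v) S := by
    intro x _ y _ hxy
    simp only [add_left_inj] at hxy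
    exact smul_right_injective _ hr.ne' hxy
  have hdet : (r • ContinuousLinearMap.id ℝ (E d)).det = r ^ d := by
    simp [ContinuousLinearMap.det, LinearMap.det_smul]
  rw [integral_image_eq_integral_abs_det_fderiv_smul volume hS hd hinj g]
  simp only [hdet, abs_of_pos (pow_pos hr d)]
  rw [integral_smul, smul_comm]

omit [Nonempty ι] [Fintype ι] in
theorem bary_bound {K : Set (E d)} {R : ℝ} (hK : Body K R) {m : ι → ℝ} {p : ι → E d}
    {A : Set (E d)} (hA : MeasurableSet A) {σ : ℝ} (hσ0 : 0 ≤ σ) (hσ1 : σ ≤ 1)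
    {ψ₀ ψ₁ : ι → ℝ} (h₀ : IsOptWt (uniformProbOn K) m p ψ₀)
    (h₁ : IsOptWt (pert (uniformProbOn K) A σ) m p ψ₁) (i : ι) {τ : ℝ} (hτ : 1 ≤ τ)
    (hne : (cell p (ψ₀ + τ • (ψ₁ - ψ₀)) i ∩ K).Nonempty) :
    ‖bary (pert (uniformProbOn K) A σ) p ψ₁ i - bary (uniformProbOn K) p ψ₀ i‖ ≤
      m i * (2 * R) * (σ * (uniformProbOn K).real A + ((d : ℝ) + 1) / τ) := by
  set ρ := uniformProbOn K with hρ
  have hsrc : IsSrc R ρ := hK.isSrc
  have hsrc' : IsSrc R (pert ρ A σ) := hsrc.pert A hσ0 hσ1
  have hp := hsrc.prob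
  have hp' := hsrc'.prob
  have hR := hK.nonneg
  set a := ρ.real A with ha
  have ha0 : 0 ≤ a := measureReal_nonneg
  have hc0 : 0 ≤ 1 - σ * a := pert_coeff_nonneg hsrc A hσ0 hσ1
  have hσa : 0 ≤ σ * a := mul_nonneg hσ0 ha0
  set L0 := cell p ψ₀ i with hL0
  set L1 := cell p ψ₁ i with hL1
  have mL0 : MeasurableSet L0 := measurableSet_cell p ψ₀ i
  have mL1 : MeasurableSet L1 := measurableSet_cell p ψ₁ i
  have hm0 : ρ.real L0 = m i := h₀ i
  have hm1 : (pert ρ A σ).real L1 = m i := h₁ i
  have hmi : 0 ≤ m i := hm0 ▸ measureReal_nonneg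
  obtain ⟨x0, hx0, hx0K⟩ := hne
  set b := bary ρ p ψ₀ i with hb
  have hbn : ‖b‖ ≤ R * m i := by
    rw [← hm0]
    exact norm_setIntegral_le_of_norm_le_const_ae (measure_lt_top _ _) (ae_restrict_of_ae hsrc.bdd)
  set b0 : E d := (m i)⁻¹ • b with hb0
  have hmb : m i • b0 = b := by
    rcases hmi.eq_or_lt with h | h
    · have : b = 0 := by
        rw [← h, mul_zero] at hbn
        exact norm_le_zero_iff.1 hbn
      rw [hb0, this]; simp
    · rw [hb0, smul_smul, mul_inv_cancel₀ h.ne', one_smul]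
  have hb0n : ‖b0‖ ≤ R := by
    rcases hmi.eq_or_lt with h | h
    · rw [hb0, ← h]; simpa using hR
    · rw [hb0, norm_smul, norm_inv, Real.norm_of_nonneg hmi, inv_mul_le_iff₀ h]
      linarith
  have hbd : ∀ x : E d, ‖x‖ ≤ R → ‖x - b0‖ ≤ 2 * R := fun x hx =>
    (norm_sub_le _ _).trans (by linarith)
  have hcont : Continuous fun x : E d => x - b0 := by fun_prop
  have hint : Integrable (fun x : E d => x - b0) ρ := hsrc.integrable_of_continuous hcont
  have hdiff : bary (pert ρ A σ) p ψ₁ i - b = ∫ x in L1, (x - b0) ∂(pert ρ A σ) := by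
    rw [integral_sub (hsrc'.integrable_of_continuous continuous_id').integrableOn
      (integrable_const _), setIntegral_const, hm1, hmb]
    rfl
  rw [hdiff]
  have hsmall : ∀ S : Set (E d), ‖∫ x in S, (x - b0) ∂ρ‖ ≤ 2 * R * ρ.real S := fun S =>
    norm_setIntegral_le_of_norm_le_const_ae (measure_lt_top _ _)
      (ae_restrict_of_ae (hsrc.bdd.mono hbd))
  have hτ0 : 0 < τ := by linarith
  set θ := 1 / τ with hθ
  have hθ0 : 0 < θ := by positivity
  have hθ1 : θ ≤ 1 := by rw [hθ, div_le_one hτ0]; exact hτ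
  have hdiv : ((d : ℝ) + 1) / τ = ((d : ℝ) + 1) * θ := by rw [hθ]; ring
  rw [hdiv]
  have hd0 : (0 : ℝ) ≤ d := Nat.cast_nonneg d
  have hmR : 0 ≤ m i * (2 * R) := by positivity
  rcases hθ1.eq_or_lt with hθe | hθl
  · have h1 : ‖∫ x in L1, (x - b0) ∂(pert ρ A σ)‖ ≤ 2 * R * (pert ρ A σ).real L1 :=
      norm_setIntegral_le_of_norm_le_const_ae (measure_lt_top _ _)
        (ae_restrict_of_ae (hsrc'.bdd.mono hbd))
    rw [hm1] at h1
    rw [hθe]
    have h2 : (1 : ℝ) ≤ σ * a + ((d : ℝ) + 1) * 1 := by linarith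
    have h3 := le_mul_of_one_le_right hmR h2
    linarith
  · set r := 1 - θ with hr
    have hr0 : 0 < r := by linarith
    have hr1 : r ≤ 1 := by linarith
    set S := L0 ∩ K with hS
    have mS : MeasurableSet S := mL0.inter hK.measurableSet
    have cS : IsCompact S := hK.compact.inter_left (isClosed_cell p ψ₀ i)
    set L' := (fun x : E d => r • x + θ • x0) '' S with hL'
    have mL' : MeasurableSet L' := (cS.image (by fun_prop)).measurableSet
    have hL'K : L' ⊆ K := by
      rintro _ ⟨x, hx, rfl⟩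
      exact hK.convex hx.2 hx0K hr0.le hθ0.le (by rw [hr]; ring)
    have hL'1 : L' ⊆ L1 := by
      rintro _ ⟨x, hx, rfl⟩
      have h1 := combo_mem_cell hx.1 hx0 hr0.le hθ0.le
      have h2 : r • ψ₀ + θ • (ψ₀ + τ • (ψ₁ - ψ₀)) = ψ₁ := by
        funext j
        simp only [Pi.add_apply, Pi.smul_apply, Pi.sub_apply, smul_eq_mul, hr, hθ]
        field_simp
        ring
      rwa [h2] at h1
    have hSL : (S : Set (E d)) =ᵐ[ρ] L0 := by
      filter_upwards [hK.ae_mem] with x hx
      exact propext ⟨fun h => h.1, fun h => ⟨h, hx⟩⟩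
    have hmS : ρ.real S = m i := by rw [measureReal_congr hSL, hm0]
    have hmL' : ρ.real L' = r ^ d * m i := by
      have := setIntegral_uniform_homothety mS inter_subset_right hr0 (θ • x0) mL' hL'K
        (fun _ => (1 : ℝ))
      simpa [← hρ, hmS] using this
    have hI' : ∫ x in L', (x - b0) ∂ρ = (r ^ d * θ * m i) • (x0 - b0) := by
      have := setIntegral_uniform_homothety mS inter_subset_right hr0 (θ • x0) mL' hL'K
        (fun x => x - b0)
      rw [← hρ] at this
      rw [this]
      have h2 : ∫ x in S, (r • x + θ • x0 - b0) ∂ρ = (θ * m i) • (x0 - b0) := by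
        have h3 : ∀ x : E d, r • x + θ • x0 - b0 = r • x + (θ • x0 - b0) := fun x => by abel
        simp only [h3]
        have h4 : Integrable (fun x : E d => r • x) (ρ.restrict S) :=
          (hsrc.integrable_of_continuous (f := fun x : E d => r • x) (by fun_prop)).integrableOn
        rw [integral_add h4 (integrable_const _), integral_smul, setIntegral_const, hmS,
          setIntegral_congr_set hSL]
        have h5 : ∫ x in L0, x ∂ρ = m i • b0 := hmb.symm
        rw [h5, hr]
        module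
      rw [h2, smul_smul, mul_assoc]
    have hsplit : ∫ x in L1, (x - b0) ∂ρ =
        ∫ x in L', (x - b0) ∂ρ + ∫ x in L1 \ L', (x - b0) ∂ρ := by
      rw [← setIntegral_union disjoint_sdiff_right (mL1.diff mL') hint.integrableOn
        hint.integrableOn, union_sdiff_cancel hL'1]
    have hmd : ρ.real (L1 \ L') = ρ.real L1 - r ^ d * m i := by
      rw [measureReal_sdiff hL'1 mL', hmL']
    have hpr := pert_real hsrc A hσ0 hσ1 mL1
    rw [hm1, ← ha] at hpr
    rw [setIntegral_pert hsrc A hσ0 hσ1 hint mL1, ← ha, hsplit, hI']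
    have hrd0 : 0 ≤ r ^ d := by positivity
    have hrd1 : r ^ d ≤ 1 := pow_le_one₀ hr0.le hr1
    have hber : 1 - d * θ ≤ r ^ d := by
      have := one_add_mul_le_pow (a := -θ) (by linarith) d
      rw [hr]
      simpa [sub_eq_add_neg] using this
    have n1 : ‖(r ^ d * θ * m i) • (x0 - b0)‖ ≤ (r ^ d * θ * m i) * (2 * R) := by
      rw [norm_smul, Real.norm_of_nonneg (by positivity)]
      exact mul_le_mul_of_nonneg_left (hbd x0 (hK.bdd x0 hx0K)) (by positivity)
    have n2 := hsmall (L1 \ L')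
    have n3 := hsmall (L1 ∩ A)
    rw [hmd] at n2
    calc ‖(1 - σ * a) • ((r ^ d * θ * m i) • (x0 - b0) + ∫ x in L1 \ L', (x - b0) ∂ρ) +
            σ • ∫ x in L1 ∩ A, (x - b0) ∂ρ‖
        ≤ (1 - σ * a) * ((r ^ d * θ * m i) * (2 * R) + 2 * R * (ρ.real L1 - r ^ d * m i)) +
            σ * (2 * R * ρ.real (L1 ∩ A)) := by
          refine (norm_add_le _ _).trans (add_le_add ?_ ?_)
          · rw [norm_smul, Real.norm_of_nonneg hc0]
            exact mul_le_mul_of_nonneg_left ((norm_add_le _ _).trans (add_le_add n1 n2)) hc0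
          · rw [norm_smul, Real.norm_of_nonneg hσ0]
            exact mul_le_mul_of_nonneg_left n3 hσ0
      _ = m i * (2 * R) * ((1 - σ * a) * r ^ d * θ + 1 - (1 - σ * a) * r ^ d) := by
          have : σ * ρ.real (L1 ∩ A) = m i - (1 - σ * a) * ρ.real L1 := by linarith
          linear_combination (2 * R) * this
      _ ≤ m i * (2 * R) * (σ * a + ((d : ℝ) + 1) * θ) := by
          apply mul_le_mul_of_nonneg_left _ hmR
          have h1 : (1 - σ * a) * r ^ d ≤ 1 := mul_le_one₀ (by linarith) hrd0 hrd1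
          have h2 : (1 - σ * a) * r ^ d * θ ≤ θ := mul_le_of_le_one_left hθ0.le h1
          have h3 : σ * a * r ^ d ≤ σ * a := mul_le_of_le_one_right hσa hrd1
          have h4 : (1 - σ * a) * r ^ d = r ^ d - σ * a * r ^ d := by ring
          have h5 : ((d : ℝ) + 1) * θ = d * θ + θ := by ring
          linarith

end Crest.Agent.R82
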