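import Crest.Agent.R82.Dead
import Crest.Agent.R82.Bary

/-!
Summed barycentre estimate.
-/

set_option autoImplicit false

open MeasureTheory Set
open scoped ENNReal NNReal
open Crest.AnalysisR.OT

namespace Crest.Agent.R82

variable {d : ℕ} {ι : Type} [Fintype ι] [Nonempty ι]

theorem young34 {x w η : ℝ} (hη : 0 < η) :
    x ^ 3 * w ≤ 3 / 4 * x ^ 4 / η + 1 / 4 * η ^ 3 * w ^ 4 := by
  have h1 : x ^ 3 * (η * w) ≤ 3 / 4 * x ^ 4 + 1 / 4 * (η * w) ^ 4 := by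
    have : 0 ≤ (x - η * w) ^ 2 * (2 * x ^ 2 + (x + η * w) ^ 2) := by positivity
    nlinarith
  have h2 : 3 / 4 * x ^ 4 / η + 1 / 4 * η ^ 3 * w ^ 4 =
      (3 / 4 * x ^ 4 + 1 / 4 * (η * w) ^ 4) / η := by field_simp
  rw [h2, le_div_iff₀ hη]
  linarith

theorem exists_last_alive (P : ℕ → Prop) (h0 : P 0) (n : ℕ) :
    ∃ k, k ≤ n ∧ P k ∧ (k = n ∨ ¬ P (k + 1)) := by
  induction n with
  | zero => exact ⟨0, le_rfl, h0, Or.inl rfl⟩
  | succ n ih =>
    obtain ⟨k, hk, hP, h | h⟩ := ih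
    · by_cases h1 : P (k + 1)
      · exact ⟨k + 1, by omega, h1, Or.inl (by omega)⟩
      · exact ⟨k, by omega, hP, Or.inr h1⟩
    · exact ⟨k, by omega, hP, Or.inr h⟩

theorem sum_four_pow_le (M : ℕ) : ∑ k ∈ Finset.range M, (4 : ℝ) ^ k ≤ 4 ^ M / 3 := by
  induction M with
  | zero => simp
  | succ M ih => rw [Finset.sum_range_succ, pow_succ]; linarith

theorem sum_half_pow_le (n : ℕ) : ∑ k ∈ Finset.range n, (1 / 2 : ℝ) ^ k ≤ 2 :=
  sum_geometric_two_le n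

/-- The weighted sum of the dead masses over the scales. -/
theorem sum_scales {a : ℝ} (ha : 0 ≤ a) (M n : ℕ) (D : ℕ → ℝ)
    (h1 : ∀ k, D k ≤ 2 ^ (3 * (k + 1)) * (1 / 8 ^ M) * a)
    (h2 : ∀ k, D k ≤ 8 * (2 ^ (3 * (k + 1)) * (1 / 8 ^ M)) ^ 2 * a) :
    ∑ k ∈ Finset.range (M + n), (1 / 16 : ℝ) ^ k * D k ≤ 187 * a / 16 ^ M := by
  rw [Finset.sum_range_add]
  have e8 : ∀ k : ℕ, (2 : ℝ) ^ (3 * (k + 1)) = 8 * (2 ^ k) ^ 3 := fun k => by
    rw [← pow_mul]; ring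
  have e16 : ∀ k : ℕ, (16 : ℝ) ^ k = (2 ^ k) ^ 4 := fun k => by
    rw [← pow_mul, mul_comm, pow_mul]; norm_num
  have e8' : ∀ k : ℕ, (8 : ℝ) ^ k = (2 ^ k) ^ 3 := fun k => by
    rw [← pow_mul, mul_comm, pow_mul]; norm_num
  have e4 : ∀ k : ℕ, (4 : ℝ) ^ k = (2 ^ k) ^ 2 := fun k => by
    rw [← pow_mul, mul_comm, pow_mul]; norm_num
  have b1 : ∑ k ∈ Finset.range M, (1 / 16 : ℝ) ^ k * D k ≤
      ∑ k ∈ Finset.range M, (512 * a / (16 ^ M * 4 ^ M)) * 4 ^ k := by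
    refine Finset.sum_le_sum fun k _ => ?_
    refine (mul_le_mul_of_nonneg_left (h2 k) (by positivity)).trans (le_of_eq ?_)
    rw [e8, one_div_pow, e16, e16, e8', e4, e4]
    field_simp
    ring
  have b2 : ∑ k ∈ Finset.range n, (1 / 16 : ℝ) ^ (M + k) * D (M + k) ≤
      ∑ k ∈ Finset.range n, (8 * a / 16 ^ M) * (1 / 2) ^ k := by
    refine Finset.sum_le_sum fun k _ => ?_
    refine (mul_le_mul_of_nonneg_left (h1 (M + k)) (by positivity)).trans (le_of_eq ?_)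
    rw [e8, one_div_pow, one_div_pow, e16, e16, e8', pow_add]
    field_simp
  rw [← Finset.mul_sum] at b1 b2
  have c1 : (512 * a / (16 ^ M * 4 ^ M)) * ∑ k ∈ Finset.range M, (4 : ℝ) ^ k ≤
      (512 * a / (16 ^ M * 4 ^ M)) * (4 ^ M / 3) :=
    mul_le_mul_of_nonneg_left (sum_four_pow_le M) (by positivity)
  have c2 : (8 * a / 16 ^ M) * ∑ k ∈ Finset.range n, (1 / 2 : ℝ) ^ k ≤ (8 * a / 16 ^ M) * 2 :=
    mul_le_mul_of_nonneg_left (sum_half_pow_le n) (by positivity)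
  have c3 : (512 * a / (16 ^ M * 4 ^ M)) * (4 ^ M / 3) = 512 / 3 * (a / 16 ^ M) := by field_simp
  have c4 : (8 * a / 16 ^ M) * 2 = 16 * (a / 16 ^ M) := by ring
  have c5 : 187 * a / 16 ^ M = 187 * (a / 16 ^ M) := by ring
  have c6 : 0 ≤ a / 16 ^ M := by positivity
  linarith

theorem abp_sum {K : Set (E d)} {R : ℝ} (hK : Body K R) {m : ι → ℝ}
    (hm : ∀ i, 0 < m i) (hm1 : ∑ i, m i = 1) {p : ι → E d} (hp : Function.Injective p)
    {A : Set (E d)} (hA : MeasurableSet A) {M : ℕ} (hM : 1 ≤ M)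
    {ψ₀ ψ₁ : ι → ℝ} (h₀ : IsOptWt (uniformProbOn K) m p ψ₀)
    (h₁ : IsOptWt (pert (uniformProbOn K) A (1 / 8 ^ M)) m p ψ₁)
    (w : ι → ℝ) (hw : ∀ i, 0 ≤ w i) {κ : ℝ} (hκ : 0 < κ) :
    ∑ i, ‖bary (pert (uniformProbOn K) A (1 / 8 ^ M)) p ψ₁ i - bary (uniformProbOn K) p ψ₀ i‖ * w i
      ≤ cABP d R * (1 / 8 ^ M) *
        ((uniformProbOn K).real A / κ + κ ^ 3 * ∑ i, m i * w i ^ 4) := by
  classical
  set ρ := uniformProbOn K with hρ
  set σ : ℝ := 1 / 8 ^ M with hσ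
  have hs : IsSrc R ρ := hK.isSrc
  have := hs.prob
  have hR := hK.nonneg
  have hσ0 : 0 < σ := by positivity
  have hσ2 : σ ≤ 1 / 2 := by
    rw [hσ]
    refine one_div_le_one_div_of_le (by norm_num) ?_
    calc (2 : ℝ) ≤ 8 ^ 1 := by norm_num
      _ ≤ 8 ^ M := pow_le_pow_right₀ (by norm_num) hM
  have hσ1 : σ ≤ 1 := by linarith
  set a := ρ.real A with ha
  have ha0 : 0 ≤ a := measureReal_nonneg
  have ha1 : a ≤ 1 := measureReal_le_one
  set N := ∑ i, m i * w i ^ 4 with hN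
  have hN0 : 0 ≤ N := Finset.sum_nonneg fun i _ => mul_nonneg (hm i).le (by positivity)
  set alive : ℕ → ι → Prop := fun k i =>
    (cell p (ψ₀ + (2 ^ (3 * k) : ℝ) • (ψ₁ - ψ₀)) i ∩ K).Nonempty with halive
  have alive0 : ∀ i, alive 0 i := by
    intro i
    have e : ψ₀ + (2 ^ (3 * 0) : ℝ) • (ψ₁ - ψ₀) = ψ₁ := by simp
    simp only [halive]
    rw [e]
    by_contra hne
    rw [not_nonempty_iff_eq_empty] at hne
    have hz : ρ (cell p ψ₁ i) = 0 := by
      refine measure_mono_null (t := Kᶜ) (fun x hx hxK => ?_) hK.ae_mem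
      have : x ∈ cell p ψ₁ i ∩ K := ⟨hx, hxK⟩
      rw [hne] at this; exact this
    have h2 := h₁ i
    rw [pert_real hs A hσ0.le hσ1 (measurableSet_cell p ψ₁ i)] at h2
    have h3 : ρ.real (cell p ψ₁ i) = 0 := by simp [Measure.real, hz]
    have h4 : ρ.real (cell p ψ₁ i ∩ A) = 0 := by
      simp [Measure.real, measure_mono_null inter_subset_left hz]
    rw [h3, h4] at h2
    linarith [hm i]
  set D : ℕ → ℝ := fun k => ∑ i ∈ Finset.univ.filter (fun i => ¬ alive (k + 1) i), m i with hD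
  have hDb : ∀ k, D k ≤ 2 ^ (3 * (k + 1)) * σ * a ∧ D k ≤ 8 * (2 ^ (3 * (k + 1)) * σ) ^ 2 * a :=
    fun k => dead_mass hK hm hm1 hp hA hσ0.le hσ2 h₀ h₁ (3 * (k + 1)) _ fun i hi =>
      not_nonempty_iff_eq_empty.1 (Finset.mem_filter.1 hi).2
  set η : ℝ := κ / 2 ^ M with hη
  have hη0 : 0 < η := by positivity
  have e16 : (16 : ℝ) ^ M = (2 ^ M) ^ 4 := by rw [← pow_mul, mul_comm, pow_mul]; norm_num
  have e8 : (8 : ℝ) ^ M = (2 ^ M) ^ 3 := by rw [← pow_mul, mul_comm, pow_mul]; norm_num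
  have main : ∀ n : ℕ, ∑ i, ‖bary (pert ρ A σ) p ψ₁ i - bary ρ p ψ₀ i‖ * w i ≤
      cABP d R * σ * (a / κ + κ ^ 3 * N) + 2 * R * ((d : ℝ) + 1) / η * (1 / 16) ^ (M + n) := by
    intro n
    choose k hkn hk hk' using fun i => exists_last_alive (fun k => alive k i) (alive0 i) (M + n)
    have hr : ∀ i, ‖bary (pert ρ A σ) p ψ₁ i - bary ρ p ψ₀ i‖ ≤
        m i * (2 * R) * (σ * a + ((d : ℝ) + 1) * ((1 / 2) ^ k i) ^ 3) := fun i => by
      have := bary_bound hK hA hσ0.le hσ1 h₀ h₁ i (τ := 2 ^ (3 * k i))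
        (one_le_pow₀ (by norm_num)) (hk i)
      refine this.trans (le_of_eq ?_)
      rw [← pow_mul, one_div_pow, mul_comm (k i) 3, ← ha]
      ring
    have hP : ∀ i, (((1 / 2 : ℝ)) ^ k i) ^ 4 ≤ (1 / 16) ^ (M + n) +
        ∑ j ∈ Finset.range (M + n), (1 / 16 : ℝ) ^ j * (if ¬ alive (j + 1) i then 1 else 0) := by
      intro i
      have e : (((1 / 2 : ℝ)) ^ k i) ^ 4 = (1 / 16) ^ k i := by
        rw [← pow_mul, mul_comm, pow_mul]; norm_num
      have hnn : ∀ j ∈ Finset.range (M + n),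
          0 ≤ (1 / 16 : ℝ) ^ j * (if ¬ alive (j + 1) i then 1 else 0) := fun j _ => by
        split_ifs <;> positivity
      rw [e]
      rcases (hkn i).eq_or_lt with h | h
      · rw [h]; linarith [Finset.sum_nonneg hnn]
      · have hd : ¬ alive (k i + 1) i := (hk' i).resolve_left h.ne
        have := Finset.single_le_sum hnn (Finset.mem_range.2 h)
        rw [if_pos hd, mul_one] at this
        have h16 : (0 : ℝ) ≤ (1 / 16) ^ (M + n) := by positivity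
        linarith
    have hP4 : ∑ i, m i * (((1 / 2 : ℝ)) ^ k i) ^ 4 ≤ (1 / 16) ^ (M + n) + 187 * a / 16 ^ M := by
      refine (Finset.sum_le_sum fun i _ => mul_le_mul_of_nonneg_left (hP i) (hm i).le).trans ?_
      simp_rw [mul_add]
      rw [Finset.sum_add_distrib, ← Finset.sum_mul, hm1, one_mul]
      refine add_le_add le_rfl (le_trans (le_of_eq ?_)
        (sum_scales ha0 M n D (fun k => (hDb k).1) fun k => (hDb k).2))
      simp_rw [Finset.mul_sum]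
      rw [Finset.sum_comm]
      refine Finset.sum_congr rfl fun j _ => ?_
      simp only [hD, Finset.sum_filter, Finset.mul_sum]
      refine Finset.sum_congr rfl fun i _ => ?_
      split_ifs <;> ring
    have t1 : ∑ i, m i * w i ≤ 3 / 4 / κ + 1 / 4 * κ ^ 3 * N := by
      calc ∑ i, m i * w i ≤ ∑ i, m i * (3 / 4 / κ + 1 / 4 * κ ^ 3 * w i ^ 4) := by
            refine Finset.sum_le_sum fun i _ => mul_le_mul_of_nonneg_left ?_ (hm i).le
            simpa using young34 (x := 1) (w := w i) hκ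
        _ = 3 / 4 / κ + 1 / 4 * κ ^ 3 * N := by
            simp_rw [mul_add]
            rw [Finset.sum_add_distrib, ← Finset.sum_mul, hm1, one_mul, hN, Finset.mul_sum]
            congr 1
            exact Finset.sum_congr rfl fun i _ => by ring
    have t2 : ∑ i, m i * (((1 / 2 : ℝ) ^ k i) ^ 3 * w i) ≤
        3 / 4 / η * ((1 / 16) ^ (M + n) + 187 * a / 16 ^ M) + 1 / 4 * η ^ 3 * N := by
      calc ∑ i, m i * (((1 / 2 : ℝ) ^ k i) ^ 3 * w i)
          ≤ ∑ i, m i * (3 / 4 * ((1 / 2 : ℝ) ^ k i) ^ 4 / η + 1 / 4 * η ^ 3 * w i ^ 4) :=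
            Finset.sum_le_sum fun i _ => mul_le_mul_of_nonneg_left (young34 hη0) (hm i).le
        _ = 3 / 4 / η * ∑ i, m i * ((1 / 2 : ℝ) ^ k i) ^ 4 + 1 / 4 * η ^ 3 * N := by
            rw [hN, Finset.mul_sum, Finset.mul_sum, ← Finset.sum_add_distrib]
            exact Finset.sum_congr rfl fun i _ => by ring
        _ ≤ _ := add_le_add (mul_le_mul_of_nonneg_left hP4 (by positivity)) le_rfl
    have t3 : 3 / 4 / η * ((1 / 16) ^ (M + n) + 187 * a / 16 ^ M) + 1 / 4 * η ^ 3 * N =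
        3 / 4 / η * (1 / 16) ^ (M + n) + σ * (561 / 4 * (a / κ) + 1 / 4 * (κ ^ 3 * N)) := by
      rw [hη, hσ, e16, e8]; field_simp; ring
    have hak : 0 ≤ a / κ := by positivity
    have hkN : 0 ≤ κ ^ 3 * N := by positivity
    have t4 : a * ∑ i, m i * w i ≤ a / κ + κ ^ 3 * N := by
      have := mul_le_mul_of_nonneg_left t1 ha0
      have e : a * (3 / 4 / κ + 1 / 4 * κ ^ 3 * N) = 3 / 4 * (a / κ) + 1 / 4 * (a * (κ ^ 3 * N)) := by
        ring
      have : a * (κ ^ 3 * N) ≤ κ ^ 3 * N := mul_le_of_le_one_left hkN ha1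
      linarith
    have t5 : ∑ i, m i * (((1 / 2 : ℝ) ^ k i) ^ 3 * w i) ≤
        1 / η * (1 / 16) ^ (M + n) + σ * (200 * (a / κ + κ ^ 3 * N)) := by
      refine (t2.trans_eq t3).trans (add_le_add ?_ ?_)
      · refine mul_le_mul_of_nonneg_right ?_ (by positivity)
        exact div_le_div_of_nonneg_right (by norm_num) hη0.le
      · exact mul_le_mul_of_nonneg_left (by linarith) hσ0.le
    calc ∑ i, ‖bary (pert ρ A σ) p ψ₁ i - bary ρ p ψ₀ i‖ * w i
        ≤ ∑ i, m i * (2 * R) * (σ * a + ((d : ℝ) + 1) * ((1 / 2) ^ k i) ^ 3) * w i :=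
          Finset.sum_le_sum fun i _ => mul_le_mul_of_nonneg_right (hr i) (hw i)
      _ = 2 * R * (σ * (a * ∑ i, m i * w i) +
            ((d : ℝ) + 1) * ∑ i, m i * (((1 / 2 : ℝ) ^ k i) ^ 3 * w i)) := by
          simp only [Finset.mul_sum, ← Finset.sum_add_distrib]
          exact Finset.sum_congr rfl fun i _ => by ring
      _ ≤ 2 * R * (σ * (a / κ + κ ^ 3 * N) +
            ((d : ℝ) + 1) * (1 / η * (1 / 16) ^ (M + n) + σ * (200 * (a / κ + κ ^ 3 * N)))) := by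
          gcongr
      _ = _ := by rw [cABP]; ring
  have hlim : Filter.Tendsto (fun n : ℕ => cABP d R * σ * (a / κ + κ ^ 3 * N) +
      2 * R * ((d : ℝ) + 1) / η * (1 / 16) ^ (M + n)) Filter.atTop
      (nhds (cABP d R * σ * (a / κ + κ ^ 3 * N) + 2 * R * ((d : ℝ) + 1) / η * ((1 / 16) ^ M * 0))) := by
    refine tendsto_const_nhds.add (Filter.Tendsto.const_mul _ ?_)
    simp_rw [pow_add]
    exact (tendsto_pow_atTop_nhds_zero_of_lt_one (by norm_num) (by norm_num)).const_mul _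
  have := ge_of_tendsto' hlim main
  simpa using this

end Crest.Agent.R82
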