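import Crest.Agent.R82.Defs
import Crest.Agent.Lib.Prekopa.Basic

/-!
Mass of the cells that die when the weights are extrapolated.
-/

set_option autoImplicit false

open MeasureTheory Set
open scoped ENNReal NNReal
open Crest.AnalysisR.OT

namespace Crest.Agent.R82

variable {d : ℕ} {ι : Type} [Fintype ι] [Nonempty ι]

omit [Nonempty ι] in
/-- The real-variable core of `dead_mass`. -/
theorem dead_mass_real {m V W : ι → ℝ} (hm : ∀ i, 0 < m i) (hm1 : ∑ i, m i = 1)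
    (hW0 : ∀ i, 0 ≤ W i) (hWV : ∀ i, W i ≤ V i) (hV1 : ∑ i, V i = 1) {a σ : ℝ}
    (hWa : ∑ i, W i = a) (ha0 : 0 ≤ a) (ha1 : a ≤ 1) (hσ0 : 0 ≤ σ) (hσ1 : σ ≤ 1 / 2)
    (hmV : ∀ i, m i = (1 - σ * a) * V i + σ * W i) (τ : ℕ) (N : Finset ι)
    [DecidableEq ι] (hsum : 1 ≤ ∑ i ∈ Nᶜ, m i * (V i / m i) ^ τ) :
    ∑ i ∈ N, m i ≤ τ * σ * a ∧ ∑ i ∈ N, m i ≤ 8 * (τ * σ) ^ 2 * a := by
  have hV0 : ∀ i, 0 ≤ V i := fun i => (hW0 i).trans (hWV i)
  have hσa : σ * a ≤ 1 / 2 := by nlinarith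
  have hσa0 : 0 ≤ σ * a := mul_nonneg hσ0 ha0
  have hτ0 : (0 : ℝ) ≤ τ := Nat.cast_nonneg τ
  have hsplit : ∑ i ∈ N, m i + ∑ i ∈ Nᶜ, m i = 1 := by
    rw [Finset.sum_add_sum_compl, hm1]
  have first : ∑ i ∈ N, m i ≤ τ * σ * a := by
    have h1 : ∀ i, (1 - σ * a) ^ τ * (m i * (V i / m i) ^ τ) ≤ m i := by
      intro i
      have h2 : (1 - σ * a) * (V i / m i) ≤ 1 := by
        rw [← mul_div_assoc, div_le_one (hm i)]
        have := mul_nonneg hσ0 (hW0 i)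
        linarith [hmV i]
      have h3 : 0 ≤ (1 - σ * a) * (V i / m i) :=
        mul_nonneg (by linarith) (div_nonneg (hV0 i) (hm i).le)
      have h4 : ((1 - σ * a) * (V i / m i)) ^ τ ≤ 1 := pow_le_one₀ h3 h2
      rw [mul_pow] at h4
      have := mul_le_mul_of_nonneg_left h4 (hm i).le
      linarith
    have h5 : (1 - σ * a) ^ τ ≤ ∑ i ∈ Nᶜ, m i := by
      calc (1 - σ * a) ^ τ = (1 - σ * a) ^ τ * 1 := (mul_one _).symm
        _ ≤ (1 - σ * a) ^ τ * ∑ i ∈ Nᶜ, m i * (V i / m i) ^ τ :=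
          mul_le_mul_of_nonneg_left hsum (pow_nonneg (by linarith) _)
        _ = ∑ i ∈ Nᶜ, (1 - σ * a) ^ τ * (m i * (V i / m i) ^ τ) := Finset.mul_sum _ _ _
        _ ≤ ∑ i ∈ Nᶜ, m i := Finset.sum_le_sum fun i _ => h1 i
    have h6 : 1 + (τ : ℝ) * (-(σ * a)) ≤ (1 + -(σ * a)) ^ τ :=
      one_add_mul_le_pow (by linarith) τ
    have h7 : (1 + -(σ * a)) = 1 - σ * a := by ring
    rw [h7] at h6
    nlinarith
  refine ⟨first, ?_⟩
  by_cases hc : 1 / 2 < (τ : ℝ) * σ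
  · have h1 : (τ : ℝ) * σ ≤ 8 * (τ * σ) ^ 2 := by nlinarith
    exact first.trans (mul_le_mul_of_nonneg_right h1 ha0)
  push Not at hc
  have hup : ∀ i, m i * (V i / m i) ^ τ ≤
      m i + τ * (V i - m i) + (τ * σ) ^ 2 * (2 * (a * V i + W i)) := by
    intro i
    have hmi := hm i
    set δ := V i / m i - 1 with hδ
    have hmδ : m i * δ = V i - m i := by rw [hδ]; field_simp
    have hmδ' : m i * δ = σ * (a * V i - W i) := by rw [hmδ, hmV i]; ring
    have hV2 : V i ≤ 2 * m i := by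
      have := mul_nonneg hσ0 (hW0 i)
      have h2 : V i / 2 ≤ (1 - σ * a) * V i := by nlinarith [hV0 i]
      linarith [hmV i]
    have haV : a * V i ≤ V i := by nlinarith [hV0 i]
    have haV0 : 0 ≤ a * V i := mul_nonneg ha0 (hV0 i)
    have habs : |δ| ≤ 2 * σ := by
      have h1 : |m i * δ| ≤ m i * (2 * σ) := by
        rw [hmδ', abs_mul, abs_of_nonneg hσ0]
        have h2 : |a * V i - W i| ≤ 2 * m i := by
          rw [abs_le]; constructor <;> linarith [hW0 i, hWV i]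
        nlinarith
      rw [abs_mul, abs_of_pos hmi] at h1
      exact le_of_mul_le_mul_left h1 hmi
    have hτδ : |(τ : ℝ) * δ| ≤ 1 := by
      rw [abs_mul, abs_of_nonneg hτ0]
      nlinarith
    have hv : V i / m i = δ + 1 := by rw [hδ]; ring
    have hv0 : 0 ≤ δ + 1 := hv ▸ div_nonneg (hV0 i) hmi.le
    have h1 : (δ + 1) ^ τ ≤ Real.exp (τ * δ) := by
      rw [Real.exp_nat_mul]
      exact pow_le_pow_left₀ hv0 (Real.add_one_le_exp δ) τ
    have h2 := Real.abs_exp_sub_one_sub_id_le hτδ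
    have h3 : Real.exp (τ * δ) ≤ 1 + τ * δ + (τ * δ) ^ 2 := by
      have := (abs_le.1 h2).2
      linarith
    have h4 : m i * δ ^ 2 ≤ σ ^ 2 * (2 * (a * V i + W i)) := by
      have h5 : m i * δ ^ 2 = δ * (σ * (a * V i - W i)) := by rw [← hmδ']; ring
      have h6 : |a * V i - W i| ≤ a * V i + W i := by
        rw [abs_le]; constructor <;> linarith [hW0 i]
      have h7 : δ * (σ * (a * V i - W i)) ≤ |δ| * (σ * |a * V i - W i|) := by
        calc δ * (σ * (a * V i - W i)) ≤ |δ * (σ * (a * V i - W i))| := le_abs_self _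
          _ = |δ| * (σ * |a * V i - W i|) := by rw [abs_mul, abs_mul, abs_of_nonneg hσ0]
      have h8 : |δ| * (σ * |a * V i - W i|) ≤ (2 * σ) * (σ * (a * V i + W i)) :=
        mul_le_mul habs (mul_le_mul_of_nonneg_left h6 hσ0)
          (mul_nonneg hσ0 (abs_nonneg _)) (by linarith)
      rw [h5]
      nlinarith
    rw [hv]
    calc m i * (δ + 1) ^ τ ≤ m i * (1 + τ * δ + (τ * δ) ^ 2) :=
          mul_le_mul_of_nonneg_left (h1.trans h3) hmi.le
      _ = m i + τ * (m i * δ) + τ ^ 2 * (m i * δ ^ 2) := by ring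
      _ ≤ m i + τ * (V i - m i) + τ ^ 2 * (σ ^ 2 * (2 * (a * V i + W i))) := by
          rw [hmδ]
          have := mul_le_mul_of_nonneg_left h4 (sq_nonneg (τ : ℝ))
          linarith
      _ = _ := by ring
  have hall : ∑ i, m i * (V i / m i) ^ τ ≤ 1 + 4 * (τ * σ) ^ 2 * a := by
    refine (Finset.sum_le_sum fun i _ => hup i).trans (le_of_eq ?_)
    simp only [Finset.sum_add_distrib, ← Finset.mul_sum, Finset.sum_sub_distrib, hm1, hV1, hWa]
    ring
  have hlow : ∀ i, m i / 2 ≤ m i * (V i / m i) ^ τ := by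
    intro i
    have hmi := hm i
    have h1 : 1 - σ ≤ V i / m i := by
      rw [le_div_iff₀ hmi]
      have h2 : m i ≤ (1 + σ) * V i := by
        have h3 := mul_le_mul_of_nonneg_left (hWV i) hσ0
        have h4 := mul_nonneg hσa0 (hV0 i)
        nlinarith [hmV i]
      have h3 : (1 - σ) * m i ≤ (1 - σ) * ((1 + σ) * V i) :=
        mul_le_mul_of_nonneg_left h2 (by linarith)
      nlinarith [mul_nonneg (mul_nonneg hσ0 hσ0) (hV0 i)]
    have h2 : (1 - σ) ^ τ ≤ (V i / m i) ^ τ := pow_le_pow_left₀ (by linarith) h1 τ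
    have h3 : 1 + (τ : ℝ) * (-σ) ≤ (1 + -σ) ^ τ := one_add_mul_le_pow (by linarith) τ
    have h4 : (1 + -σ) = 1 - σ := by ring
    rw [h4] at h3
    have h5 : 1 / 2 ≤ (V i / m i) ^ τ := by linarith
    nlinarith
  have h1 : ∑ i ∈ N, m i / 2 ≤ ∑ i ∈ N, m i * (V i / m i) ^ τ :=
    Finset.sum_le_sum fun i _ => hlow i
  rw [← Finset.sum_div] at h1
  have h2 := Finset.sum_add_sum_compl N fun i => m i * (V i / m i) ^ τ
  linarith

omit [Fintype ι] [Nonempty ι] in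
/-- Brunn–Minkowski for the masses of the extrapolated cells. -/
theorem real_cell_mul_le_sq {K : Set (E d)} {R : ℝ} (hK : Body K R) (p : ι → E d)
    (ψ₀ ψ₁ : ι → ℝ) (t : ℝ) (i : ι) :
    (uniformProbOn K).real (cell p ψ₀ i) *
        (uniformProbOn K).real (cell p (ψ₀ + (2 * t) • (ψ₁ - ψ₀)) i) ≤
      (uniformProbOn K).real (cell p (ψ₀ + t • (ψ₁ - ψ₀)) i) ^ 2 := by
  have hKm := hK.measurableSet
  have key := Crest.Agent.Lib.Prekopa.volume_mul_le_sq (cell p ψ₀ i ∩ K)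
    (cell p (ψ₀ + (2 * t) • (ψ₁ - ψ₀)) i ∩ K) (cell p (ψ₀ + t • (ψ₁ - ψ₀)) i ∩ K)
    ((measurableSet_cell _ _ _).inter hKm) ((measurableSet_cell _ _ _).inter hKm)
    ((measurableSet_cell _ _ _).inter hKm) (by
      intro x hx y hy
      refine ⟨?_, hK.convex hx.2 hy.2 (by norm_num) (by norm_num) (by norm_num)⟩
      have h1 := combo_mem_cell hx.1 hy.1 (a := 1 / 2) (b := 1 / 2) (by norm_num) (by norm_num)
      have h2 : (1 / 2 : ℝ) • ψ₀ + (1 / 2 : ℝ) • (ψ₀ + (2 * t) • (ψ₁ - ψ₀)) =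
          ψ₀ + t • (ψ₁ - ψ₀) := by
        ext k
        simp only [Pi.add_apply, Pi.smul_apply, Pi.sub_apply, smul_eq_mul]
        ring
      rwa [h2] at h1)
  have hfin : ∀ S : Set (E d), volume (S ∩ K) ≠ ⊤ := fun S =>
    ((measure_mono inter_subset_right).trans_lt hK.volume_ne_top.lt_top).ne
  have key' := ENNReal.toReal_mono (ENNReal.pow_ne_top (hfin _)) key
  rw [ENNReal.toReal_mul, ENNReal.toReal_pow] at key'
  simp only [Measure.real, uniformProbOn_apply K (measurableSet_cell _ _ _), ENNReal.toReal_mul]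
  have h0 : 0 ≤ ((volume K)⁻¹).toReal ^ 2 := sq_nonneg _
  have := mul_le_mul_of_nonneg_left key' h0
  nlinarith

/-- The total mass of the indices whose extrapolated cell at time `2 ^ j` misses `K`. -/
theorem dead_mass {K : Set (E d)} {R : ℝ} (hK : Body K R) {m : ι → ℝ}
    (hm : ∀ i, 0 < m i) (hm1 : ∑ i, m i = 1) {p : ι → E d} (hp : Function.Injective p)
    {A : Set (E d)} (hA : MeasurableSet A) {σ : ℝ} (hσ0 : 0 ≤ σ) (hσ1 : σ ≤ 1 / 2)
    {ψ₀ ψ₁ : ι → ℝ} (h₀ : IsOptWt (uniformProbOn K) m p ψ₀)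
    (h₁ : IsOptWt (pert (uniformProbOn K) A σ) m p ψ₁) (j : ℕ) (N : Finset ι)
    (hN : ∀ i ∈ N, cell p (ψ₀ + (2 ^ j : ℝ) • (ψ₁ - ψ₀)) i ∩ K = ∅) :
    ∑ i ∈ N, m i ≤ 2 ^ j * σ * (uniformProbOn K).real A ∧
      ∑ i ∈ N, m i ≤ 8 * (2 ^ j * σ) ^ 2 * (uniformProbOn K).real A := by
  classical
  have hS := hK.isSrc
  have hprob := hS.prob
  set ρ := uniformProbOn K with hρ
  have hgrow : ∀ (i : ι) (k : ℕ), ρ.real (cell p (ψ₀ + (2 ^ k : ℝ) • (ψ₁ - ψ₀)) i) ≤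
      m i * (ρ.real (cell p ψ₁ i) / m i) ^ (2 ^ k) := by
    intro i k
    have hmi := hm i
    induction k with
    | zero =>
      have h1 : ψ₀ + ((2 : ℝ) ^ 0) • (ψ₁ - ψ₀) = ψ₁ := by simp
      rw [h1, pow_zero, pow_one, mul_div_cancel₀ _ hmi.ne']
    | succ k ih =>
      have h1 := real_cell_mul_le_sq hK p ψ₀ ψ₁ (2 ^ k) i
      rw [h₀ i, ← hρ, ← pow_succ'] at h1
      have h2 : ρ.real (cell p (ψ₀ + (2 ^ k : ℝ) • (ψ₁ - ψ₀)) i) ^ 2 ≤
          (m i * (ρ.real (cell p ψ₁ i) / m i) ^ (2 ^ k)) ^ 2 :=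
        pow_le_pow_left₀ measureReal_nonneg ih 2
      have h3 := h1.trans h2
      rw [mul_pow, ← pow_mul, ← pow_succ, sq, mul_assoc] at h3
      exact le_of_mul_le_mul_left h3 hmi
  have hsum : 1 ≤ ∑ i ∈ Nᶜ, m i * (ρ.real (cell p ψ₁ i) / m i) ^ (2 ^ j) := by
    have h1 := hS.sum_real_cell hp (ψ₀ + (2 ^ j : ℝ) • (ψ₁ - ψ₀))
    rw [← Finset.sum_add_sum_compl N] at h1
    have h2 : ∑ i ∈ N, ρ.real (cell p (ψ₀ + (2 ^ j : ℝ) • (ψ₁ - ψ₀)) i) = 0 := by
      refine Finset.sum_eq_zero fun i hi => ?_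
      rw [Measure.real, hρ, uniformProbOn_apply K (measurableSet_cell _ _ _), hN i hi]
      simp
    rw [h2, zero_add] at h1
    rw [← h1]
    exact Finset.sum_le_sum fun i _ => hgrow i j
  have := dead_mass_real (V := fun i => ρ.real (cell p ψ₁ i))
    (W := fun i => ρ.real (cell p ψ₁ i ∩ A)) (a := ρ.real A) (σ := σ) hm hm1
    (fun i => measureReal_nonneg) (fun i => measureReal_mono inter_subset_left)
    (hS.sum_real_cell hp ψ₁) (hS.sum_real_cell_inter hp ψ₁ hA) measureReal_nonneg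
    measureReal_le_one hσ0 hσ1
    (fun i => by rw [← h₁ i, pert_real hS A hσ0 (by linarith) (measurableSet_cell _ _ _)])
    (2 ^ j) N hsum
  simpa using this

end Crest.Agent.R82
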