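import Mathlib
import Crest.Prelude.Def_QuadraticTransport

/-!
Semi-discrete optimal transport: definitions and first facts (result 82).
-/

set_option autoImplicit false

open MeasureTheory Set
open scoped ENNReal NNReal
open Crest.AnalysisR.OT

namespace Crest.Agent.R82

abbrev E (d : ℕ) : Type := EuclideanSpace ℝ (Fin d)

variable {d : ℕ} {ι : Type} [Fintype ι] [Nonempty ι]

/-- A convex body inside the ball of radius `R`. -/
structure Body (K : Set (E d)) (R : ℝ) : Prop where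
  compact : IsCompact K
  convex : Convex ℝ K
  int : (interior K).Nonempty
  bdd : ∀ x ∈ K, ‖x‖ ≤ R

/-- A source measure: probability, absolutely continuous, carried by the ball of radius `R`. -/
structure IsSrc (R : ℝ) (ϱ : Measure (E d)) : Prop where
  prob : IsProbabilityMeasure ϱ
  ac : ϱ ≪ volume
  bdd : ∀ᵐ x ∂ϱ, ‖x‖ ≤ R

/-- The piecewise affine potential of points `p` and weights `ψ`. -/
noncomputable def pot (p : ι → E d) (ψ : ι → ℝ) (x : E d) : ℝ :=
  Finset.univ.sup' Finset.univ_nonempty fun i => inner ℝ x (p i) - ψ i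

/-- The closed Laguerre cell of index `i`. -/
def cell (p : ι → E d) (ψ : ι → ℝ) (i : ι) : Set (E d) :=
  {x | ∀ j, inner ℝ x (p j) - ψ j ≤ inner ℝ x (p i) - ψ i}

/-- The weights `ψ` give every cell the prescribed mass. -/
def IsOptWt (ϱ : Measure (E d)) (m : ι → ℝ) (p : ι → E d) (ψ : ι → ℝ) : Prop :=
  ∀ i, ϱ.real (cell p ψ i) = m i

/-- The dual functional. -/
noncomputable def dual (ϱ : Measure (E d)) (m : ι → ℝ) (p : ι → E d) (ψ : ι → ℝ) : ℝ :=
  ∫ x, pot p ψ x ∂ϱ + ∑ i, m i * ψ i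

/-- The (unnormalised) barycentre of a cell. -/
noncomputable def bary (ϱ : Measure (E d)) (p : ι → E d) (ψ : ι → ℝ) (i : ι) : E d :=
  ∫ x in cell p ψ i, x ∂ϱ

/-- The source with density `1 + σ (1_A - ρ A)` with respect to `ρ`. -/
noncomputable def pert (ρ : Measure (E d)) (A : Set (E d)) (σ : ℝ) : Measure (E d) :=
  ENNReal.ofReal (1 - σ * ρ.real A) • ρ + ENNReal.ofReal σ • ρ.restrict A

/-- The constant of the barycentre estimate. -/
noncomputable def cABP (d : ℕ) (R : ℝ) : ℝ := 2 * R * (1 + 200 * ((d : ℝ) + 1))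

/-! ### Potentials and cells -/

theorem le_pot (p : ι → E d) (ψ : ι → ℝ) (x : E d) (i : ι) :
    inner ℝ x (p i) - ψ i ≤ pot p ψ x :=
  Finset.le_sup' (fun i => inner ℝ x (p i) - ψ i) (Finset.mem_univ i)

theorem pot_le (p : ι → E d) (ψ : ι → ℝ) (x : E d) {c : ℝ}
    (h : ∀ i, inner ℝ x (p i) - ψ i ≤ c) : pot p ψ x ≤ c :=
  Finset.sup'_le _ _ fun i _ => h i

theorem pot_eq_of_mem_cell {p : ι → E d} {ψ : ι → ℝ} {x : E d} {i : ι} (h : x ∈ cell p ψ i) :
    pot p ψ x = inner ℝ x (p i) - ψ i :=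
  le_antisymm (pot_le p ψ x h) (le_pot p ψ x i)

theorem mem_cell_iff {p : ι → E d} {ψ : ι → ℝ} {x : E d} {i : ι} :
    x ∈ cell p ψ i ↔ pot p ψ x = inner ℝ x (p i) - ψ i :=
  ⟨pot_eq_of_mem_cell, fun h j => h ▸ le_pot p ψ x j⟩

theorem exists_mem_cell (p : ι → E d) (ψ : ι → ℝ) (x : E d) : ∃ i, x ∈ cell p ψ i := by
  obtain ⟨i, -, hi⟩ := Finset.exists_max_image Finset.univ (fun i => inner ℝ x (p i) - ψ i)
    Finset.univ_nonempty
  exact ⟨i, fun j => hi j (Finset.mem_univ j)⟩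

theorem iUnion_cell (p : ι → E d) (ψ : ι → ℝ) : ⋃ i, cell p ψ i = univ :=
  eq_univ_of_forall fun x => mem_iUnion.2 (exists_mem_cell p ψ x)

omit [Fintype ι] [Nonempty ι] in
theorem isClosed_cell (p : ι → E d) (ψ : ι → ℝ) (i : ι) : IsClosed (cell p ψ i) := by
  have : cell p ψ i = ⋂ j, {x : E d | inner ℝ x (p j) - ψ j ≤ inner ℝ x (p i) - ψ i} := by
    ext x; simp [cell]
  rw [this]
  exact isClosed_iInter fun j => isClosed_le (by fun_prop) (by fun_prop)

omit [Fintype ι] [Nonempty ι] in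
theorem measurableSet_cell (p : ι → E d) (ψ : ι → ℝ) (i : ι) : MeasurableSet (cell p ψ i) :=
  (isClosed_cell p ψ i).measurableSet

omit [Fintype ι] [Nonempty ι] in
/-- Cells are jointly convex in the point and the weights. -/
theorem combo_mem_cell {p : ι → E d} {ψ χ : ι → ℝ} {i : ι} {x y : E d} (hx : x ∈ cell p ψ i)
    (hy : y ∈ cell p χ i) {a b : ℝ} (ha : 0 ≤ a) (hb : 0 ≤ b) :
    a • x + b • y ∈ cell p (a • ψ + b • χ) i := by
  intro j
  have h1 := mul_le_mul_of_nonneg_left (hx j) ha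
  have h2 := mul_le_mul_of_nonneg_left (hy j) hb
  simp only [inner_add_left, real_inner_smul_left, Pi.add_apply, Pi.smul_apply, smul_eq_mul]
  linarith

theorem abs_pot_sub_le {p : ι → E d} {L : ℝ} (hL : ∀ i, ‖p i‖ ≤ L) (ψ : ι → ℝ) (x y : E d) :
    |pot p ψ x - pot p ψ y| ≤ L * ‖x - y‖ := by
  have key : ∀ x y : E d, pot p ψ x - pot p ψ y ≤ L * ‖x - y‖ := by
    intro x y
    obtain ⟨i, hi⟩ := exists_mem_cell p ψ x
    have h1 := le_pot p ψ y i
    have h2 : inner ℝ (x - y) (p i) ≤ ‖x - y‖ * ‖p i‖ := real_inner_le_norm _ _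
    have h3 : ‖x - y‖ * ‖p i‖ ≤ ‖x - y‖ * L := mul_le_mul_of_nonneg_left (hL i) (norm_nonneg _)
    rw [pot_eq_of_mem_cell hi]
    rw [inner_sub_left] at h2
    linarith
  rw [abs_le]
  constructor
  · have := key y x
    rw [norm_sub_rev] at this
    linarith
  · exact key x y

theorem abs_pot_sub_pot_le (p : ι → E d) {ψ χ : ι → ℝ} {c ε : ℝ}
    (h : ∀ i, |χ i - ψ i - c| ≤ ε) (x : E d) : |pot p χ x - pot p ψ x + c| ≤ ε := by
  obtain ⟨i, hi⟩ := exists_mem_cell p ψ x
  obtain ⟨j, hj⟩ := exists_mem_cell p χ x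
  have h1 := le_pot p χ x i
  have h2 := le_pot p ψ x j
  have h3 := abs_le.1 (h i)
  have h4 := abs_le.1 (h j)
  have h5 := pot_eq_of_mem_cell hi
  have h6 := pot_eq_of_mem_cell hj
  rw [abs_le]
  constructor <;> linarith [h3.1, h3.2, h4.1, h4.2]

omit [Nonempty ι] in
theorem exists_norm_bound (p : ι → E d) : ∃ L : ℝ, 0 ≤ L ∧ ∀ i, ‖p i‖ ≤ L :=
  ⟨∑ i, ‖p i‖, Finset.sum_nonneg fun _ _ => norm_nonneg _, fun i =>
    Finset.single_le_sum (f := fun i => ‖p i‖) (fun _ _ => norm_nonneg _) (Finset.mem_univ i)⟩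

theorem continuous_pot (p : ι → E d) (ψ : ι → ℝ) : Continuous (pot p ψ) := by
  obtain ⟨L, hL0, hL⟩ := exists_norm_bound p
  refine (LipschitzWith.of_dist_le_mul (K := ⟨L, hL0⟩) fun x y => ?_).continuous
  rw [Real.dist_eq, dist_eq_norm]
  exact abs_pot_sub_le hL ψ x y

theorem convexOn_pot (p : ι → E d) (ψ : ι → ℝ) : ConvexOn ℝ univ (pot p ψ) := by
  refine ⟨convex_univ, fun x _ y _ a b ha hb hab => pot_le _ _ _ fun i => ?_⟩
  have h1 := mul_le_mul_of_nonneg_left (le_pot p ψ x i) ha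
  have h2 := mul_le_mul_of_nonneg_left (le_pot p ψ y i) hb
  simp only [inner_add_left, real_inner_smul_left, smul_eq_mul]
  have : ψ i = a * ψ i + b * ψ i := by rw [← add_mul, hab, one_mul]
  linarith

omit [Fintype ι] [Nonempty ι] in
/-- Two different cells meet in a null set. -/
theorem volume_cell_inter {p : ι → E d} (hp : Function.Injective p) (ψ : ι → ℝ) {i j : ι}
    (hij : i ≠ j) : volume (cell p ψ i ∩ cell p ψ j) = 0 := by
  have hne : p i - p j ≠ 0 := sub_ne_zero.2 fun h => hij (hp h)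
  let f : E d →ᵃ[ℝ] ℝ := (innerSL ℝ (p i - p j)).toLinearMap.toAffineMap
  let s : AffineSubspace ℝ (E d) := AffineSubspace.comap f (AffineSubspace.mk' (ψ i - ψ j) ⊥)
  have hmem : ∀ x, x ∈ s ↔ inner ℝ (p i - p j) x = ψ i - ψ j := by
    intro x
    simp [s, f, AffineSubspace.mem_mk', sub_eq_zero, inner_sub_left]
  have hs : s ≠ ⊤ := by
    intro h
    have h0 : (0 : E d) ∈ s := h ▸ AffineSubspace.mem_top ℝ _ _
    have h1 : (p i - p j) ∈ s := h ▸ AffineSubspace.mem_top ℝ _ _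
    rw [hmem] at h0 h1
    rw [inner_zero_right] at h0
    rw [← h0, inner_self_eq_zero] at h1
    exact hne h1
  refine measure_mono_null (fun x hx => ?_) (Measure.addHaar_affineSubspace volume s hs)
  have h1 := hx.1 j
  have h2 := hx.2 i
  rw [SetLike.mem_coe, hmem, inner_sub_left, real_inner_comm x, real_inner_comm x]
  linarith

/-! ### Sources -/

theorem IsSrc.integrable_of_continuous {R : ℝ} {ϱ : Measure (E d)} (h : IsSrc R ϱ)
    {F : Type*} [NormedAddCommGroup F] {f : E d → F} (hf : Continuous f) : Integrable f ϱ := by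
  have := h.prob
  obtain ⟨C, hC⟩ := (isCompact_closedBall (0 : E d) R).exists_bound_of_continuousOn
    hf.continuousOn
  refine Integrable.of_bound hf.aestronglyMeasurable C ?_
  filter_upwards [h.bdd] with x hx
  exact hC x (by simpa using hx)

omit [Fintype ι] [Nonempty ι] in
theorem IsSrc.aedisjoint_cell {R : ℝ} {ϱ : Measure (E d)} (h : IsSrc R ϱ) {p : ι → E d}
    (hp : Function.Injective p) (ψ : ι → ℝ) :
    Pairwise (Function.onFun (AEDisjoint ϱ) (cell p ψ)) :=
  fun _ _ hij => h.ac (volume_cell_inter hp ψ hij)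

/-- An integral splits along the cells. -/
theorem IsSrc.integral_eq_sum_cell {R : ℝ} {ϱ : Measure (E d)} (h : IsSrc R ϱ) {p : ι → E d}
    (hp : Function.Injective p) (ψ : ι → ℝ) {F : Type*} [NormedAddCommGroup F] [NormedSpace ℝ F]
    {f : E d → F} (hf : Integrable f ϱ) :
    ∫ x, f x ∂ϱ = ∑ i, ∫ x in cell p ψ i, f x ∂ϱ := by
  have := integral_iUnion_ae (μ := ϱ) (f := f) (s := cell p ψ)
    (fun i => (measurableSet_cell p ψ i).nullMeasurableSet) (h.aedisjoint_cell hp ψ)
    (by rw [iUnion_cell]; exact hf.integrableOn)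
  rw [iUnion_cell, Measure.restrict_univ, tsum_fintype] at this
  exact this

theorem IsSrc.sum_real_cell_inter {R : ℝ} {ϱ : Measure (E d)} (h : IsSrc R ϱ) {p : ι → E d}
    (hp : Function.Injective p) (ψ : ι → ℝ) {A : Set (E d)} (hA : MeasurableSet A) :
    ∑ i, ϱ.real (cell p ψ i ∩ A) = ϱ.real A := by
  have := h.prob
  have h1 := h.integral_eq_sum_cell hp ψ (f := A.indicator fun _ => (1 : ℝ))
    ((integrable_const (1 : ℝ)).indicator hA)
  simp only [integral_indicator hA, integral_const, smul_eq_mul, mul_one,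
    Measure.restrict_restrict hA, measureReal_restrict_apply_univ] at h1
  rw [h1]
  exact Finset.sum_congr rfl fun i _ => by rw [inter_comm]

theorem IsSrc.sum_real_cell {R : ℝ} {ϱ : Measure (E d)} (h : IsSrc R ϱ) {p : ι → E d}
    (hp : Function.Injective p) (ψ : ι → ℝ) : ∑ i, ϱ.real (cell p ψ i) = 1 := by
  have := h.prob
  simpa using h.sum_real_cell_inter hp ψ MeasurableSet.univ

theorem Body.volume_pos {K : Set (E d)} {R : ℝ} (hK : Body K R) : 0 < volume K :=
  (isOpen_interior.measure_pos volume hK.int).trans_le (measure_mono interior_subset)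

theorem Body.volume_ne_top {K : Set (E d)} {R : ℝ} (hK : Body K R) : volume K ≠ ⊤ :=
  hK.compact.measure_lt_top.ne

theorem Body.measurableSet {K : Set (E d)} {R : ℝ} (hK : Body K R) : MeasurableSet K :=
  hK.compact.measurableSet

theorem Body.nonneg {K : Set (E d)} {R : ℝ} (hK : Body K R) : 0 ≤ R := by
  obtain ⟨x, hx⟩ := hK.int
  exact (norm_nonneg x).trans (hK.bdd x (interior_subset hx))

theorem uniformProbOn_apply (K : Set (E d)) {S : Set (E d)} (hS : MeasurableSet S) :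
    uniformProbOn K S = (volume K)⁻¹ * volume (S ∩ K) := by
  simp [uniformProbOn, Measure.restrict_apply hS]

theorem Body.ae_mem {K : Set (E d)} {R : ℝ} (hK : Body K R) :
    ∀ᵐ x ∂uniformProbOn K, x ∈ K :=
  Measure.ae_smul_measure (ae_restrict_mem hK.measurableSet) _

theorem Body.isSrc {K : Set (E d)} {R : ℝ} (hK : Body K R) : IsSrc R (uniformProbOn K) where
  prob := ⟨by
    rw [uniformProbOn_apply K MeasurableSet.univ, univ_inter,
      ENNReal.inv_mul_cancel hK.volume_pos.ne' hK.volume_ne_top]⟩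
  ac := Measure.AbsolutelyContinuous.smul_left Measure.absolutelyContinuous_restrict _
  bdd := hK.ae_mem.mono hK.bdd

theorem pert_coeff_nonneg {R : ℝ} {ρ : Measure (E d)} (h : IsSrc R ρ) (A : Set (E d)) {σ : ℝ}
    (h0 : 0 ≤ σ) (h1 : σ ≤ 1) : 0 ≤ 1 - σ * ρ.real A := by
  have := h.prob
  have h2 : ρ.real A ≤ 1 := measureReal_le_one
  have h3 : 0 ≤ ρ.real A := measureReal_nonneg
  nlinarith

theorem pert_real {R : ℝ} {ρ : Measure (E d)} (h : IsSrc R ρ) (A : Set (E d)) {σ : ℝ}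
    (h0 : 0 ≤ σ) (h1 : σ ≤ 1) {S : Set (E d)} (hS : MeasurableSet S) :
    (pert ρ A σ).real S = (1 - σ * ρ.real A) * ρ.real S + σ * ρ.real (S ∩ A) := by
  have := h.prob
  have h2 := pert_coeff_nonneg h A h0 h1
  simp only [pert, Measure.real, Measure.add_apply, Measure.smul_apply, smul_eq_mul,
    Measure.restrict_apply hS] at h2 ⊢
  rw [ENNReal.toReal_add (by finiteness) (by finiteness), ENNReal.toReal_mul, ENNReal.toReal_mul,
    ENNReal.toReal_ofReal h2, ENNReal.toReal_ofReal h0]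

theorem IsSrc.pert {R : ℝ} {ρ : Measure (E d)} (h : IsSrc R ρ) (A : Set (E d)) {σ : ℝ}
    (h0 : 0 ≤ σ) (h1 : σ ≤ 1) : IsSrc R (pert ρ A σ) where
  prob := by
    have := h.prob
    have h2 := pert_real h A h0 h1 MeasurableSet.univ
    have h3 : (R82.pert ρ A σ).real univ = 1 := by rw [h2, univ_inter, probReal_univ]; ring
    exact ⟨(ENNReal.toReal_eq_one_iff _).1 h3⟩
  ac := Measure.AbsolutelyContinuous.add_left (h.ac.smul_left _)
    ((Measure.absolutelyContinuous_restrict.trans h.ac).smul_left _)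
  bdd := by
    rw [R82.pert, ae_add_measure_iff]
    exact ⟨Measure.ae_smul_measure h.bdd _, Measure.ae_smul_measure (ae_restrict_of_ae h.bdd) _⟩

theorem setIntegral_pert {R : ℝ} {ρ : Measure (E d)} (h : IsSrc R ρ) (A : Set (E d)) {σ : ℝ}
    (h0 : 0 ≤ σ) (h1 : σ ≤ 1) {F : Type*} [NormedAddCommGroup F] [NormedSpace ℝ F]
    {f : E d → F} (hf : Integrable f ρ) {S : Set (E d)} (hS : MeasurableSet S) :
    ∫ x in S, f x ∂(pert ρ A σ) =
      (1 - σ * ρ.real A) • ∫ x in S, f x ∂ρ + σ • ∫ x in S ∩ A, f x ∂ρ := by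
  have h2 := pert_coeff_nonneg h A h0 h1
  rw [pert, Measure.restrict_add, Measure.restrict_smul, Measure.restrict_smul,
    Measure.restrict_restrict hS, integral_add_measure, integral_smul_measure,
    integral_smul_measure, ENNReal.toReal_ofReal h2, ENNReal.toReal_ofReal h0]
  · exact hf.integrableOn.smul_measure ENNReal.ofReal_ne_top
  · exact hf.integrableOn.smul_measure ENNReal.ofReal_ne_top

theorem integral_pert {R : ℝ} {ρ : Measure (E d)} (h : IsSrc R ρ) (A : Set (E d)) {σ : ℝ}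
    (h0 : 0 ≤ σ) (h1 : σ ≤ 1) {F : Type*} [NormedAddCommGroup F] [NormedSpace ℝ F]
    {f : E d → F} (hf : Integrable f ρ) :
    ∫ x, f x ∂(pert ρ A σ) = (1 - σ * ρ.real A) • ∫ x, f x ∂ρ + σ • ∫ x in A, f x ∂ρ := by
  simpa using setIntegral_pert h A h0 h1 hf MeasurableSet.univ

/-! ### Weak duality -/

omit [Fintype ι] [Nonempty ι] in
theorem inner_bary {R : ℝ} {ϱ : Measure (E d)} (h : IsSrc R ϱ) (p : ι → E d) (ψ : ι → ℝ) (i : ι)
    (y : E d) : inner ℝ (bary ϱ p ψ i) y = ∫ x in cell p ψ i, inner ℝ x y ∂ϱ := by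
  have hi : Integrable (fun x : E d => x) (ϱ.restrict (cell p ψ i)) :=
    (h.integrable_of_continuous continuous_id).integrableOn
  rw [bary, real_inner_comm, ← integral_inner hi]
  simp_rw [real_inner_comm y]

/-- Weak duality: the cells of optimal weights against any points and weights. -/
theorem sum_inner_bary_le {R : ℝ} {ϱ : Measure (E d)} (h : IsSrc R ϱ) {m : ι → ℝ} {p : ι → E d}
    (hp : Function.Injective p) {ψ : ι → ℝ} (hψ : IsOptWt ϱ m p ψ) (q : ι → E d) (χ : ι → ℝ) :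
    ∑ i, inner ℝ (bary ϱ p ψ i) (q i) ≤ dual ϱ m q χ := by
  have := h.prob
  rw [dual, h.integral_eq_sum_cell hp ψ (h.integrable_of_continuous (continuous_pot q χ)),
    ← Finset.sum_add_distrib]
  refine Finset.sum_le_sum fun i _ => ?_
  rw [inner_bary h, ← hψ i]
  have h1 : ∫ x in cell p ψ i, (inner ℝ x (q i) - χ i) ∂ϱ ≤ ∫ x in cell p ψ i, pot q χ x ∂ϱ :=
    integral_mono (h.integrable_of_continuous (by fun_prop)).integrableOn
      (h.integrable_of_continuous (continuous_pot q χ)).integrableOn fun x => le_pot q χ x i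
  rw [integral_sub (h.integrable_of_continuous (by fun_prop)).integrableOn (integrable_const _),
    setIntegral_const, smul_eq_mul] at h1
  linarith

/-- Equality in weak duality for the optimal weights themselves. -/
theorem sum_inner_bary_eq {R : ℝ} {ϱ : Measure (E d)} (h : IsSrc R ϱ) {m : ι → ℝ} {p : ι → E d}
    (hp : Function.Injective p) {ψ : ι → ℝ} (hψ : IsOptWt ϱ m p ψ) :
    ∑ i, inner ℝ (bary ϱ p ψ i) (p i) = dual ϱ m p ψ := by
  have := h.prob
  rw [dual, h.integral_eq_sum_cell hp ψ (h.integrable_of_continuous (continuous_pot p ψ)),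
    ← Finset.sum_add_distrib]
  refine Finset.sum_congr rfl fun i _ => ?_
  rw [inner_bary h, ← hψ i]
  have h1 : ∫ x in cell p ψ i, pot p ψ x ∂ϱ = ∫ x in cell p ψ i, (inner ℝ x (p i) - ψ i) ∂ϱ :=
    setIntegral_congr_fun (measurableSet_cell p ψ i) fun x hx => pot_eq_of_mem_cell hx
  rw [integral_sub (h.integrable_of_continuous (by fun_prop)).integrableOn (integrable_const _),
    setIntegral_const, smul_eq_mul] at h1
  linarith

theorem dual_le_dual {R : ℝ} {ϱ : Measure (E d)} (h : IsSrc R ϱ) {m : ι → ℝ} {p : ι → E d}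
    (hp : Function.Injective p) {ψ : ι → ℝ} (hψ : IsOptWt ϱ m p ψ) (χ : ι → ℝ) :
    dual ϱ m p ψ ≤ dual ϱ m p χ :=
  sum_inner_bary_eq h hp hψ ▸ sum_inner_bary_le h hp hψ p χ

end Crest.Agent.R82
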