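import Mathlib

/-!
A telescoping lemma for two functions with subgradients off a finite set.
-/

set_option autoImplicit false

open Set

namespace Crest.Agent.R82

theorem dini {S : Set ℝ} (hS : Sᶜ.Finite) (h0 : (0 : ℝ) ∈ S) (h1 : (1 : ℝ) ∈ S)
    {f h g₀ g₁ : ℝ → ℝ} {B : ℝ}
    (hf : ∀ t ∈ S, ∀ t' ∈ S, f t + (t' - t) * g₀ t ≤ f t')
    (hh : ∀ t ∈ S, ∀ t' ∈ S, h t + (t' - t) * g₁ t ≤ h t')
    (hB : ∀ t ∈ S, g₀ t - g₁ t ≤ B) : (f 1 - f 0) - (h 1 - h 0) ≤ B := by
  have step : ∀ η : ℝ, ∀ s ∈ S, ∀ t ∈ S, s ≤ t → t - s ≤ η →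
      (f t - f s) - (h t - h s) ≤ (t - s) * B + η * (g₀ t - g₀ s) := by
    intro η s hs t ht hst hη
    rcases hst.eq_or_lt with rfl | hlt
    · simp
    have a1 := hf s hs t ht
    have a2 := hf t ht s hs
    have a3 := hh s hs t ht
    have a4 := hB s hs
    have hmono : 0 ≤ g₀ t - g₀ s := by
      by_contra hc
      have : (t - s) * (g₀ t - g₀ s) < 0 := mul_neg_of_pos_of_neg (by linarith) (not_le.1 hc)
      nlinarith
    have a5 : (t - s) * (g₀ t - g₀ s) ≤ η * (g₀ t - g₀ s) := mul_le_mul_of_nonneg_right hη hmono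
    have a6 : (t - s) * (g₀ s - g₁ s) ≤ (t - s) * B := mul_le_mul_of_nonneg_left a4 (by linarith)
    nlinarith
  have main : ∀ η : ℝ, 0 < η → ∀ k : ℕ, ∀ t ∈ S, 0 ≤ t → t ≤ k * η →
      (f t - f 0) - (h t - h 0) ≤ t * B + 2 * η * (g₀ t - g₀ 0) := by
    intro η hη k
    induction k with
    | zero =>
      intro t _ ht0 htk
      have : t = 0 := by simp at htk; linarith
      subst this; simp
    | succ k ih =>
      intro t ht ht0 htk
      rcases le_or_gt t (2 * η) with hle | hlt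
      · simpa using step (2 * η) 0 h0 t ht ht0 (by linarith)
      · have hinf : (Ioo (t - 2 * η) (t - η)).Infinite := Ioo_infinite (by linarith)
        obtain ⟨s, hs, hsS⟩ := (hinf.sdiff hS).nonempty
        have hsS' : s ∈ S := not_not.1 hsS
        have b1 := ih s hsS' (by linarith [hs.1]) (by push_cast at htk; linarith [hs.2])
        have b2 := step (2 * η) s hsS' t ht (by linarith [hs.2]) (by linarith [hs.1])
        linarith
  refine le_of_forall_pos_le_add fun ε hε => ?_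
  set G := |g₀ 1 - g₀ 0| + 1 with hG
  have hG0 : 0 < G := by positivity
  have hη : 0 < ε / (2 * G) := by positivity
  obtain ⟨k, hk⟩ := exists_nat_ge (1 / (ε / (2 * G)))
  have h2 := main _ hη k 1 h1 zero_le_one (by rwa [div_le_iff₀ hη] at hk)
  have h3 : g₀ 1 - g₀ 0 ≤ G := by linarith [le_abs_self (g₀ 1 - g₀ 0)]
  have h4 : 2 * (ε / (2 * G)) * (g₀ 1 - g₀ 0) ≤ 2 * (ε / (2 * G)) * G :=
    mul_le_mul_of_nonneg_left h3 (by positivity)
  have h5 : 2 * (ε / (2 * G)) * G = ε := by field_simp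
  linarith

end Crest.Agent.R82
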