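import Crest.Agent.R82.Defs

/-!
Discretisation of a coupling, with the long moves cut off.
-/

set_option autoImplicit false

open MeasureTheory Set
open scoped ENNReal NNReal
open Crest.AnalysisR.OT

namespace Crest.Agent.R82

variable {d : ℕ} {ι : Type} [Fintype ι] [Nonempty ι]

omit [Fintype ι] [Nonempty ι] in
theorem exists_injective_choice {J X : Type*} [Fintype J] (A : J → Set X)
    (hA : ∀ i, (A i).Infinite) : ∃ p : J → X, Function.Injective p ∧ ∀ i, p i ∈ A i := by
  classical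
  have key : ∀ s : Finset J, ∃ p : J → X, Set.InjOn p s ∧ ∀ i, p i ∈ A i := by
    intro s
    induction s using Finset.induction_on with
    | empty => exact ⟨fun i => (hA i).nonempty.some, by simp, fun i => (hA i).nonempty.some_mem⟩
    | insert a s ha ih =>
      obtain ⟨p, hp, hpA⟩ := ih
      obtain ⟨x, hx, hxs⟩ := (hA a).exists_notMem_finset (s.image p)
      refine ⟨Function.update p a x, ?_, fun i => ?_⟩
      · have hne : ∀ i ∈ s, i ≠ a := fun i hi h => ha (h ▸ hi)
        have hx' : ∀ i ∈ s, p i ≠ x := fun i hi h => hxs (h ▸ Finset.mem_image_of_mem p hi)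
        intro i hi j hj hij
        simp only [Finset.coe_insert, Set.mem_insert_iff, Finset.mem_coe] at hi hj
        rcases hi with rfl | hi <;> rcases hj with rfl | hj
        · rfl
        · rw [Function.update_self, Function.update_of_ne (hne j hj)] at hij
          exact absurd hij.symm (hx' j hj)
        · rw [Function.update_self, Function.update_of_ne (hne i hi)] at hij
          exact absurd hij (hx' i hi)
        · rw [Function.update_of_ne (hne i hi), Function.update_of_ne (hne j hj)] at hij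
          exact hp hi hj hij
      · by_cases h : i = a
        · subst h; simpa using hx
        · rw [Function.update_of_ne h]; exact hpA i
  obtain ⟨p, hp, hpA⟩ := key Finset.univ
  exact ⟨p, fun i j hij => hp (by simp) (by simp) hij, hpA⟩

theorem exists_injective_near (hd : 1 ≤ d) {J : Type*} [Fintype J] (c : J → E d) {r : ℝ}
    (hr : 0 < r) : ∃ p : J → E d, Function.Injective p ∧ ∀ i, ‖p i - c i‖ ≤ r := by
  have : Nontrivial (E d) := Module.nontrivial_of_finrank_pos (R := ℝ) (by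
    rw [finrank_euclideanSpace_fin]; omega)
  obtain ⟨p, hp, hpA⟩ := exists_injective_choice (fun i => Metric.closedBall (c i) r)
    fun i => infinite_of_mem_nhds (c i) (Metric.closedBall_mem_nhds _ hr)
  exact ⟨p, hp, fun i => by simpa [dist_eq_norm] using hpA i⟩

theorem exists_simple_near {L r : ℝ} (hL : 0 ≤ L) (hr : 0 < r) :
    ∃ φ : SimpleFunc (E d) (E d), (∀ y, ‖φ y‖ ≤ L) ∧ ∀ y, ‖y‖ ≤ L → ‖y - φ y‖ ≤ r := by
  have : Nonempty (Metric.closedBall (0 : E d) L) := ⟨⟨0, by simpa using hL⟩⟩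
  let e : ℕ → E d := fun k => (TopologicalSpace.denseSeq (Metric.closedBall (0 : E d) L) k : E d)
  have he : ∀ k, ‖e k‖ ≤ L := fun k =>
    mem_closedBall_zero_iff.1 (TopologicalSpace.denseSeq (Metric.closedBall (0 : E d) L) k).2
  obtain ⟨t, ht⟩ := (isCompact_closedBall (0 : E d) L).elim_finite_subcover
    (fun k => Metric.ball (e k) r) (fun _ => Metric.isOpen_ball) (by
      intro y hy
      obtain ⟨k, hk⟩ := (TopologicalSpace.denseRange_denseSeq
        (Metric.closedBall (0 : E d) L)).exists_dist_lt ⟨y, hy⟩ hr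
      exact mem_iUnion.2 ⟨k, hk⟩)
  refine ⟨SimpleFunc.nearestPt e (t.sup id), fun y => he _, fun y hy => ?_⟩
  obtain ⟨k, hk, hyk⟩ := mem_iUnion₂.1 (ht (by simpa using hy))
  have h1 := SimpleFunc.edist_nearestPt_le e y (Finset.le_sup (f := id) hk)
  rw [edist_dist, edist_dist, ENNReal.ofReal_le_ofReal_iff dist_nonneg, dist_comm,
    dist_comm (e _), dist_eq_norm] at h1
  exact h1.trans (le_of_lt hyk)

theorem discretise (hd : 1 ≤ d) {L : ℝ} {μ ν : Measure (E d)} [IsProbabilityMeasure μ]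
    (hμ : ∀ᵐ y ∂μ, ‖y‖ ≤ L) (hν : ∀ᵐ y ∂ν, ‖y‖ ≤ L) {π : Measure (E d × E d)}
    (hπ : IsPairCoupling μ ν π) {h : ℝ} (h0 : 0 < h) (h1 : h ≤ 1)
    (hc : quadCost π ≤ ENNReal.ofReal (h ^ 3)) :
    ∃ (J : Type) (_ : Fintype J) (_ : Nonempty J) (m : J → ℝ) (p q : J → E d)
      (μs νs : J → Measure (E d)),
      (∀ i, 0 < m i) ∧ ∑ i, m i = 1 ∧ Function.Injective p ∧ Function.Injective q ∧
      (∀ i, ‖q i‖ ≤ L + 1) ∧ μ = ∑ i, μs i ∧ ν = ∑ i, νs i ∧
      (∀ i, μs i univ = ENNReal.ofReal (m i)) ∧ (∀ i, νs i univ = ENNReal.ofReal (m i)) ∧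
      ∑ i, ∫ y, ‖y - p i‖ ∂(μs i) ≤ 2 * h ^ 2 ∧ ∑ i, ∫ y, ‖y - q i‖ ∂(νs i) ≤ 2 * h ^ 2 ∧
      ∑ i, m i * ‖p i - q i‖ ^ 4 ≤ 136 * h ^ 5 := by
  classical
  obtain ⟨hπ1, hπ2⟩ := hπ
  have hπp : IsProbabilityMeasure π := ⟨by
    have := congrArg (fun m : Measure (E d) => m univ) hπ1
    simpa [Measure.map_apply measurable_fst MeasurableSet.univ] using this⟩
  have hL : 0 ≤ L := by
    obtain ⟨y, hy⟩ := hμ.exists
    exact (norm_nonneg y).trans hy
  have hδ : 0 < h ^ 2 / 2 := by positivity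
  have hh2 : h ^ 2 ≤ 1 := pow_le_one₀ h0.le h1
  obtain ⟨φ, hφ1, hφ2⟩ := exists_simple_near (d := d) hL hδ
  let z' : E d × E d → E d := fun x => if ‖x.1 - x.2‖ ≤ h then x.2 else x.1
  have hz' : Measurable z' :=
    Measurable.ite (measurableSet_le (by fun_prop) measurable_const) measurable_snd measurable_fst
  let Φ : E d × E d → E d × E d := fun x => (φ x.1, φ (z' x))
  have hΦ : Measurable Φ := (φ.measurable.comp measurable_fst).prodMk (φ.measurable.comp hz')
  let S : Finset (E d × E d) := (φ.range ×ˢ φ.range).filter fun w => π (Φ ⁻¹' {w}) ≠ 0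
  let F : S → Set (E d × E d) := fun i => Φ ⁻¹' {i.1}
  have hF : ∀ i, MeasurableSet (F i) := fun i => hΦ (measurableSet_singleton _)
  have hF0 : ∀ i, π (F i) ≠ 0 := fun i => (Finset.mem_filter.1 i.2).2
  have hae : ∀ᵐ x ∂π, x ∈ ⋃ i, F i := by
    rw [ae_iff]
    refine measure_mono_null (t := ⋃ w ∈ (φ.range ×ˢ φ.range).filter
      (fun w => π (Φ ⁻¹' {w}) = 0), Φ ⁻¹' {w}) (fun x hx => ?_) ?_
    · have hR : Φ x ∈ φ.range ×ˢ φ.range :=
        Finset.mem_product.2 ⟨φ.mem_range_self _, φ.mem_range_self _⟩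
      refine mem_iUnion₂.2 ⟨Φ x, Finset.mem_filter.2 ⟨hR, ?_⟩, rfl⟩
      by_contra hne
      exact hx (mem_iUnion.2 ⟨⟨Φ x, Finset.mem_filter.2 ⟨hR, hne⟩⟩, rfl⟩)
    · exact (measure_biUnion_null_iff (Finset.countable_toSet _)).2
        fun w hw => (Finset.mem_filter.1 hw).2
  have hsum : π = ∑ i, π.restrict (F i) := by
    rw [← Measure.sum_fintype, ← Measure.restrict_iUnion ?_ hF,
      Measure.restrict_eq_self_of_ae_mem hae]
    intro i j hij
    refine Set.disjoint_left.2 fun x hi hj => hij (Subtype.ext ?_)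
    exact (show Φ x = i.1 from hi).symm.trans hj
  have hint : ∀ {g : E d × E d → ℝ}, Integrable g π → ∑ i, ∫ x in F i, g x ∂π = ∫ x, g x ∂π := by
    intro g hg
    conv_rhs => rw [hsum]
    rw [integral_finsetSum_measure fun i _ => hg.integrableOn]
  have hne : Nonempty S := by
    obtain ⟨x, hx⟩ := hae.exists
    obtain ⟨i, -⟩ := mem_iUnion.1 hx
    exact ⟨i⟩
  obtain ⟨p, hp, hpc⟩ := exists_injective_near hd (fun i : S => i.1.1) hδ
  obtain ⟨q, hq, hqc⟩ := exists_injective_near hd (fun i : S => i.1.2) hδ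
  have hb1 : ∀ᵐ x ∂π, ‖x.1‖ ≤ L := by
    rw [← hπ1] at hμ
    exact ae_of_ae_map measurable_fst.aemeasurable hμ
  have hb2 : ∀ᵐ x ∂π, ‖x.2‖ ≤ L := by
    rw [← hπ2] at hν
    exact ae_of_ae_map measurable_snd.aemeasurable hν
  have hkey : ∀ i, ∀ᵐ x ∂π.restrict (F i), ‖x.1 - p i‖ ≤ h ^ 2 ∧ ‖z' x - q i‖ ≤ h ^ 2 := by
    intro i
    filter_upwards [ae_restrict_mem (hF i), ae_restrict_of_ae hb1, ae_restrict_of_ae hb2]
      with x hx hx1 hx2
    have hx' : Φ x = i.1 := hx
    have e1 : φ x.1 = i.1.1 := congrArg Prod.fst hx'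
    have e2 : φ (z' x) = i.1.2 := congrArg Prod.snd hx'
    have hz : ‖z' x‖ ≤ L := by
      simp only [z']; split_ifs <;> assumption
    have a1 := hφ2 _ hx1
    have a2 := hφ2 _ hz
    rw [e1] at a1
    rw [e2] at a2
    have b1 := hpc i
    have b2 := hqc i
    rw [norm_sub_rev] at b1 b2
    exact ⟨(norm_sub_le_norm_sub_add_norm_sub _ i.1.1 _).trans (by linarith),
      (norm_sub_le_norm_sub_add_norm_sub _ i.1.2 _).trans (by linarith)⟩
  have hcost : ∫⁻ x, ENNReal.ofReal (‖x.1 - x.2‖ ^ 2) ∂π ≤ ENNReal.ofReal (h ^ 3) := by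
    refine le_of_eq_of_le (lintegral_congr fun x => ?_) hc
    rw [ENNReal.ofReal_pow (norm_nonneg _), ofReal_norm]
  have hmeas : AEStronglyMeasurable (fun x : E d × E d => ‖x.1 - x.2‖ ^ 2) π := by fun_prop
  have hI : Integrable (fun x : E d × E d => ‖x.1 - x.2‖ ^ 2) π :=
    ⟨hmeas, (hasFiniteIntegral_iff_ofReal (ae_of_all _ fun x => by positivity)).2
      (hcost.trans_lt ENNReal.ofReal_lt_top)⟩
  have hI2 : ∫ x, ‖x.1 - x.2‖ ^ 2 ∂π ≤ h ^ 3 := by
    rw [integral_eq_lintegral_of_nonneg_ae (ae_of_all _ fun x => by positivity) hmeas]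
    exact ENNReal.toReal_le_of_le_ofReal (by positivity) hcost
  have hlin : ∀ a b : ℝ, 0 ≤ a → ∑ i, ∫ x in F i, (a * ‖x.1 - x.2‖ ^ 2 + b) ∂π ≤ a * h ^ 3 + b := by
    intro a b ha
    rw [hint (g := fun x => a * ‖x.1 - x.2‖ ^ 2 + b) ((hI.const_mul a).add (integrable_const b)),
      integral_add (hI.const_mul a) (integrable_const b), integral_const_mul]
    simp only [integral_const, probReal_univ, smul_eq_mul, one_mul]
    gcongr
  have hlinI : ∀ (a b : ℝ) (i : S),
      Integrable (fun x : E d × E d => a * ‖x.1 - x.2‖ ^ 2 + b) (π.restrict (F i)) :=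
    fun a b i => ((hI.const_mul a).add (integrable_const b)).integrableOn
  refine ⟨S, inferInstance, hne, fun i => π.real (F i), p, q,
    fun i => (π.restrict (F i)).map Prod.fst, fun i => (π.restrict (F i)).map Prod.snd,
    fun i => ENNReal.toReal_pos (hF0 i) (measure_ne_top _ _), ?_, hp, hq, fun i => ?_, ?_, ?_,
    fun i => ?_, fun i => ?_, ?_, ?_, ?_⟩
  · simpa using hint (integrable_const (1 : ℝ))
  · have h2 : i.1.2 ∈ φ.range := (Finset.mem_product.1 (Finset.mem_filter.1 i.2).1).2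
    obtain ⟨y, hy⟩ := SimpleFunc.mem_range.1 h2
    have h3 := hφ1 y
    rw [hy] at h3
    have h4 := norm_le_norm_add_norm_sub' (q i) i.1.2
    linarith [hqc i]
  · rw [← hπ1, ← Measure.map_finset_sum' measurable_fst.aemeasurable, ← hsum]
  · rw [← hπ2, ← Measure.map_finset_sum' measurable_snd.aemeasurable, ← hsum]
  · simp [Measure.map_apply measurable_fst MeasurableSet.univ]
  · simp [Measure.map_apply measurable_snd MeasurableSet.univ]
  · refine le_trans (Finset.sum_le_sum fun i _ => ?_) ((hlin 0 (h ^ 2) le_rfl).trans (by nlinarith))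
    rw [integral_map measurable_fst.aemeasurable (by fun_prop)]
    refine integral_mono_of_nonneg (ae_of_all _ fun x => norm_nonneg _) (hlinI _ _ i) ?_
    filter_upwards [hkey i] with x hx
    linarith [hx.1]
  · refine le_trans (Finset.sum_le_sum fun i _ => ?_)
      ((hlin h⁻¹ (h ^ 2) (by positivity)).trans (le_of_eq (by field_simp; ring)))
    rw [integral_map measurable_snd.aemeasurable (by fun_prop)]
    refine integral_mono_of_nonneg (ae_of_all _ fun x => norm_nonneg _) (hlinI _ _ i) ?_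
    filter_upwards [hkey i] with x hx
    have h2 : ‖x.2 - z' x‖ ≤ h⁻¹ * ‖x.1 - x.2‖ ^ 2 := by
      simp only [z']
      split_ifs with h3
      · rw [sub_self, norm_zero]; positivity
      · rw [norm_sub_rev, inv_mul_eq_div, le_div_iff₀ h0]
        nlinarith [norm_nonneg (x.1 - x.2), not_le.1 h3]
    exact (norm_sub_le_norm_sub_add_norm_sub _ (z' x) _).trans (by linarith [hx.2])
  · refine le_trans (Finset.sum_le_sum fun i _ => ?_)
      ((hlin (8 * h ^ 2) (128 * h ^ 8) (by positivity)).trans ?_)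
    · rw [← smul_eq_mul, ← setIntegral_const]
      refine integral_mono_of_nonneg (ae_of_all _ fun x => by positivity) (hlinI _ _ i) ?_
      filter_upwards [hkey i] with x hx
      have h2 : ‖x.1 - z' x‖ ^ 4 ≤ h ^ 2 * ‖x.1 - x.2‖ ^ 2 := by
        simp only [z']
        split_ifs with h3
        · have : ‖x.1 - x.2‖ ^ 2 ≤ h ^ 2 := pow_le_pow_left₀ (norm_nonneg _) h3 2
          nlinarith [sq_nonneg ‖x.1 - x.2‖]
        · rw [sub_self, norm_zero]; norm_num; positivity
      have h3 : ‖p i - q i‖ ≤ ‖x.1 - z' x‖ + 2 * h ^ 2 := by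
        have h4 := norm_sub_le_norm_sub_add_norm_sub (p i) x.1 (q i)
        have h5 := norm_sub_le_norm_sub_add_norm_sub x.1 (z' x) (q i)
        rw [norm_sub_rev (p i) x.1] at h4
        linarith [hx.1, hx.2]
      have h4 : ∀ a b : ℝ, (a + b) ^ 4 ≤ 8 * (a ^ 4 + b ^ 4) := fun a b => by
        nlinarith [sq_nonneg (a - b), sq_nonneg (a + b), sq_nonneg (a ^ 2 - b ^ 2),
          mul_nonneg (sq_nonneg (a - b)) (sq_nonneg (a + b)), sq_nonneg ((a - b) ^ 2)]
      calc ‖p i - q i‖ ^ 4 ≤ (‖x.1 - z' x‖ + 2 * h ^ 2) ^ 4 :=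
            pow_le_pow_left₀ (norm_nonneg _) h3 4
        _ ≤ 8 * (‖x.1 - z' x‖ ^ 4 + (2 * h ^ 2) ^ 4) := h4 _ _
        _ ≤ _ := by nlinarith
    · have : h ^ 8 ≤ h ^ 5 := pow_le_pow_of_le_one h0.le h1 (by norm_num)
      nlinarith

end Crest.Agent.R82
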