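import Crest.Agent.R82.Defs

/-!
Existence of optimal weights, and stability of near-minimisers of the dual functional.
-/

set_option autoImplicit false

open MeasureTheory Set Filter Topology
open scoped ENNReal NNReal
open Crest.AnalysisR.OT

namespace Crest.Agent.R82

variable {d : ℕ} {ι : Type} [Fintype ι] [Nonempty ι]

theorem ex_pot_sub_const (p : ι → E d) (ψ : ι → ℝ) (c : ℝ) (x : E d) :
    pot p (fun i => ψ i - c) x = pot p ψ x + c := by
  have h := abs_pot_sub_pot_le p (ψ := ψ) (χ := fun i => ψ i - c) (c := -c) (ε := 0)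
    (fun i => by simp) x
  have := abs_nonpos_iff.1 h
  linarith

theorem ex_dual_sub_const {R : ℝ} {ϱ : Measure (E d)} (h : IsSrc R ϱ) {m : ι → ℝ}
    (hm1 : ∑ i, m i = 1) (p : ι → E d) (ψ : ι → ℝ) (c : ℝ) :
    dual ϱ m p (fun i => ψ i - c) = dual ϱ m p ψ := by
  have := h.prob
  have h1 : ∫ x, pot p (fun i => ψ i - c) x ∂ϱ = ∫ x, pot p ψ x ∂ϱ + c := by
    simp_rw [ex_pot_sub_const]
    rw [integral_add (h.integrable_of_continuous (continuous_pot p ψ)) (integrable_const _)]
    simp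
  have h2 : ∑ i, m i * (ψ i - c) = ∑ i, m i * ψ i - c := by
    simp_rw [mul_sub]
    rw [Finset.sum_sub_distrib, ← Finset.sum_mul, hm1, one_mul]
  rw [dual, dual, h1, h2]
  ring

theorem ex_continuous_dual {R : ℝ} {ϱ : Measure (E d)} (h : IsSrc R ϱ) (m : ι → ℝ)
    (p : ι → E d) : Continuous (dual ϱ m p) := by
  have := h.prob
  have h1 : Continuous fun ψ : ι → ℝ => ∫ x, pot p ψ x ∂ϱ := by
    refine (LipschitzWith.of_dist_le_mul (K := 1) fun χ ψ => ?_).continuous
    rw [Real.dist_eq, ← integral_sub (h.integrable_of_continuous (continuous_pot p χ))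
      (h.integrable_of_continuous (continuous_pot p ψ))]
    have h2 : ∀ x, ‖pot p χ x - pot p ψ x‖ ≤ dist χ ψ := by
      intro x
      have := abs_pot_sub_pot_le p (ψ := ψ) (χ := χ) (c := 0) (ε := dist χ ψ)
        (fun i => by simpa [Real.dist_eq] using dist_le_pi_dist χ ψ i) x
      simpa using this
    have h3 := norm_integral_le_of_norm_le_const (μ := ϱ)
      (f := fun x => pot p χ x - pot p ψ x) (Eventually.of_forall h2)
    simpa using h3
  unfold dual
  exact h1.add (by fun_prop)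

/-- Sublevel sets of the dual functional lie in a box, up to a constant. -/
theorem ex_exists_box {R : ℝ} {ϱ : Measure (E d)} (h : IsSrc R ϱ) {m : ι → ℝ}
    (hm : ∀ i, 0 < m i) (hm1 : ∑ i, m i = 1) (p : ι → E d) (M : ℝ) :
    ∃ B : ℝ, 0 ≤ B ∧ ∀ χ : ι → ℝ, dual ϱ m p χ ≤ M →
      ∃ c : ℝ, (fun i => χ i - c) ∈ Icc (0 : ι → ℝ) (fun _ => B) := by
  have := h.prob
  obtain ⟨L, hL0, hL⟩ := exists_norm_bound p
  refine ⟨∑ j, |M + |R| * L| / m j,
    Finset.sum_nonneg fun j _ => div_nonneg (abs_nonneg _) (hm j).le, fun χ hχ => ?_⟩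
  obtain ⟨i0, -, hi0⟩ := Finset.exists_min_image Finset.univ χ Finset.univ_nonempty
  refine ⟨χ i0, fun i => by simpa using hi0 i (Finset.mem_univ i), fun j => ?_⟩
  have hd : dual ϱ m p (fun i => χ i - χ i0) ≤ M := by rwa [ex_dual_sub_const h hm1]
  have h1 : -(|R| * L) ≤ ∫ x, pot p (fun i => χ i - χ i0) x ∂ϱ := by
    have : ∫ _x, -(|R| * L) ∂ϱ = -(|R| * L) := by simp
    rw [← this]
    refine integral_mono_ae (integrable_const _)
      (h.integrable_of_continuous (continuous_pot p _)) ?_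
    filter_upwards [h.bdd] with x hx
    have h2 := le_pot p (fun i => χ i - χ i0) x i0
    have h3 : |inner ℝ x (p i0)| ≤ ‖x‖ * ‖p i0‖ := abs_real_inner_le_norm _ _
    have h4 : ‖x‖ * ‖p i0‖ ≤ |R| * L :=
      mul_le_mul (hx.trans (le_abs_self R)) (hL i0) (norm_nonneg _) (abs_nonneg _)
    have h5 := (abs_le.1 (h3.trans h4)).1
    simp only [sub_self, sub_zero] at h2
    exact h5.trans h2
  have h2 : m j * (χ j - χ i0) ≤ ∑ i, m i * (χ i - χ i0) :=
    Finset.single_le_sum (f := fun i => m i * (χ i - χ i0))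
      (fun i _ => mul_nonneg (hm i).le (sub_nonneg.2 (hi0 i (Finset.mem_univ i))))
      (Finset.mem_univ j)
  have h3 : m j * (χ j - χ i0) ≤ |M + |R| * L| := by
    rw [dual] at hd
    have := le_abs_self (M + |R| * L)
    linarith
  have h4 : χ j - χ i0 ≤ |M + |R| * L| / m j := by
    rw [le_div_iff₀ (hm j)]
    linarith
  exact h4.trans (Finset.single_le_sum (f := fun j => |M + |R| * L| / m j)
    (fun j _ => div_nonneg (abs_nonneg _) (hm j).le) (Finset.mem_univ j))

theorem ex_exists_min {R : ℝ} {ϱ : Measure (E d)} (h : IsSrc R ϱ) {m : ι → ℝ}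
    (hm : ∀ i, 0 < m i) (hm1 : ∑ i, m i = 1) (p : ι → E d) :
    ∃ ψ : ι → ℝ, ∀ χ, dual ϱ m p ψ ≤ dual ϱ m p χ := by
  obtain ⟨B, hB0, hB⟩ := ex_exists_box h hm hm1 p (dual ϱ m p 0)
  have h0 : (0 : ι → ℝ) ∈ Icc (0 : ι → ℝ) (fun _ => B) := ⟨le_rfl, fun _ => hB0⟩
  obtain ⟨ψ, -, hψ⟩ := (isCompact_Icc (a := (0 : ι → ℝ)) (b := fun _ => B)).exists_isMinOn
    ⟨0, h0⟩ (ex_continuous_dual h m p).continuousOn
  refine ⟨ψ, fun χ => ?_⟩
  rcases le_total (dual ϱ m p χ) (dual ϱ m p 0) with h1 | h1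
  · obtain ⟨c, hc⟩ := hB χ h1
    have := hψ hc
    simp only [mem_ofPred_eq] at this
    rwa [ex_dual_sub_const h hm1] at this
  · exact (hψ h0).trans h1

theorem ex_le_real_cell_of_min {R : ℝ} {ϱ : Measure (E d)} (h : IsSrc R ϱ) {m : ι → ℝ}
    {p : ι → E d} {ψ : ι → ℝ} (hψ : ∀ χ, dual ϱ m p ψ ≤ dual ϱ m p χ) (i : ι) :
    m i ≤ ϱ.real (cell p ψ i) := by
  classical
  have := h.prob
  let G : ℝ → Set (E d) := fun ε => {x | pot p ψ x - (inner ℝ x (p i) - ψ i) ≤ ε}
  have hGm : ∀ ε, MeasurableSet (G ε) := fun ε =>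
    (isClosed_le ((continuous_pot p ψ).sub (by fun_prop)) continuous_const).measurableSet
  have key : ∀ ε : ℝ, 0 < ε → m i ≤ ϱ.real (G ε) := by
    intro ε hε
    let χ : ι → ℝ := fun j => ψ j - if j = i then ε else 0
    have h1 : ∀ x, pot p χ x ≤ pot p ψ x + (G ε).indicator (fun _ => ε) x := by
      intro x
      refine pot_le _ _ _ fun j => ?_
      have h2 := le_pot p ψ x j
      have h3 : 0 ≤ (G ε).indicator (fun _ => ε) x := indicator_nonneg (fun _ _ => hε.le) x
      by_cases hj : j = i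
      · subst hj
        by_cases hx : x ∈ G ε
        · simp only [χ, if_true, indicator_of_mem hx]
          linarith
        · simp only [χ, if_true, indicator_of_notMem hx]
          simp only [G, mem_ofPred_eq, not_le] at hx
          linarith
      · simp only [χ, if_neg hj]
        linarith
    have h2 : ∫ x, pot p χ x ∂ϱ ≤ ∫ x, pot p ψ x ∂ϱ + ε * ϱ.real (G ε) := by
      have h3 : ∫ x, (G ε).indicator (fun _ => ε) x ∂ϱ = ε * ϱ.real (G ε) := by
        rw [integral_indicator (hGm ε), setIntegral_const, smul_eq_mul, mul_comm]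
      rw [← h3, ← integral_add (h.integrable_of_continuous (continuous_pot p ψ))
        ((integrable_const _).indicator (hGm ε))]
      exact integral_mono (h.integrable_of_continuous (continuous_pot p χ))
        ((h.integrable_of_continuous (continuous_pot p ψ)).add
          ((integrable_const _).indicator (hGm ε))) h1
    have h3 : ∑ j, m j * χ j = ∑ j, m j * ψ j - m i * ε := by
      simp only [χ, mul_sub, Finset.sum_sub_distrib, mul_ite, mul_zero, Finset.sum_ite_eq',
        Finset.mem_univ, if_true]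
    have h4 := hψ χ
    rw [dual, dual, h3] at h4
    have h5 : ε * m i ≤ ε * ϱ.real (G ε) := by linarith
    exact le_of_mul_le_mul_left h5 hε
  have hI : ⋂ n : ℕ, G (1 / ((n : ℝ) + 1)) = cell p ψ i := by
    ext x
    rw [mem_iInter, mem_cell_iff]
    constructor
    · intro hx
      have h1 : pot p ψ x - (inner ℝ x (p i) - ψ i) ≤ 0 :=
        ge_of_tendsto' tendsto_one_div_add_atTop_nhds_zero_nat hx
      have h2 := le_pot p ψ x i
      linarith
    · intro hx n
      simp only [G, mem_ofPred_eq, hx, sub_self]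
      positivity
  have hT := tendsto_measure_iInter_atTop (μ := ϱ) (s := fun n : ℕ => G (1 / ((n : ℝ) + 1)))
    (fun n => (hGm _).nullMeasurableSet)
    (fun a b hab x hx => by
      have h1 : pot p ψ x - (inner ℝ x (p i) - ψ i) ≤ 1 / ((b : ℝ) + 1) := hx
      exact h1.trans (Nat.one_div_le_one_div hab))
    ⟨0, measure_ne_top _ _⟩
  rw [hI] at hT
  have hT2 : Tendsto (fun n : ℕ => ϱ.real (G (1 / ((n : ℝ) + 1)))) atTop
      (𝓝 (ϱ.real (cell p ψ i))) :=
    (ENNReal.tendsto_toReal (measure_ne_top _ _)).comp hT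
  exact ge_of_tendsto' hT2 fun n => key _ (by positivity)

/-- Existence of optimal weights. -/
theorem exists_isOptWt {R : ℝ} {ϱ : Measure (E d)} (h : IsSrc R ϱ) {m : ι → ℝ}
    (hm : ∀ i, 0 < m i) (hm1 : ∑ i, m i = 1) {p : ι → E d} (hp : Function.Injective p) :
    ∃ ψ : ι → ℝ, IsOptWt ϱ m p ψ := by
  obtain ⟨ψ, hψ⟩ := ex_exists_min h hm hm1 p
  refine ⟨ψ, fun i => ?_⟩
  have h1 : ∑ j, (ϱ.real (cell p ψ j) - m j) = 0 := by
    rw [Finset.sum_sub_distrib, h.sum_real_cell hp, hm1, sub_self]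
  have h2 := (Finset.sum_eq_zero_iff_of_nonneg
    (fun j _ => sub_nonneg.2 (ex_le_real_cell_of_min h hψ j))).1 h1 i (Finset.mem_univ i)
  linarith

/-- A second minimiser has the same potential on every cell, up to the difference of weights. -/
theorem ex_ae_pot_eq {R : ℝ} {ϱ : Measure (E d)} (h : IsSrc R ϱ) {m : ι → ℝ} {p : ι → E d}
    (hp : Function.Injective p) {ψ : ι → ℝ} (hψ : IsOptWt ϱ m p ψ) {χ : ι → ℝ}
    (hχ : dual ϱ m p χ ≤ dual ϱ m p ψ) :
    ∀ᵐ x ∂ϱ, ∀ i, x ∈ cell p ψ i → pot p χ x - pot p ψ x = ψ i - χ i := by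
  have := h.prob
  have hint : ∀ i, IntegrableOn (fun x => pot p χ x - (inner ℝ x (p i) - χ i)) (cell p ψ i) ϱ :=
    fun i => (h.integrable_of_continuous ((continuous_pot p χ).sub (by fun_prop))).integrableOn
  have hnn : ∀ i, ∀ x, 0 ≤ pot p χ x - (inner ℝ x (p i) - χ i) :=
    fun i x => sub_nonneg.2 (le_pot p χ x i)
  have hsum : ∑ i, ∫ x in cell p ψ i, (pot p χ x - (inner ℝ x (p i) - χ i)) ∂ϱ =
      dual ϱ m p χ - dual ϱ m p ψ := by
    rw [← sum_inner_bary_eq h hp hψ, dual,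
      h.integral_eq_sum_cell hp ψ (h.integrable_of_continuous (continuous_pot p χ)),
      ← Finset.sum_add_distrib, ← Finset.sum_sub_distrib]
    refine Finset.sum_congr rfl fun i _ => ?_
    rw [inner_bary h, ← hψ i,
      integral_sub (h.integrable_of_continuous (continuous_pot p χ)).integrableOn
        (h.integrable_of_continuous (by fun_prop)).integrableOn,
      integral_sub (h.integrable_of_continuous (by fun_prop)).integrableOn (integrable_const _),
      setIntegral_const, smul_eq_mul]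
    ring
  have hnn2 : ∀ i ∈ Finset.univ,
      0 ≤ ∫ x in cell p ψ i, (pot p χ x - (inner ℝ x (p i) - χ i)) ∂ϱ :=
    fun i _ => integral_nonneg (hnn i)
  have hz : ∑ i, ∫ x in cell p ψ i, (pot p χ x - (inner ℝ x (p i) - χ i)) ∂ϱ = 0 :=
    le_antisymm (by rw [hsum]; linarith) (Finset.sum_nonneg hnn2)
  rw [ae_all_iff]
  intro i
  have h1 := (Finset.sum_eq_zero_iff_of_nonneg hnn2).1 hz i (Finset.mem_univ i)
  rw [setIntegral_eq_zero_iff_of_nonneg_ae (Eventually.of_forall (hnn i)) (hint i)] at h1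
  have h2 := (ae_restrict_iff' (measurableSet_cell p ψ i)).1 h1
  filter_upwards [h2] with x hx hxi
  have h3 := hx hxi
  have h4 := pot_eq_of_mem_cell hxi
  simp only [Pi.zero_apply] at h3
  linarith

/-- Uniqueness of the minimiser up to a constant. -/
theorem ex_eq_const_of_dual_le {K : Set (E d)} {R : ℝ} (hK : Body K R) {m : ι → ℝ}
    (hm : ∀ i, 0 < m i) {p : ι → E d} (hp : Function.Injective p)
    {ψ : ι → ℝ} (hψ : IsOptWt (uniformProbOn K) m p ψ) {χ : ι → ℝ}
    (hχ : dual (uniformProbOn K) m p χ ≤ dual (uniformProbOn K) m p ψ) :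
    ∃ c : ℝ, ∀ i, χ i - ψ i - c = 0 := by
  have h := hK.isSrc
  have hae := ex_ae_pot_eq h hp hψ hχ
  let u : E d → ℝ := fun x => pot p χ x - pot p ψ x
  have hu : Continuous u := (continuous_pot p χ).sub (continuous_pot p ψ)
  let F : Set ℝ := range fun i => ψ i - χ i
  have hF : F.Finite := finite_range _
  have hae2 : ∀ᵐ x ∂uniformProbOn K, u x ∈ F := by
    filter_upwards [hae] with x hx
    obtain ⟨i, hi⟩ := exists_mem_cell p ψ x
    exact ⟨i, (hx i hi).symm⟩
  have hO : IsOpen (interior K ∩ u ⁻¹' Fᶜ) :=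
    isOpen_interior.inter (hF.isClosed.isOpen_compl.preimage hu)
  have hO0 : volume (interior K ∩ u ⁻¹' Fᶜ) = 0 := by
    have h1 : uniformProbOn K (interior K ∩ u ⁻¹' Fᶜ) = 0 :=
      measure_mono_null (fun x hx => hx.2) (ae_iff.1 hae2)
    rw [uniformProbOn_apply K hO.measurableSet, mul_eq_zero] at h1
    rcases h1 with h1 | h1
    · exact absurd (ENNReal.inv_eq_zero.1 h1) hK.volume_ne_top
    · rwa [inter_eq_left.2 (fun x hx => interior_subset hx.1)] at h1
  have hOe := hO.eq_empty_of_measure_zero hO0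
  have hint : interior K ⊆ u ⁻¹' F := by
    intro x hx
    by_contra hc
    have : x ∈ interior K ∩ u ⁻¹' Fᶜ := ⟨hx, hc⟩
    rw [hOe] at this
    exact this
  have hall : MapsTo u K F := by
    intro x hx
    have h1 : x ∈ closure (interior K) := by
      rw [hK.convex.closure_interior_eq_closure_of_nonempty_interior hK.int]
      exact subset_closure hx
    exact (hF.isClosed.preimage hu).closure_subset_iff.2 hint h1
  obtain ⟨x0, hx0⟩ := hK.int
  refine ⟨-u x0, fun i => ?_⟩
  have hpos : uniformProbOn K (cell p ψ i) ≠ 0 := by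
    intro h0
    have h1 := hψ i
    rw [Measure.real, h0] at h1
    have := hm i
    simp at h1
    linarith
  have hfr : ∃ᵐ x ∂uniformProbOn K, x ∈ cell p ψ i := frequently_ae_mem_iff.2 hpos
  obtain ⟨x, hx1, hx2, hx3⟩ := (hfr.and_eventually (hae.and hK.ae_mem)).exists
  have h1 : u x = u x0 := hK.convex.isPreconnected.constant_of_mapsTo hF.isDiscrete
    hu.continuousOn hall hx3 (interior_subset hx0)
  have h2 : u x = ψ i - χ i := hx2 i hx1
  linarith

/-- Near-minimisers of the dual functional are near the optimal weights, up to a constant. -/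
theorem near_of_dual_le {K : Set (E d)} {R : ℝ} (hK : Body K R) {m : ι → ℝ}
    (hm : ∀ i, 0 < m i) (hm1 : ∑ i, m i = 1) {p : ι → E d} (hp : Function.Injective p)
    {ψ : ι → ℝ} (hψ : IsOptWt (uniformProbOn K) m p ψ) {ε : ℝ} (hε : 0 < ε) :
    ∃ δ : ℝ, 0 < δ ∧ ∀ χ : ι → ℝ,
      dual (uniformProbOn K) m p χ ≤ dual (uniformProbOn K) m p ψ + δ →
        ∃ c : ℝ, ∀ i, |χ i - ψ i - c| ≤ ε := by
  have h := hK.isSrc
  obtain ⟨B, -, hB⟩ := ex_exists_box h hm hm1 p (dual (uniformProbOn K) m p ψ + 1)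
  let D : Set (ι → ℝ) := ⋂ c : ℝ, ⋃ i, {χ | ε ≤ |χ i - ψ i - c|}
  have hD : IsClosed D := isClosed_iInter fun c => isClosed_iUnion_of_finite fun i =>
    isClosed_le continuous_const (by fun_prop)
  have hC : IsCompact (Icc (0 : ι → ℝ) (fun _ => B) ∩ D) := isCompact_Icc.inter_right hD
  have fin : ∀ (χ : ι → ℝ) (c : ℝ), (fun i => χ i - c) ∉ D → ∃ c' : ℝ, ∀ i, |χ i - ψ i - c'| ≤ ε := by
    intro χ c hc
    simp only [D, mem_iInter, mem_iUnion, mem_ofPred_eq, not_forall, not_exists, not_le] at hc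
    obtain ⟨c', hc'⟩ := hc
    refine ⟨c + c', fun i => ?_⟩
    have := (hc' i).le
    rwa [show χ i - c - ψ i - c' = χ i - ψ i - (c + c') by ring] at this
  rcases (Icc (0 : ι → ℝ) (fun _ => B) ∩ D).eq_empty_or_nonempty with he | hne
  · refine ⟨1, one_pos, fun χ hχ => ?_⟩
    obtain ⟨c, hc⟩ := hB χ hχ
    refine fin χ c fun hd => ?_
    have : (fun i => χ i - c) ∈ Icc (0 : ι → ℝ) (fun _ => B) ∩ D := ⟨hc, hd⟩
    rw [he] at this
    exact this
  · obtain ⟨χ0, hχ0, hmin⟩ := hC.exists_isMinOn hne (ex_continuous_dual h m p).continuousOn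
    have hlt : dual (uniformProbOn K) m p ψ < dual (uniformProbOn K) m p χ0 := by
      by_contra hle
      obtain ⟨c, hc⟩ := ex_eq_const_of_dual_le hK hm hp hψ (not_lt.1 hle)
      have h1 := hχ0.2
      simp only [D, mem_iInter, mem_iUnion, mem_ofPred_eq] at h1
      obtain ⟨i, hi⟩ := h1 c
      rw [hc i, abs_zero] at hi
      exact absurd hi (not_le.2 hε)
    refine ⟨min 1 ((dual (uniformProbOn K) m p χ0 - dual (uniformProbOn K) m p ψ) / 2),
      lt_min one_pos (by linarith), fun χ hχ => ?_⟩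
    have h1 := min_le_left 1 ((dual (uniformProbOn K) m p χ0 - dual (uniformProbOn K) m p ψ) / 2)
    have h2 := min_le_right 1 ((dual (uniformProbOn K) m p χ0 - dual (uniformProbOn K) m p ψ) / 2)
    obtain ⟨c, hc⟩ := hB χ (by linarith)
    refine fin χ c fun hd => ?_
    have h3 := hmin (show (fun i => χ i - c) ∈ Icc (0 : ι → ℝ) (fun _ => B) ∩ D from ⟨hc, hd⟩)
    simp only [mem_ofPred_eq] at h3
    rw [ex_dual_sub_const h hm1] at h3
    linarith

end Crest.Agent.R82
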