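import Crest.Agent.R82.Defs
import Crest.Agent.Lib.Transport.Basic

/-!
An optimal map is an approximate subgradient of a nearby semi-discrete potential.
-/

set_option autoImplicit false

open MeasureTheory Set
open scoped ENNReal NNReal
open Crest.AnalysisR.OT

namespace Crest.Agent.R82

variable {d : ℕ} {ι : Type} [Fintype ι] [Nonempty ι]

namespace Gap

theorem integrable_of_bdd {μ : Measure (E d)} [IsFiniteMeasure μ] {L : ℝ}
    (hμ : ∀ᵐ y ∂μ, ‖y‖ ≤ L) {f : E d → ℝ} (hf : Continuous f) : Integrable f μ := by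
  obtain ⟨C, hC⟩ := (isCompact_closedBall (0 : E d) L).exists_bound_of_continuousOn
    hf.continuousOn
  refine Integrable.of_bound hf.aestronglyMeasurable C ?_
  filter_upwards [hμ] with x hx
  exact hC x (by simpa using hx)

theorem integrable_pair {R L : ℝ} {ϱ : Measure (E d)} [IsFiniteMeasure ϱ]
    (hϱ : ∀ᵐ x ∂ϱ, ‖x‖ ≤ R) {U : E d → E d} (hU : Measurable U) (hL : ∀ᵐ x ∂ϱ, ‖U x‖ ≤ L)
    {f : E d × E d → ℝ} (hf : Continuous f) : Integrable (fun x => f (x, U x)) ϱ := by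
  obtain ⟨C, hC⟩ := ((isCompact_closedBall (0 : E d) R).prod
    (isCompact_closedBall (0 : E d) L)).exists_bound_of_continuousOn hf.continuousOn
  refine Integrable.of_bound
    (hf.measurable.comp (measurable_id.prodMk hU)).aestronglyMeasurable C ?_
  filter_upwards [hϱ, hL] with x hx hx'
  exact hC (x, U x) ⟨by simpa using hx, by simpa using hx'⟩

theorem cost_eq {R L : ℝ} {ϱ μ : Measure (E d)} (h : IsSrc R ϱ) (hμ : ∀ᵐ y ∂μ, ‖y‖ ≤ L)
    {U : E d → E d} (hU : Measurable U) (hUm : ϱ.map U = μ) :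
    ∫ x, ‖x - U x‖ ^ 2 ∂ϱ =
      ∫ x, ‖x‖ ^ 2 ∂ϱ - 2 * ∫ x, inner ℝ x (U x) ∂ϱ + ∫ y, ‖y‖ ^ 2 ∂μ := by
  have := h.prob
  have hL : ∀ᵐ x ∂ϱ, ‖U x‖ ≤ L :=
    ae_of_ae_map (p := fun y => ‖y‖ ≤ L) hU.aemeasurable (by rw [hUm]; exact hμ)
  have i1 : Integrable (fun x : E d => ‖x‖ ^ 2) ϱ := h.integrable_of_continuous (by fun_prop)
  have i2 : Integrable (fun x : E d => 2 * inner ℝ x (U x)) ϱ :=
    integrable_pair h.bdd hU hL (f := fun q => 2 * inner ℝ q.1 q.2) (by fun_prop)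
  have i3 : Integrable (fun x : E d => ‖U x‖ ^ 2) ϱ :=
    integrable_pair h.bdd hU hL (f := fun q => ‖q.2‖ ^ 2) (by fun_prop)
  have i4 : Integrable (fun x : E d => ‖x‖ ^ 2 - 2 * inner ℝ x (U x)) ϱ := i1.sub i2
  rw [← hUm, integral_map hU.aemeasurable (by fun_prop : Continuous fun y : E d =>
    ‖y‖ ^ 2).aestronglyMeasurable, ← integral_const_mul, ← integral_sub i1 i2,
    ← integral_add i4 i3]
  exact integral_congr_ae (Filter.Eventually.of_forall fun x => norm_sub_sq_real _ _)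

theorem lcost_eq {R L : ℝ} {ϱ μ : Measure (E d)} (h : IsSrc R ϱ) (hμ : ∀ᵐ y ∂μ, ‖y‖ ≤ L)
    {U : E d → E d} (hU : Measurable U) (hUm : ϱ.map U = μ) :
    ∫⁻ x, ‖x - U x‖ₑ ^ 2 ∂ϱ = ENNReal.ofReal (∫ x, ‖x - U x‖ ^ 2 ∂ϱ) := by
  have := h.prob
  have hL : ∀ᵐ x ∂ϱ, ‖U x‖ ≤ L :=
    ae_of_ae_map (p := fun y => ‖y‖ ≤ L) hU.aemeasurable (by rw [hUm]; exact hμ)
  have i1 : Integrable (fun x : E d => ‖x - U x‖ ^ 2) ϱ :=
    integrable_pair h.bdd hU hL (f := fun q => ‖q.1 - q.2‖ ^ 2) (by fun_prop)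
  rw [ofReal_integral_eq_lintegral_ofReal i1 (Filter.Eventually.of_forall fun x => sq_nonneg _)]
  refine lintegral_congr fun x => ?_
  rw [ENNReal.ofReal_pow (norm_nonneg _), ofReal_norm]

theorem inner_le_of_optimal {R L : ℝ} {ϱ μ : Measure (E d)} (h : IsSrc R ϱ)
    (hμ : ∀ᵐ y ∂μ, ‖y‖ ≤ L) {T S : E d → E d} (hT : IsOptimalMap ϱ μ T) (hS : Measurable S)
    (hSm : ϱ.map S = μ) : ∫ x, inner ℝ x (S x) ∂ϱ ≤ ∫ x, inner ℝ x (T x) ∂ϱ := by
  have h1 := hT.2.2 S hS hSm
  rw [lcost_eq h hμ hT.1 hT.2.1, lcost_eq h hμ hS hSm,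
    ENNReal.ofReal_le_ofReal_iff (integral_nonneg fun x => sq_nonneg _),
    cost_eq h hμ hT.1 hT.2.1, cost_eq h hμ hS hSm] at h1
  linarith

/-- Gluing maps along the cells. -/
theorem exists_glue {R : ℝ} {ϱ : Measure (E d)} (h : IsSrc R ϱ) {p : ι → E d}
    (hp : Function.Injective p) (ψ : ι → ℝ) {S : ι → E d → E d} (hS : ∀ i, Measurable (S i)) :
    ∃ U : E d → E d, Measurable U ∧ ∀ i, U =ᵐ[ϱ.restrict (cell p ψ i)] S i := by
  classical
  obtain ⟨f, hf⟩ := exists_surjective_nat ι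
  have hex : ∀ x, ∃ n, x ∈ cell p ψ (f n) := fun x => by
    obtain ⟨i, hi⟩ := exists_mem_cell p ψ x
    obtain ⟨n, rfl⟩ := hf i
    exact ⟨n, hi⟩
  have hq : Measurable fun x => Nat.find (hex x) :=
    measurable_find hex fun n => measurableSet_cell p ψ (f n)
  have hmeas : Measurable fun q : E d × ℕ => S (f q.2) q.1 :=
    measurable_from_prod_countable_left fun n => hS (f n)
  refine ⟨fun x => S (f (Nat.find (hex x))) x, hmeas.comp (measurable_id.prodMk hq), fun i => ?_⟩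
  have h1 : ∀ᵐ x ∂ϱ, ∀ j, j ≠ i → x ∉ cell p ψ j ∩ cell p ψ i := by
    rw [ae_all_iff]
    intro j
    by_cases hj : j = i
    · simp [hj]
    · have h2 : ϱ (cell p ψ j ∩ cell p ψ i) = 0 := h.aedisjoint_cell hp ψ hj
      filter_upwards [measure_eq_zero_iff_ae_notMem.1 h2] with x hx _ using hx
  filter_upwards [ae_restrict_of_ae h1, ae_restrict_mem (measurableSet_cell p ψ i)] with x hx hxi
  have h3 : f (Nat.find (hex x)) = i := by
    by_contra hne
    exact hx _ hne ⟨Nat.find_spec (hex x), hxi⟩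
  rw [h3]

theorem eq_sum_restrict {R : ℝ} {ϱ : Measure (E d)} (h : IsSrc R ϱ) {p : ι → E d}
    (hp : Function.Injective p) (ψ : ι → ℝ) :
    ϱ = Measure.sum fun i => ϱ.restrict (cell p ψ i) := by
  rw [← Measure.restrict_iUnion_ae (h.aedisjoint_cell hp ψ)
    (fun i => (measurableSet_cell p ψ i).nullMeasurableSet), iUnion_cell, Measure.restrict_univ]

end Gap

open Gap

theorem gap_bound (hd : 1 ≤ d) {R : ℝ} {ϱ : Measure (E d)} (h : IsSrc R ϱ) {m : ι → ℝ}
    {p : ι → E d} (hp : Function.Injective p) {ψ : ι → ℝ} (hψ : IsOptWt ϱ m p ψ)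
    {μ : Measure (E d)} {L : ℝ} (hμ : ∀ᵐ y ∂μ, ‖y‖ ≤ L) (μs : ι → Measure (E d))
    (hsum : μ = ∑ i, μs i) (hmass : ∀ i, μs i univ = ENNReal.ofReal (m i)) {ω : ℝ}
    (hω : ∑ i, ∫ y, ‖y - p i‖ ∂(μs i) ≤ ω) {T : E d → E d} (hT : IsOptimalMap ϱ μ T) :
    ∃ g : E d → ℝ, Integrable g ϱ ∧ ∫ x, g x ∂ϱ ≤ 2 * R * ω ∧
      ∀ x z, ‖z‖ ≤ R → pot p ψ x + inner ℝ (T x) (z - x) ≤ pot p ψ z + g x := by
  have hprob := h.prob
  have hR : 0 ≤ R := by
    obtain ⟨x, hx⟩ := h.bdd.exists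
    exact (norm_nonneg x).trans hx
  have hm0 : ∀ i, 0 ≤ m i := fun i => hψ i ▸ measureReal_nonneg
  have hfin : ∀ i, IsFiniteMeasure (μs i) := fun i => ⟨by rw [hmass]; exact ENNReal.ofReal_lt_top⟩
  have hreal : ∀ i, (μs i).real univ = m i := fun i => by
    rw [Measure.real, hmass, ENNReal.toReal_ofReal (hm0 i)]
  have hμs : ∀ i, ∀ᵐ y ∂(μs i), ‖y‖ ≤ L := fun i => by
    have hle : μs i ≤ μ := by
      rw [hsum]
      exact Finset.single_le_sum (f := μs) (fun j _ => Measure.zero_le _) (Finset.mem_univ i)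
    exact ae_mono hle hμ
  have hTb : ∀ᵐ x ∂ϱ, ‖T x‖ ≤ L :=
    ae_of_ae_map (p := fun y => ‖y‖ ≤ L) hT.1.aemeasurable (by rw [hT.2.1]; exact hμ)
  -- the extended dual potential
  let φ : E d → ℝ := fun y => Finset.univ.inf' Finset.univ_nonempty fun i => ψ i + R * ‖y - p i‖
  have hφc : Continuous φ := 
    Continuous.finset_inf'_apply Finset.univ_nonempty fun i _ => by fun_prop
  have hφle : ∀ y i, φ y ≤ ψ i + R * ‖y - p i‖ := fun y i =>
    Finset.inf'_le (fun i => ψ i + R * ‖y - p i‖) (Finset.mem_univ i)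
  have hφ : ∀ y z : E d, ‖z‖ ≤ R → inner ℝ y z - pot p ψ z ≤ φ y := fun y z hz => by
    refine Finset.le_inf' _ _ fun i _ => ?_
    have h1 := le_pot p ψ z i
    have h2 : inner ℝ (y - p i) z ≤ ‖y - p i‖ * ‖z‖ := real_inner_le_norm _ _
    have h3 : ‖y - p i‖ * ‖z‖ ≤ ‖y - p i‖ * R := mul_le_mul_of_nonneg_left hz (norm_nonneg _)
    rw [inner_sub_left, real_inner_comm z (p i)] at h2
    linarith
  have hint : ∫ y, φ y ∂μ ≤ ∑ i, m i * ψ i + R * ω := by
    rw [hsum, integral_finsetSum_measure fun i _ => integrable_of_bdd (hμs i) hφc]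
    calc ∑ i, ∫ y, φ y ∂(μs i) ≤ ∑ i, (m i * ψ i + R * ∫ y, ‖y - p i‖ ∂(μs i)) := by
          refine Finset.sum_le_sum fun i _ => ?_
          have h1 := integral_mono (integrable_of_bdd (hμs i) hφc)
            (integrable_of_bdd (hμs i) (f := fun y => ψ i + R * ‖y - p i‖) (by fun_prop))
            fun y => hφle y i
          rwa [integral_add (integrable_const _) (integrable_of_bdd (hμs i) (by fun_prop)),
            integral_const, integral_const_mul, hreal, smul_eq_mul] at h1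
      _ = ∑ i, m i * ψ i + R * ∑ i, ∫ y, ‖y - p i‖ ∂(μs i) := by
          rw [Finset.sum_add_distrib, Finset.mul_sum]
      _ ≤ _ := by gcongr
  -- the competitor
  have hne : Nonempty (Fin d) := ⟨⟨0, hd⟩⟩
  have hnull : NullSingletonClass ϱ := ⟨fun x => h.ac (measure_singleton x)⟩
  have hS : ∀ i, ∃ S : E d → E d, Measurable S ∧ (ϱ.restrict (cell p ψ i)).map S = μs i :=
    fun i => Crest.Agent.Lib.Transport.exists_map_eq _ _ (by
      rw [Measure.restrict_apply_univ, hmass, ← hψ i, ofReal_measureReal])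
  choose S hSm hSe using hS
  obtain ⟨U, hU, hUS⟩ := exists_glue h hp ψ hSm
  have hUm : ϱ.map U = μ := by
    rw [eq_sum_restrict h hp ψ, Measure.map_sum hU.aemeasurable, hsum, Measure.sum_fintype]
    exact Finset.sum_congr rfl fun i _ => by rw [Measure.map_congr (hUS i), hSe i]
  have hUb : ∀ᵐ x ∂ϱ, ‖U x‖ ≤ L :=
    ae_of_ae_map (p := fun y => ‖y‖ ≤ L) hU.aemeasurable (by rw [hUm]; exact hμ)
  have hlow : dual ϱ m p ψ - R * ω ≤ ∫ x, inner ℝ x (U x) ∂ϱ := by
    have iU : Integrable (fun x : E d => inner ℝ x (U x)) ϱ :=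
      integrable_pair h.bdd hU hUb (f := fun q => inner ℝ q.1 q.2) (by fun_prop)
    rw [h.integral_eq_sum_cell hp ψ iU, ← sum_inner_bary_eq h hp hψ]
    calc _ ≤ ∑ i, inner ℝ (bary ϱ p ψ i) (p i) - R * ∑ i, ∫ y, ‖y - p i‖ ∂(μs i) := by gcongr
      _ = ∑ i, (inner ℝ (bary ϱ p ψ i) (p i) - R * ∫ y, ‖y - p i‖ ∂(μs i)) := by
          rw [Finset.sum_sub_distrib, Finset.mul_sum]
      _ ≤ _ := by
          refine Finset.sum_le_sum fun i _ => ?_
          have e1 : ∫ y, ‖y - p i‖ ∂(μs i) = ∫ x in cell p ψ i, ‖U x - p i‖ ∂ϱ := by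
            rw [← hSe i, ← Measure.map_congr (hUS i), integral_map hU.aemeasurable
              (by fun_prop : Continuous fun y : E d => ‖y - p i‖).aestronglyMeasurable]
          have i1 : Integrable (fun x : E d => inner ℝ x (p i)) ϱ :=
            h.integrable_of_continuous (by fun_prop)
          have i2 : Integrable (fun x : E d => R * ‖U x - p i‖) ϱ :=
            integrable_pair h.bdd hU hUb (f := fun q => R * ‖q.2 - p i‖) (by fun_prop)
          rw [inner_bary h, e1, ← integral_const_mul,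
            ← integral_sub i1.integrableOn i2.integrableOn]
          refine integral_mono_ae (i1.sub i2).integrableOn iU.integrableOn ?_
          filter_upwards [ae_restrict_of_ae h.bdd] with x hx
          have h2 : inner ℝ x (p i - U x) ≤ ‖x‖ * ‖p i - U x‖ := real_inner_le_norm _ _
          have h3 : ‖x‖ * ‖p i - U x‖ ≤ R * ‖p i - U x‖ :=
            mul_le_mul_of_nonneg_right hx (norm_nonneg _)
          rw [inner_sub_right, norm_sub_rev] at h2
          rw [norm_sub_rev] at h3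
          linarith
  have hV := inner_le_of_optimal h hμ hT hU hUm
  have j1 : Integrable (pot p ψ) ϱ := h.integrable_of_continuous (continuous_pot p ψ)
  have j2 : Integrable (fun x => φ (T x)) ϱ :=
    integrable_pair h.bdd hT.1 hTb (f := fun q => φ q.2) (hφc.comp continuous_snd)
  have j3 : Integrable (fun x : E d => inner ℝ x (T x)) ϱ :=
    integrable_pair h.bdd hT.1 hTb (f := fun q => inner ℝ q.1 q.2) (by fun_prop)
  refine ⟨fun x => pot p ψ x + φ (T x) - inner ℝ x (T x), (j1.add j2).sub j3, ?_, fun x z hz => ?_⟩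
  · have j4 : Integrable (fun x => pot p ψ x + φ (T x)) ϱ := j1.add j2
    rw [integral_sub j4 j3, integral_add j1 j2,
      ← integral_map hT.1.aemeasurable hφc.aestronglyMeasurable, hT.2.1]
    rw [dual] at hlow
    linarith
  · have := hφ (T x) z hz
    rw [inner_sub_right, real_inner_comm x (T x)]
    linarith

end Crest.Agent.R82
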