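import Crest.Agent.R82.Defs

/-!
Boundary layers of a convex body, and integrated second differences.
-/

set_option autoImplicit false

open MeasureTheory Set
open scoped ENNReal NNReal
open Crest.AnalysisR.OT

namespace Crest.Agent.R82

variable {d : ℕ}

theorem uniformProbOn_real (K : Set (E d)) {S : Set (E d)} (hS : MeasurableSet S) :
    (uniformProbOn K).real S = (volume.real K)⁻¹ * volume.real (S ∩ K) := by
  simp [Measure.real, uniformProbOn_apply K hS]

theorem Body.real_pos {K : Set (E d)} {R : ℝ} (hK : Body K R) : 0 < volume.real K :=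
  ENNReal.toReal_pos hK.volume_pos.ne' hK.volume_ne_top

theorem exists_boundary_layer {K : Set (E d)} {R : ℝ} (hK : Body K R) :
    ∃ Cb : ℝ, 0 ≤ Cb ∧ ∀ v : E d, (uniformProbOn K).real {x | x + v ∉ K} ≤ Cb * ‖v‖ := by
  have hs := hK.isSrc
  have := hs.prob
  obtain ⟨x₀, hx₀⟩ := hK.int
  obtain ⟨r, hr, hball⟩ := Metric.nhds_basis_closedBall.mem_iff.1 (mem_interior_iff_mem_nhds.1 hx₀)
  refine ⟨((d : ℝ) + 1) / r, by positivity, fun v => ?_⟩
  set θ := ‖v‖ / r with hθ
  have hθ0 : 0 ≤ θ := by positivity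
  have e : ((d : ℝ) + 1) / r * ‖v‖ = d * θ + θ := by rw [hθ]; ring
  rw [e]
  have hd0 : 0 ≤ (d : ℝ) * θ := by positivity
  rcases le_or_gt 1 θ with h1 | h1
  · exact measureReal_le_one.trans (by linarith)
  set K' := AffineMap.homothety x₀ (1 - θ) '' K with hK'
  have hK'c : IsCompact K' := hK.compact.image (AffineMap.homothety_continuous x₀ (1 - θ))
  have hmem : ∀ x ∈ K', ∀ u : E d, ‖u‖ ≤ ‖v‖ → x + u ∈ K := by
    rintro _ ⟨k, hk, rfl⟩ u hu
    rcases hθ0.eq_or_lt with h0 | h0
    · have hv : ‖v‖ = 0 := by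
        have : ‖v‖ / r = 0 := h0.symm
        simpa [hr.ne'] using this
      have hu0 : u = 0 := norm_le_zero_iff.1 (hv ▸ hu)
      simpa [← h0, hu0] using hk
    · have hz : x₀ + θ⁻¹ • u ∈ K := by
        refine hball ?_
        rw [mem_closedBall_iff_norm, add_sub_cancel_left, norm_smul, norm_inv,
          Real.norm_of_nonneg hθ0, inv_mul_le_iff₀ h0, hθ, div_mul_cancel₀ _ hr.ne']
        exact hu
      have := hK.convex hk hz (by linarith : 0 ≤ 1 - θ) hθ0 (by ring)
      convert this using 1
      rw [AffineMap.homothety_apply, smul_add, smul_smul, mul_inv_cancel₀ h0.ne', one_smul]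
      simp only [vsub_eq_sub, vadd_eq_add]
      module
  have hsub : K' ⊆ K := fun x hx => by simpa using hmem x hx 0 (by simp)
  have hvol : (uniformProbOn K).real K' = (1 - θ) ^ d := by
    rw [uniformProbOn_real K hK'c.measurableSet, inter_eq_left.2 hsub, Measure.real, Measure.real,
      hK', Measure.addHaar_image_homothety, ENNReal.toReal_mul,
      ENNReal.toReal_ofReal (abs_nonneg _), finrank_euclideanSpace_fin,
      abs_of_nonneg (pow_nonneg (by linarith) _)]
    have := hK.real_pos
    rw [Measure.real] at this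
    field_simp
  have hb : 1 + (d : ℝ) * (-θ) ≤ (1 + -θ) ^ d := one_add_mul_le_pow (by linarith) d
  calc (uniformProbOn K).real {x | x + v ∉ K} ≤ (uniformProbOn K).real K'ᶜ :=
        measureReal_mono fun x hx hx' => hx (hmem x hx' v le_rfl)
    _ = 1 - (1 - θ) ^ d := by rw [probReal_compl_eq_one_sub hK'c.measurableSet, hvol]
    _ ≤ d * θ + θ := by rw [← sub_eq_add_neg] at hb; linarith

theorem shift_le {K : Set (E d)} {R : ℝ} (hK : Body K R) {S : Set (E d)} (hS : MeasurableSet S)
    (v : E d) :
    (uniformProbOn K).real {x | x + v ∈ K ∧ x + v ∈ S} ≤ (uniformProbOn K).real S := by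
  have e : {x : E d | x + v ∈ K ∧ x + v ∈ S} = (fun x => x + v) ⁻¹' (S ∩ K) := by
    ext x; simp [and_comm]
  have hm : MeasurableSet ((fun x : E d => x + v) ⁻¹' (S ∩ K)) :=
    (measurable_add_const v) (hS.inter hK.measurableSet)
  rw [e, uniformProbOn_real K hm, uniformProbOn_real K hS]
  refine mul_le_mul_of_nonneg_left ?_ (inv_nonneg.2 measureReal_nonneg)
  have h1 : volume ((fun x : E d => x + v) ⁻¹' (S ∩ K)) = volume (S ∩ K) :=
    measure_preimage_add_right _ _ _
  have h2 : volume (S ∩ K) ≠ ⊤ := measure_ne_top_of_subset inter_subset_right hK.volume_ne_top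
  exact (measureReal_mono inter_subset_left (h1 ▸ h2)).trans (le_of_eq (congrArg ENNReal.toReal h1))

theorem second_diff {K : Set (E d)} {R : ℝ} (hK : Body K R) {Cb : ℝ}
    (hCb : ∀ v : E d, (uniformProbOn K).real {x | x + v ∉ K} ≤ Cb * ‖v‖) {φ : E d → ℝ} {L : ℝ}
    (hL : 0 ≤ L) (hφ : ∀ x y, |φ x - φ y| ≤ L * ‖x - y‖) (v : E d) :
    ∫ x, (φ (x + v) + φ (x - v) - 2 * φ x) ∂(uniformProbOn K) ≤ 2 * Cb * L * ‖v‖ ^ 2 := by
  have hφc : Continuous φ := by
    refine (LipschitzWith.of_dist_le_mul (K := ⟨L, hL⟩) fun x y => ?_).continuous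
    rw [Real.dist_eq, dist_eq_norm]
    exact hφ x y
  set D : E d → ℝ := fun x => φ (x + v) - φ x with hD
  have hDc : Continuous D := by fun_prop
  have hDb : ∀ x, ‖D x‖ ≤ L * ‖v‖ := fun x => by simpa [hD] using hφ (x + v) x
  set K' : Set (E d) := (fun x => x + v) ⁻¹' K with hK'
  have hKm := hK.measurableSet
  have hK'm : MeasurableSet K' := (measurable_add_const v) hKm
  have hK'c : IsCompact K' := (Homeomorph.addRight v).isCompact_preimage.2 hK.compact
  have hVpos := hK.real_pos
  have hshift : ∫ x in K, D (x - v) = ∫ x in K', D x := by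
    rw [← integral_indicator hKm, ← integral_indicator hK'm,
      ← integral_add_right_eq_self (fun x => K.indicator (fun x => D (x - v)) x) v]
    congr 1
    ext x
    by_cases hx : x + v ∈ K
    · rw [indicator_of_mem hx, indicator_of_mem (show x ∈ K' from hx), add_sub_cancel_right]
    · rw [indicator_of_notMem hx, indicator_of_notMem (show x ∉ K' from hx)]
  have hi : IntegrableOn D K := hDc.continuousOn.integrableOn_compact hK.compact
  have hi' : IntegrableOn D K' := hDc.continuousOn.integrableOn_compact hK'c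
  have hi'' : IntegrableOn (fun x => D (x - v)) K :=
    (by fun_prop : Continuous fun x => D (x - v)).continuousOn.integrableOn_compact hK.compact
  have e1 : ∫ x in K, (φ (x + v) + φ (x - v) - 2 * φ x) =
      (∫ x in K \ K', D x) - ∫ x in K' \ K, D x := by
    have : ∀ x, φ (x + v) + φ (x - v) - 2 * φ x = D x - D (x - v) := fun x => by
      simp only [hD, sub_add_cancel]; ring
    simp_rw [this]
    rw [integral_sub hi hi'', hshift, ← integral_inter_add_sdiff hK'm hi,
      ← integral_inter_add_sdiff hKm hi', inter_comm K' K]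
    ring
  have v1 : volume.real (K \ K') ≤ Cb * ‖v‖ * volume.real K := by
    have := hCb v
    rw [uniformProbOn_real K (show MeasurableSet {x | x + v ∉ K} from hK'm.compl),
      inv_mul_le_iff₀ hVpos] at this
    refine le_trans (le_of_eq ?_) (this.trans_eq (mul_comm _ _))
    congr 1
    ext x; simp [hK', and_comm]
  have v2 : volume.real (K' \ K) ≤ Cb * ‖v‖ * volume.real K := by
    have := hCb (-v)
    rw [uniformProbOn_real K (show MeasurableSet {x | x + -v ∉ K} from
      ((measurable_add_const (-v)) hKm).compl), inv_mul_le_iff₀ hVpos, norm_neg] at this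
    refine le_trans (le_of_eq ?_) (this.trans_eq (mul_comm _ _))
    rw [Measure.real, Measure.real, ← measure_preimage_add_right volume v ({x | x + -v ∉ K} ∩ K)]
    congr 2
    ext x; simp [hK', and_comm]
  have b1 : ‖∫ x in K \ K', D x‖ ≤ L * ‖v‖ * volume.real (K \ K') :=
    norm_setIntegral_le_of_norm_le_const
      ((measure_mono sdiff_subset).trans_lt hK.compact.measure_lt_top) fun x _ => hDb x
  have b2 : ‖∫ x in K' \ K, D x‖ ≤ L * ‖v‖ * volume.real (K' \ K) :=
    norm_setIntegral_le_of_norm_le_const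
      ((measure_mono sdiff_subset).trans_lt hK'c.measure_lt_top) fun x _ => hDb x
  have hLv : 0 ≤ L * ‖v‖ := by positivity
  have b3 := b1.trans (mul_le_mul_of_nonneg_left v1 hLv)
  have b4 := b2.trans (mul_le_mul_of_nonneg_left v2 hLv)
  rw [Real.norm_eq_abs, abs_le] at b3 b4
  rw [uniformProbOn, integral_smul_measure, e1, smul_eq_mul, ENNReal.toReal_inv, ← Measure.real,
    inv_mul_le_iff₀ hVpos]
  nlinarith [b3.2, b4.1]

end Crest.Agent.R82
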