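import Crest.Agent.R82.Geom

/-!
From potentials to maps.
-/

set_option autoImplicit false

open MeasureTheory Set
open scoped ENNReal NNReal
open Crest.AnalysisR.OT

namespace Crest.Agent.R82

variable {d : ℕ}

theorem sq_le_levels {L W : ℝ} (hW : |W| ≤ 2 * L) (n : ℕ) :
    W ^ 2 ≤ (2 * L / 16 ^ n) ^ 2 + ∑ j ∈ Finset.range n,
      (2 * L / 16 ^ j) ^ 2 * (if 2 * L / 16 ^ (j + 1) < |W| then 1 else 0) := by
  have hnn : ∀ n, 0 ≤ ∑ j ∈ Finset.range n,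
      (2 * L / 16 ^ j) ^ 2 * (if 2 * L / 16 ^ (j + 1) < |W| then (1 : ℝ) else 0) := fun n =>
    Finset.sum_nonneg fun j _ => by split_ifs <;> positivity
  induction n with
  | zero => simpa using sq_le_sq' (abs_le.1 hW).1 (abs_le.1 hW).2
  | succ n ih =>
    by_cases h : 2 * L / 16 ^ (n + 1) < |W|
    · rw [Finset.sum_range_succ, if_pos h]
      linarith [sq_nonneg (2 * L / 16 ^ (n + 1))]
    · have h1 := abs_le.1 (not_lt.1 h)
      linarith [sq_le_sq' h1.1 h1.2, hnn (n + 1)]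

/-- From tail bounds on geometric levels to the second moment. -/
theorem integral_sq_le_of_tails {α : Type*} [MeasurableSpace α] (ρ : Measure α)
    [IsProbabilityMeasure ρ] {W : α → ℝ} (hW : Measurable W) {L c : ℝ} (hc : 0 ≤ c)
    (hb : ∀ᵐ x ∂ρ, |W x| ≤ 2 * L)
    (ht : ∀ n : ℕ, ρ.real {x | 2 * L / 16 ^ n < |W x|} ≤ c * 128 ^ n) :
    ∫ x, W x ^ 2 ∂ρ ≤ 1024 * L ^ 2 * c := by
  have hms : ∀ n : ℕ, MeasurableSet {x | 2 * L / 16 ^ n < |W x|} := fun n =>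
    measurableSet_lt measurable_const (by fun_prop)
  have hind : ∀ n : ℕ, (fun x => if 2 * L / 16 ^ n < |W x| then (1 : ℝ) else 0) =
      {x | 2 * L / 16 ^ n < |W x|}.indicator fun _ => (1 : ℝ) := fun n => by
    ext x; simp [indicator]
  have hii : ∀ n : ℕ, Integrable (fun x => if 2 * L / 16 ^ n < |W x| then (1 : ℝ) else 0) ρ :=
    fun n => by rw [hind]; exact (integrable_const _).indicator (hms n)
  have hWi : Integrable (fun x => W x ^ 2) ρ := by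
    refine Integrable.of_bound (by fun_prop) ((2 * L) ^ 2) ?_
    filter_upwards [hb] with x hx
    rw [Real.norm_eq_abs, abs_of_nonneg (sq_nonneg _)]
    exact sq_le_sq' (abs_le.1 hx).1 (abs_le.1 hx).2
  have main : ∀ n : ℕ, ∫ x, W x ^ 2 ∂ρ ≤ 1024 * L ^ 2 * c + (2 * L) ^ 2 * (1 / 256) ^ n := by
    intro n
    have hsi : Integrable (fun x => ∑ j ∈ Finset.range n,
        (2 * L / 16 ^ j) ^ 2 * (if 2 * L / 16 ^ (j + 1) < |W x| then (1 : ℝ) else 0)) ρ :=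
      integrable_finsetSum _ fun j _ => (hii (j + 1)).const_mul _
    have h1 := integral_mono_ae hWi ((integrable_const ((2 * L / 16 ^ n) ^ 2)).add hsi)
      (hb.mono fun x hx => sq_le_levels hx n)
    simp only [Pi.add_apply] at h1
    rw [integral_add (integrable_const _) hsi, integral_const, probReal_univ, one_smul,
      integral_finsetSum _ fun j _ => (hii (j + 1)).const_mul _] at h1
    have h2 : ∑ j ∈ Finset.range n, ∫ x, (2 * L / 16 ^ j) ^ 2 *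
        (if 2 * L / 16 ^ (j + 1) < |W x| then (1 : ℝ) else 0) ∂ρ ≤
        ∑ j ∈ Finset.range n, (512 * L ^ 2 * c) * (1 / 2 : ℝ) ^ j := by
      refine Finset.sum_le_sum fun j _ => ?_
      rw [integral_const_mul, hind, integral_indicator (hms _), setIntegral_const, smul_eq_mul,
        mul_one]
      refine (mul_le_mul_of_nonneg_left (ht (j + 1)) (sq_nonneg _)).trans (le_of_eq ?_)
      have e16 : (16 : ℝ) ^ j = (2 ^ j) ^ 4 := by rw [← pow_mul, mul_comm, pow_mul]; norm_num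
      have e128 : (128 : ℝ) ^ j = (2 ^ j) ^ 7 := by rw [← pow_mul, mul_comm, pow_mul]; norm_num
      rw [pow_succ (128 : ℝ), e16, e128, one_div_pow]
      field_simp
      ring
    rw [← Finset.mul_sum] at h2
    have h3 : (512 * L ^ 2 * c) * ∑ j ∈ Finset.range n, (1 / 2 : ℝ) ^ j ≤ (512 * L ^ 2 * c) * 2 :=
      mul_le_mul_of_nonneg_left (sum_geometric_two_le n) (by positivity)
    have h4 : (2 * L / 16 ^ n) ^ 2 = (2 * L) ^ 2 * (1 / 256) ^ n := by
      rw [div_pow, ← pow_mul, mul_comm n 2, pow_mul, one_div_pow]; norm_num; ring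
    linarith
  have hlim : Filter.Tendsto (fun n : ℕ => 1024 * L ^ 2 * c + (2 * L) ^ 2 * (1 / 256 : ℝ) ^ n)
      Filter.atTop (nhds (1024 * L ^ 2 * c + (2 * L) ^ 2 * 0)) :=
    tendsto_const_nhds.add
      ((tendsto_pow_atTop_nhds_zero_of_lt_one (by norm_num) (by norm_num)).const_mul _)
  simpa using ge_of_tendsto' hlim main

theorem interp_tail {K : Set (E d)} {R : ℝ} (hK : Body K R) {Cb L G U : ℝ}
    (hCb : ∀ v : E d, (uniformProbOn K).real {x | x + v ∉ K} ≤ Cb * ‖v‖) (hL : 0 ≤ L)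
    {φ₀ φ₁ : E d → ℝ} {S T : E d → E d} {g₀ g₁ : E d → ℝ} {c : ℝ}
    (hφ₀ : Continuous φ₀) (hcv : ConvexOn ℝ univ φ₁) (hφ₁ : ∀ x y, |φ₁ x - φ₁ y| ≤ L * ‖x - y‖)
    (hg₀ : Integrable g₀ (uniformProbOn K)) (hg₁ : Integrable g₁ (uniformProbOn K))
    (hG₀ : ∫ x, g₀ x ∂(uniformProbOn K) ≤ G) (hG₁ : ∫ x, g₁ x ∂(uniformProbOn K) ≤ G)
    (hS : ∀ x, ∀ z ∈ K, φ₀ x + inner ℝ (S x) (z - x) ≤ φ₀ z + g₀ x)
    (hT : ∀ x, ∀ z ∈ K, φ₁ x + inner ℝ (T x) (z - x) ≤ φ₁ z + g₁ x)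
    (v : E d) {t : ℝ} (ht : 0 < t)
    (hU : (uniformProbOn K).real {x | t ≤ |φ₀ x - φ₁ x - c|} ≤ U) :
    (uniformProbOn K).real {x | 4 * t < |inner ℝ (S x - T x) v|} ≤
      2 * Cb * ‖v‖ + 3 * U + (2 * Cb * L * ‖v‖ ^ 2 + 2 * G) / t := by
  set ρ := uniformProbOn K with hρ
  have hs : IsSrc R ρ := hK.isSrc
  have := hs.prob
  have hφ₁c : Continuous φ₁ := by
    refine (LipschitzWith.of_dist_le_mul (K := ⟨L, hL⟩) fun x y => ?_).continuous
    rw [Real.dist_eq, dist_eq_norm]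
    exact hφ₁ x y
  set B : Set (E d) := {x | t ≤ |φ₀ x - φ₁ x - c|} with hB
  have hBm : MeasurableSet B := (isClosed_le continuous_const (by fun_prop)).measurableSet
  set Δ : E d → ℝ := fun x => φ₁ (x + v) + φ₁ (x - v) - 2 * φ₁ x with hΔ
  have hΔ0 : ∀ x, 0 ≤ Δ x := fun x => by
    have h1 := hcv.2 (mem_univ (x + v)) (mem_univ (x - v)) (by norm_num : (0 : ℝ) ≤ 1 / 2)
      (by norm_num : (0 : ℝ) ≤ 1 / 2) (by norm_num)
    have e : (1 / 2 : ℝ) • (x + v) + (1 / 2 : ℝ) • (x - v) = x := by module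
    rw [e, smul_eq_mul, smul_eq_mul] at h1
    simp only [hΔ]
    linarith
  have hΔi : Integrable Δ ρ := hs.integrable_of_continuous (by fun_prop)
  have hΔb := second_diff hK hCb hL hφ₁ v
  set F : E d → ℝ := fun x => Δ x + (g₀ x + g₁ x) with hF
  have hFi : Integrable F ρ := hΔi.add (hg₀.add hg₁)
  have hF0 : 0 ≤ᵐ[ρ] F := by
    filter_upwards [hK.ae_mem] with x hx
    have h1 := hS x x hx
    have h2 := hT x x hx
    simp only [sub_self, inner_zero_right] at h1 h2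
    have := hΔ0 x
    simp only [hF, Pi.zero_apply]
    linarith
  have hFb : ρ.real {x | t ≤ F x} ≤ (2 * Cb * L * ‖v‖ ^ 2 + 2 * G) / t := by
    have h1 := mul_meas_ge_le_integral_of_nonneg hF0 hFi t
    have e1 : ∫ x, F x ∂ρ = ∫ x, Δ x ∂ρ + ∫ x, (g₀ x + g₁ x) ∂ρ :=
      integral_add hΔi (hg₀.add hg₁)
    have e2 : ∫ x, Δ x ∂ρ ≤ 2 * Cb * L * ‖v‖ ^ 2 := hΔb
    rw [e1, integral_add hg₀ hg₁] at h1
    rw [le_div_iff₀ ht, mul_comm]
    linarith
  have hsub : {x | 4 * t < |inner ℝ (S x - T x) v|} ⊆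
      (((((Kᶜ ∪ {x | x + v ∉ K}) ∪ {x | x + -v ∉ K}) ∪ {x | x + v ∈ K ∧ x + v ∈ B}) ∪
        {x | x + -v ∈ K ∧ x + -v ∈ B}) ∪ B) ∪ {x | t ≤ F x} := by
    intro x hx
    by_contra hcon
    simp only [mem_union, mem_compl_iff, mem_ofPred_eq, not_or, not_not, not_and, not_le,
      hB] at hcon
    obtain ⟨⟨⟨⟨⟨⟨-, h1⟩, h2⟩, h3⟩, h4⟩, h5⟩, h6⟩ := hcon
    have a1 := hS x _ h1
    have a2 := hS x _ h2
    have a3 := hT x _ h1
    have a4 := hT x _ h2
    have b3 := abs_lt.1 (h3 h1)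
    have b4 := abs_lt.1 (h4 h2)
    have b5 := abs_lt.1 h5
    rw [add_sub_cancel_left] at a1 a2 a3 a4
    rw [inner_neg_right] at a2 a4
    simp only [hF, hΔ] at h6
    simp only [← sub_eq_add_neg] at a2 a4 b4
    have hx' : 4 * t < |inner ℝ (S x - T x) v| := hx
    rw [inner_sub_left] at hx'
    refine absurd hx' (not_lt.2 (abs_le.2 ⟨?_, ?_⟩)) <;>
      linarith [b3.1, b3.2, b4.1, b4.2, b5.1, b5.2]
  have k0 : ρ.real Kᶜ = 0 := by
    have : ρ Kᶜ = 0 := hK.ae_mem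
    simp [Measure.real, this]
  have k1 := hCb v
  have k2 := hCb (-v)
  rw [norm_neg] at k2
  have k3 := shift_le hK hBm v
  have k4 := shift_le hK hBm (-v)
  rw [← hρ] at k3 k4
  refine (measureReal_mono hsub).trans ?_
  refine (measureReal_union_le _ _).trans (add_le_add ?_ hFb)
  refine (measureReal_union_le _ _).trans ?_
  refine (add_le_add (measureReal_union_le _ _) le_rfl).trans ?_
  refine (add_le_add (add_le_add (measureReal_union_le _ _) le_rfl) le_rfl).trans ?_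
  refine (add_le_add (add_le_add (add_le_add (measureReal_union_le _ _) le_rfl) le_rfl)
    le_rfl).trans ?_
  refine (add_le_add (add_le_add (add_le_add (add_le_add (measureReal_union_le _ _) le_rfl)
    le_rfl) le_rfl) le_rfl).trans ?_
  linarith

theorem interp {K : Set (E d)} {R : ℝ} (hK : Body K R) (L M : ℝ) (hL : 0 < L) (hM : 0 ≤ M) :
    ∃ C : ℝ, 0 ≤ C ∧ ∀ (φ₀ φ₁ : E d → ℝ) (S T : E d → E d) (g₀ g₁ : E d → ℝ) (c h : ℝ), 0 < h →
      Continuous φ₀ → ConvexOn ℝ univ φ₁ → (∀ x y, |φ₁ x - φ₁ y| ≤ L * ‖x - y‖) →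
      Measurable S → Measurable T →
      (∀ᵐ x ∂(uniformProbOn K), ‖S x‖ ≤ L) → (∀ᵐ x ∂(uniformProbOn K), ‖T x‖ ≤ L) →
      Integrable g₀ (uniformProbOn K) → Integrable g₁ (uniformProbOn K) →
      ∫ x, g₀ x ∂(uniformProbOn K) ≤ M * h ^ 2 → ∫ x, g₁ x ∂(uniformProbOn K) ≤ M * h ^ 2 →
      (∀ x, ∀ z ∈ K, φ₀ x + inner ℝ (S x) (z - x) ≤ φ₀ z + g₀ x) →
      (∀ x, ∀ z ∈ K, φ₁ x + inner ℝ (T x) (z - x) ≤ φ₁ z + g₁ x) →
      (∀ t : ℝ, 0 < t → (uniformProbOn K).real {x | t ≤ |φ₀ x - φ₁ x - c|} ≤ M * h ^ 5 / t ^ 4) →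
      ∫⁻ x, ‖S x - T x‖ₑ ^ 2 ∂(uniformProbOn K) ≤ ENNReal.ofReal (C * h) := by
  obtain ⟨Cb, hCb0, hCb⟩ := exists_boundary_layer hK
  set C₁ : ℝ := 6 * Cb + 48 * M / L ^ 4 + 4 * M / L with hC₁
  have hC₁0 : 0 ≤ C₁ := by positivity
  refine ⟨d * (1024 * L ^ 2 * C₁), by positivity, ?_⟩
  intro φ₀ φ₁ S T g₀ g₁ c h h0 hφ₀ hcv hφ₁ hSm hTm hSb hTb hg₀ hg₁ hG₀ hG₁ hS hT hU
  set ρ := uniformProbOn K with hρ
  have hs : IsSrc R ρ := hK.isSrc
  have := hs.prob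
  have hb : ∀ᵐ x ∂ρ, ‖S x - T x‖ ≤ 2 * L := by
    filter_upwards [hSb, hTb] with x h1 h2
    exact (norm_sub_le _ _).trans (by linarith)
  have hWm : ∀ k : Fin d, Measurable fun x => (S x - T x) k := fun k => by fun_prop
  have hWb : ∀ k : Fin d, ∀ᵐ x ∂ρ, |(S x - T x) k| ≤ 2 * L := fun k =>
    hb.mono fun x hx => (PiLp.norm_apply_le (S x - T x) k).trans hx
  have hcoord : ∀ k : Fin d, ∫ x, ((S x - T x) k) ^ 2 ∂ρ ≤ 1024 * L ^ 2 * (C₁ * h) := by
    intro k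
    refine integral_sq_le_of_tails ρ (hWm k) (by positivity) (hWb k) fun n => ?_
    have ht : 0 < L * h / (2 * 2 ^ n) := by positivity
    have hη : 0 < h * 8 ^ n := by positivity
    have key := interp_tail hK hCb hL.le hφ₀ hcv hφ₁ hg₀ hg₁ hG₀ hG₁ hS hT
      (EuclideanSpace.single k (h * 8 ^ n)) ht (hU _ ht)
    have e16 : (16 : ℝ) ^ n = (2 ^ n) ^ 4 := by rw [← pow_mul, mul_comm, pow_mul]; norm_num
    have e8 : (8 : ℝ) ^ n = (2 ^ n) ^ 3 := by rw [← pow_mul, mul_comm, pow_mul]; norm_num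
    have e128 : (128 : ℝ) ^ n = (2 ^ n) ^ 7 := by rw [← pow_mul, mul_comm, pow_mul]; norm_num
    have hset : {x | 2 * L / 16 ^ n < |(S x - T x) k|} =
        {x | 4 * (L * h / (2 * 2 ^ n)) <
          |inner ℝ (S x - T x) (EuclideanSpace.single k (h * 8 ^ n))|} := by
      ext x
      simp only [mem_ofPred_eq, EuclideanSpace.inner_single_right, conj_trivial]
      have e : 4 * (L * h / (2 * 2 ^ n)) = (h * 8 ^ n) * (2 * L / 16 ^ n) := by
        rw [e16, e8]; field_simp; norm_num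
      rw [e, abs_mul, abs_of_pos hη, mul_lt_mul_iff_right₀ hη]
    rw [hset]
    refine key.trans ?_
    rw [PiLp.norm_single, Real.norm_of_nonneg hη.le, e8, e128]
    have h2 : (1 : ℝ) ≤ 2 ^ n := one_le_pow₀ (by norm_num)
    set s : ℝ := 2 ^ n with hsdef
    have e : 2 * Cb * (h * s ^ 3) + 3 * (M * h ^ 5 / (L * h / (2 * s)) ^ 4) +
        (2 * Cb * L * (h * s ^ 3) ^ 2 + 2 * (M * h ^ 2)) / (L * h / (2 * s)) =
        h * (2 * Cb * s ^ 3 + 48 * M / L ^ 4 * s ^ 4 + 4 * Cb * s ^ 7 + 4 * M / L * s ^ 1) := by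
      field_simp; ring
    rw [e, mul_comm C₁ h, mul_assoc h C₁]
    refine mul_le_mul_of_nonneg_left ?_ h0.le
    have p3 : s ^ 3 ≤ s ^ 7 := pow_le_pow_right₀ h2 (by norm_num)
    have p4 : s ^ 4 ≤ s ^ 7 := pow_le_pow_right₀ h2 (by norm_num)
    have p1 : s ^ 1 ≤ s ^ 7 := pow_le_pow_right₀ h2 (by norm_num)
    have q3 := mul_le_mul_of_nonneg_left p3 (show 0 ≤ 2 * Cb by positivity)
    have q4 := mul_le_mul_of_nonneg_left p4 (show 0 ≤ 48 * M / L ^ 4 by positivity)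
    have q1 := mul_le_mul_of_nonneg_left p1 (show 0 ≤ 4 * M / L by positivity)
    rw [hC₁]
    linarith
  have hWi : ∀ k : Fin d, Integrable (fun x => ((S x - T x) k) ^ 2) ρ := fun k => by
    refine Integrable.of_bound ((hWm k).pow_const 2).aestronglyMeasurable ((2 * L) ^ 2) ?_
    filter_upwards [hWb k] with x hx
    rw [Real.norm_eq_abs, abs_of_nonneg (sq_nonneg _)]
    exact sq_le_sq' (abs_le.1 hx).1 (abs_le.1 hx).2
  have e1 : ∀ x, ‖S x - T x‖ₑ ^ 2 = ENNReal.ofReal (∑ k, ((S x - T x) k) ^ 2) := fun x => by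
    rw [← EuclideanSpace.real_norm_sq_eq, ← ofReal_norm, ENNReal.ofReal_pow (norm_nonneg _)]
  simp_rw [e1]
  rw [← ofReal_integral_eq_lintegral_ofReal (integrable_finsetSum _ fun k _ => hWi k)
    (Filter.Eventually.of_forall fun x => Finset.sum_nonneg fun k _ => sq_nonneg _),
    integral_finsetSum _ fun k _ => hWi k]
  refine ENNReal.ofReal_le_ofReal ((Finset.sum_le_sum fun k _ => hcoord k).trans (le_of_eq ?_))
  simp only [Finset.sum_const, Finset.card_univ, Fintype.card_fin, nsmul_eq_mul]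
  ring

end Crest.Agent.R82
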