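import Crest.Agent.R82.PotStab
import Crest.Agent.R82.Gap
import Crest.Agent.R82.Interp
import Crest.Agent.R82.Discr

/-!
Assembly of the stability estimate.
-/

set_option autoImplicit false

open MeasureTheory Set
open scoped ENNReal NNReal
open Crest.AnalysisR.OT

namespace Crest.Agent.R82

variable {d : ℕ} {ι : Type} [Fintype ι] [Nonempty ι]

theorem main_h (hd : 1 ≤ d) {K : Set (E d)} {R : ℝ} (hK : Body K R) {L : ℝ} (hL : 0 ≤ L) :
    ∃ C : ℝ, 0 ≤ C ∧ ∀ μ ν : Measure (E d), IsProbabilityMeasure μ →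
      (∀ᵐ y ∂μ, ‖y‖ ≤ L) → (∀ᵐ y ∂ν, ‖y‖ ≤ L) → ∀ Tμ Tν : E d → E d,
        IsOptimalMap (uniformProbOn K) μ Tμ → IsOptimalMap (uniformProbOn K) ν Tν →
        ∀ π : Measure (E d × E d), IsPairCoupling μ ν π → ∀ h : ℝ, 0 < h →
          quadCost π ≤ ENNReal.ofReal (h ^ 3) →
          ∫⁻ x, ‖Tμ x - Tν x‖ₑ ^ 2 ∂(uniformProbOn K) ≤ ENNReal.ofReal (C * h) := by
  have hR := hK.nonneg
  have hc0 : 0 ≤ cABP d R := by unfold cABP; positivity
  obtain ⟨C, hC0, hC⟩ := interp hK (L + 1) (4 * R + 32 * cABP d R ^ 4 * 136) (by linarith)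
    (by positivity)
  refine ⟨C + 4 * L ^ 2, by positivity, ?_⟩
  intro μ ν hμp hμ hν Tμ Tν hTμ hTν π hπ h h0 hc
  have hsrc := hK.isSrc
  have hprob := hsrc.prob
  have hTμb : ∀ᵐ x ∂(uniformProbOn K), ‖Tμ x‖ ≤ L :=
    ae_of_ae_map (p := fun y => ‖y‖ ≤ L) hTμ.1.aemeasurable (by rw [hTμ.2.1]; exact hμ)
  have hTνb : ∀ᵐ x ∂(uniformProbOn K), ‖Tν x‖ ≤ L :=
    ae_of_ae_map (p := fun y => ‖y‖ ≤ L) hTν.1.aemeasurable (by rw [hTν.2.1]; exact hν)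
  rcases le_or_gt h 1 with h1 | h1
  · obtain ⟨J, _, _, m, p, q, μs, νs, hm, hm1, hp, hq, hqb, hμs, hνs, hμm, hνm, hω₀, hω₁, hN⟩ :=
      discretise hd hμ hν hπ h0 h1 hc
    obtain ⟨ψ, hψ⟩ := exists_isOptWt hsrc hm hm1 hp
    obtain ⟨χ, hχ⟩ := exists_isOptWt hsrc hm hm1 hq
    obtain ⟨g₀, hg₀i, hg₀, hg₀s⟩ := gap_bound hd hsrc hp hψ hμ μs hμs hμm hω₀ hTμ
    obtain ⟨g₁, hg₁i, hg₁, hg₁s⟩ := gap_bound hd hsrc hq hχ hν νs hνs hνm hω₁ hTν
    obtain ⟨c, hcw⟩ := pot_weak hK hm hm1 hp hq hψ hχ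
    have hh2 : 0 ≤ 32 * cABP d R ^ 4 * 136 * h ^ 2 := by positivity
    refine (hC (pot p ψ) (pot q χ) Tμ Tν g₀ g₁ c h h0 (continuous_pot p ψ) (convexOn_pot q χ)
      (abs_pot_sub_le hqb χ) hTμ.1 hTν.1 (hTμb.mono fun x hx => by linarith)
      (hTνb.mono fun x hx => by linarith) hg₀i hg₁i (by nlinarith) (by nlinarith)
      (fun x z hz => hg₀s x z (hK.bdd z hz)) (fun x z hz => hg₁s x z (hK.bdd z hz))
      fun t ht => (hcw t ht).trans ?_).trans (ENNReal.ofReal_le_ofReal ?_)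
    · refine div_le_div_of_nonneg_right ?_ (by positivity)
      have h2 : 32 * cABP d R ^ 4 * ∑ i, m i * ‖p i - q i‖ ^ 4 ≤ 32 * cABP d R ^ 4 * (136 * h ^ 5) :=
        mul_le_mul_of_nonneg_left hN (by positivity)
      have h3 : 0 ≤ 4 * R * h ^ 5 := by positivity
      nlinarith
    · have : 0 ≤ 4 * L ^ 2 * h := by positivity
      nlinarith
  · calc ∫⁻ x, ‖Tμ x - Tν x‖ₑ ^ 2 ∂(uniformProbOn K)
        ≤ ∫⁻ _, ENNReal.ofReal (4 * L ^ 2) ∂(uniformProbOn K) := by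
          refine lintegral_mono_ae ?_
          filter_upwards [hTμb, hTνb] with x h2 h3
          have h4 : ‖Tμ x - Tν x‖ ≤ 2 * L := (norm_sub_le _ _).trans (by linarith)
          rw [← ofReal_norm, ← ENNReal.ofReal_pow (norm_nonneg _)]
          refine ENNReal.ofReal_le_ofReal ?_
          nlinarith [norm_nonneg (Tμ x - Tν x)]
      _ = ENNReal.ofReal (4 * L ^ 2) := by simp
      _ ≤ ENNReal.ofReal ((C + 4 * L ^ 2) * h) := by
          refine ENNReal.ofReal_le_ofReal ?_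
          have : 0 ≤ 4 * L ^ 2 := by positivity
          nlinarith

end Crest.Agent.R82
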