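import Crest.Agent.R82.ABP
import Crest.Agent.R82.Exist
import Crest.Agent.R82.Dini

/-!
Stability of the semi-discrete potentials: a weak `L⁴` bound.
-/

set_option autoImplicit false

open MeasureTheory Set
open scoped ENNReal NNReal
open Crest.AnalysisR.OT

namespace Crest.Agent.R82

variable {d : ℕ} {ι : Type} [Fintype ι] [Nonempty ι]

/-- Integration against `1_A - ρ A`. -/
noncomputable def xi (ρ : Measure (E d)) (A : Set (E d)) (f : E d → ℝ) : ℝ :=
  ∫ x in A, f x ∂ρ - ρ.real A * ∫ x, f x ∂ρ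

theorem xi_sub {R : ℝ} {ρ : Measure (E d)} (h : IsSrc R ρ) (A : Set (E d)) {f g : E d → ℝ}
    (hf : Continuous f) (hg : Continuous g) :
    xi ρ A (fun x => f x - g x) = xi ρ A f - xi ρ A g := by
  have h1 := h.integrable_of_continuous hf
  have h2 := h.integrable_of_continuous hg
  simp only [xi]
  rw [integral_sub h1.integrableOn h2.integrableOn, integral_sub h1 h2]
  ring

theorem abs_xi_le {R : ℝ} {ρ : Measure (E d)} (h : IsSrc R ρ) (A : Set (E d)) {f : E d → ℝ}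
    (hf : Continuous f) {c ε : ℝ} (hb : ∀ᵐ x ∂ρ, |f x - c| ≤ ε) : |xi ρ A f| ≤ 2 * ε := by
  have := h.prob
  have h1 := h.integrable_of_continuous hf
  have hε : 0 ≤ ε := by
    obtain ⟨x, hx⟩ := hb.exists
    exact (abs_nonneg _).trans hx
  have e1 : xi ρ A f = ∫ x in A, (f x - c) ∂ρ - ρ.real A * ∫ x, (f x - c) ∂ρ := by
    rw [xi, integral_sub h1.integrableOn (integrable_const _), integral_sub h1 (integrable_const _),
      setIntegral_const, integral_const, probReal_univ]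
    simp only [smul_eq_mul]
    ring
  have ha1 : ρ.real A ≤ 1 := measureReal_le_one
  have ha0 : 0 ≤ ρ.real A := measureReal_nonneg
  have b1 : |∫ x in A, (f x - c) ∂ρ| ≤ ε * ρ.real A :=
    norm_setIntegral_le_of_norm_le_const_ae (f := fun x => f x - c) (measure_lt_top ρ A)
      (ae_restrict_of_ae hb)
  have b2 : |∫ x, (f x - c) ∂ρ| ≤ ε := by
    have := norm_integral_le_of_norm_le_const (μ := ρ) (f := fun x => f x - c) hb
    simpa using this
  rw [e1]
  refine (abs_sub _ _).trans ?_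
  rw [abs_mul, abs_of_nonneg ha0]
  nlinarith [abs_nonneg (∫ x, (f x - c) ∂ρ)]

theorem dual_pert {R : ℝ} {ρ : Measure (E d)} (h : IsSrc R ρ) (A : Set (E d)) {σ : ℝ}
    (h0 : 0 ≤ σ) (h1 : σ ≤ 1) (m : ι → ℝ) (p : ι → E d) (χ : ι → ℝ) :
    dual (pert ρ A σ) m p χ = dual ρ m p χ + σ * xi ρ A (pot p χ) := by
  rw [dual, dual, xi, integral_pert h A h0 h1 (h.integrable_of_continuous (continuous_pot p χ))]
  simp only [smul_eq_mul]
  ring

omit [Nonempty ι] in
theorem finite_bad {p q : ι → E d} (hp : Function.Injective p) :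
    {t : ℝ | Function.Injective fun i => p i + t • (q i - p i)}ᶜ.Finite := by
  have hsub : {t : ℝ | Function.Injective fun i => p i + t • (q i - p i)}ᶜ ⊆
      ⋃ ij : ι × ι, {t : ℝ | ij.1 ≠ ij.2 ∧
        p ij.1 + t • (q ij.1 - p ij.1) = p ij.2 + t • (q ij.2 - p ij.2)} := by
    intro t ht
    simp only [mem_compl_iff, mem_ofPred_eq, Function.Injective, not_forall] at ht
    obtain ⟨i, j, hij, hne⟩ := ht
    exact mem_iUnion.2 ⟨(i, j), hne, hij⟩
  refine Finite.subset (finite_iUnion fun ij => Subsingleton.finite ?_) hsub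
  rintro s ⟨hne, hs⟩ t ⟨-, ht⟩
  by_contra hst
  have h1 : (s - t) • ((q ij.1 - p ij.1) - (q ij.2 - p ij.2)) = 0 := by
    have : (s - t) • ((q ij.1 - p ij.1) - (q ij.2 - p ij.2)) =
        ((p ij.1 + s • (q ij.1 - p ij.1)) - (p ij.2 + s • (q ij.2 - p ij.2))) -
        ((p ij.1 + t • (q ij.1 - p ij.1)) - (p ij.2 + t • (q ij.2 - p ij.2))) := by module
    rw [this, hs, ht]; simp
  have h2 := (smul_eq_zero.1 h1).resolve_left (sub_ne_zero.2 hst)
  rw [sub_eq_zero] at h2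
  rw [h2] at hs
  exact hne (hp (add_right_cancel hs))

theorem sum_inner_path {R : ℝ} {ϱ : Measure (E d)} (h : IsSrc R ϱ) {m : ι → ℝ} (p e : ι → E d)
    {t t' : ℝ} (ht : Function.Injective fun i => p i + t • e i) {ψ : ι → ℝ}
    (hψ : IsOptWt ϱ m (fun i => p i + t • e i) ψ) (χ : ι → ℝ) :
    dual ϱ m (fun i => p i + t • e i) ψ +
        (t' - t) * ∑ i, inner ℝ (bary ϱ (fun i => p i + t • e i) ψ i) (e i) ≤
      dual ϱ m (fun i => p i + t' • e i) χ := by
  refine le_trans (le_of_eq ?_) (sum_inner_bary_le h ht hψ _ χ)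
  rw [← sum_inner_bary_eq h ht hψ, Finset.mul_sum, ← Finset.sum_add_distrib]
  refine Finset.sum_congr rfl fun i _ => ?_
  simp only [inner_add_right, real_inner_smul_right]
  ring

theorem pot_stab_step {K : Set (E d)} {R : ℝ} (hK : Body K R) {m : ι → ℝ}
    (hm : ∀ i, 0 < m i) (hm1 : ∑ i, m i = 1) {p q : ι → E d} (hp : Function.Injective p)
    (hq : Function.Injective q) {χ : ι → ℝ}
    (hχ : IsOptWt (uniformProbOn K) m q χ) {A : Set (E d)} (hA : MeasurableSet A)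
    {κ : ℝ} (hκ : 0 < κ) {M : ℕ} (hM : 1 ≤ M) :
    ∃ ψ' : ι → ℝ, IsOptWt (pert (uniformProbOn K) A (1 / 8 ^ M)) m p ψ' ∧
      xi (uniformProbOn K) A (pot p ψ') - xi (uniformProbOn K) A (pot q χ) ≤
        cABP d R * ((uniformProbOn K).real A / κ + κ ^ 3 * ∑ i, m i * ‖p i - q i‖ ^ 4) := by
  set ρ := uniformProbOn K with hρ
  set σ : ℝ := 1 / 8 ^ M with hσ
  have hσ0 : 0 < σ := by positivity
  have hσ1 : σ ≤ 1 := by
    rw [hσ, div_le_one (by positivity)]; exact one_le_pow₀ (by norm_num)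
  have hs : IsSrc R ρ := hK.isSrc
  have hs' : IsSrc R (pert ρ A σ) := hs.pert A hσ0.le hσ1
  set y : ℝ → ι → E d := fun t i => p i + t • (q i - p i) with hy
  set S : Set ℝ := {t | Function.Injective (y t)} with hS
  have hy0 : y 0 = p := by ext1 i; simp [hy]
  have hy1 : y 1 = q := by ext1 i; simp [hy]
  have h0 : (0 : ℝ) ∈ S := by change Function.Injective (y 0); rwa [hy0]
  have h1 : (1 : ℝ) ∈ S := by change Function.Injective (y 1); rwa [hy1]
  have ex0 : ∀ t ∈ S, ∃ ψ, IsOptWt ρ m (y t) ψ := fun t ht => exists_isOptWt hs hm hm1 ht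
  have ex1 : ∀ t ∈ S, ∃ ψ, IsOptWt (pert ρ A σ) m (y t) ψ := fun t ht =>
    exists_isOptWt hs' hm hm1 ht
  choose! ψ₀ hψ₀ using ex0
  choose! ψ₁ hψ₁ using ex1
  have key := dini (S := S) (finite_bad hp) h0 h1
    (f := fun t => dual ρ m (y t) (ψ₀ t)) (h := fun t => dual (pert ρ A σ) m (y t) (ψ₁ t))
    (g₀ := fun t => ∑ i, inner ℝ (bary ρ (y t) (ψ₀ t) i) (q i - p i))
    (g₁ := fun t => ∑ i, inner ℝ (bary (pert ρ A σ) (y t) (ψ₁ t) i) (q i - p i))
    (B := cABP d R * σ * (ρ.real A / κ + κ ^ 3 * ∑ i, m i * ‖p i - q i‖ ^ 4))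
    (fun t ht t' _ => sum_inner_path hs p (fun i => q i - p i) ht (hψ₀ t ht) _)
    (fun t ht t' _ => sum_inner_path hs' p (fun i => q i - p i) ht (hψ₁ t ht) _)
    (fun t ht => by
      refine le_trans ?_ (abp_sum hK hm hm1 ht hA hM (hψ₀ t ht) (hψ₁ t ht)
        (fun i => ‖p i - q i‖) (fun i => norm_nonneg _) hκ)
      rw [← Finset.sum_sub_distrib]
      refine Finset.sum_le_sum fun i _ => ?_
      rw [← inner_sub_left, norm_sub_rev (p i), norm_sub_rev]
      exact real_inner_le_norm _ _)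
  simp only [hy0, hy1] at key
  have a0 := hψ₀ 0 h0
  have a1 := hψ₀ 1 h1
  have b0 := hψ₁ 0 h0
  have b1 := hψ₁ 1 h1
  rw [hy0] at a0 b0
  rw [hy1] at a1 b1
  refine ⟨ψ₁ 0, b0, ?_⟩
  have c1 := dual_le_dual hs hq hχ (ψ₀ 1)
  have c2 := dual_le_dual hs' hq b1 χ
  have c3 := dual_le_dual hs hp a0 (ψ₁ 0)
  have c4 := dual_pert hs A hσ0.le hσ1 m q χ
  have c5 := dual_pert hs A hσ0.le hσ1 m p (ψ₁ 0)
  refine le_of_mul_le_mul_left ?_ hσ0
  nlinarith

theorem pot_stab {K : Set (E d)} {R : ℝ} (hK : Body K R) {m : ι → ℝ}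
    (hm : ∀ i, 0 < m i) (hm1 : ∑ i, m i = 1) {p q : ι → E d} (hp : Function.Injective p)
    (hq : Function.Injective q) {ψ χ : ι → ℝ} (hψ : IsOptWt (uniformProbOn K) m p ψ)
    (hχ : IsOptWt (uniformProbOn K) m q χ) {A : Set (E d)} (hA : MeasurableSet A)
    {κ : ℝ} (hκ : 0 < κ) :
    ∫ x in A, (pot p ψ x - pot q χ x) ∂(uniformProbOn K) -
        (uniformProbOn K).real A * ∫ x, (pot p ψ x - pot q χ x) ∂(uniformProbOn K) ≤
      cABP d R * ((uniformProbOn K).real A / κ + κ ^ 3 * ∑ i, m i * ‖p i - q i‖ ^ 4) := by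
  set ρ := uniformProbOn K with hρ
  have hs : IsSrc R ρ := hK.isSrc
  have hR := hK.nonneg
  change xi ρ A (fun x => pot p ψ x - pot q χ x) ≤ _
  rw [xi_sub hs A (continuous_pot p ψ) (continuous_pot q χ)]
  refine le_of_forall_pos_le_add fun ε hε => ?_
  obtain ⟨δ, hδ, hnear⟩ := near_of_dual_le hK hm hm1 hp hψ (ε := ε / 2) (by positivity)
  obtain ⟨Lp, hLp0, hLp⟩ := exists_norm_bound p
  have hxi : ∀ ψ' : ι → ℝ, |xi ρ A (pot p ψ')| ≤ 2 * (Lp * R) := fun ψ' => by
    refine abs_xi_le hs A (continuous_pot p ψ') (c := pot p ψ' 0) ?_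
    filter_upwards [hs.bdd] with x hx
    refine (abs_pot_sub_le hLp ψ' x 0).trans ?_
    rw [sub_zero]
    exact mul_le_mul_of_nonneg_left hx hLp0
  obtain ⟨M₀, hM₀⟩ := pow_unbounded_of_one_lt (4 * (Lp * R) / δ) (by norm_num : (1 : ℝ) < 8)
  obtain ⟨ψ', hψ', hstep⟩ := pot_stab_step hK hm hm1 hp hq hχ hA hκ (M := M₀ + 1) (by omega)
  set σ : ℝ := 1 / 8 ^ (M₀ + 1) with hσ
  have hσ0 : 0 < σ := by positivity
  have hσ1 : σ ≤ 1 := by
    rw [hσ, div_le_one (by positivity)]; exact one_le_pow₀ (by norm_num)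
  have hσδ : σ * (4 * (Lp * R)) ≤ δ := by
    rw [div_lt_iff₀ hδ] at hM₀
    rw [hσ, div_mul_eq_mul_div, one_mul, div_le_iff₀ (by positivity), pow_succ]
    have : (0 : ℝ) < 8 ^ M₀ * δ := by positivity
    nlinarith
  have c1 := dual_le_dual (hs.pert A hσ0.le hσ1) hp hψ' ψ
  rw [dual_pert hs A hσ0.le hσ1, dual_pert hs A hσ0.le hσ1] at c1
  have d1 := abs_le.1 (hxi ψ)
  have d2 := abs_le.1 (hxi ψ')
  obtain ⟨c, hc⟩ := hnear ψ' (by nlinarith [d1.2, d2.1])
  have e1 := abs_xi_le hs A (f := fun x => pot p ψ' x - pot p ψ x)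
    ((continuous_pot p ψ').sub (continuous_pot p ψ)) (c := -c) (ε := ε / 2)
    (Filter.Eventually.of_forall fun x => by
      simpa using abs_pot_sub_pot_le p hc x)
  rw [xi_sub hs A (continuous_pot p ψ') (continuous_pot p ψ)] at e1
  have e2 := abs_le.1 e1
  linarith [e2.1]

theorem pot_tail {K : Set (E d)} {R : ℝ} (hK : Body K R) {m : ι → ℝ}
    (hm : ∀ i, 0 < m i) (hm1 : ∑ i, m i = 1) {p q : ι → E d} (hp : Function.Injective p)
    (hq : Function.Injective q) {ψ χ : ι → ℝ} (hψ : IsOptWt (uniformProbOn K) m p ψ)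
    (hχ : IsOptWt (uniformProbOn K) m q χ) {t : ℝ} (ht : 0 < t) :
    (uniformProbOn K).real {x | t ≤ pot p ψ x - pot q χ x -
        ∫ x, (pot p ψ x - pot q χ x) ∂(uniformProbOn K)} ≤
      16 * cABP d R ^ 4 * (∑ i, m i * ‖p i - q i‖ ^ 4) / t ^ 4 := by
  set ρ := uniformProbOn K with hρ
  have hs : IsSrc R ρ := hK.isSrc
  have := hs.prob
  have hR := hK.nonneg
  set c := ∫ x, (pot p ψ x - pot q χ x) ∂ρ with hc
  set A := {x | t ≤ pot p ψ x - pot q χ x - c} with hAdef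
  have hu : Continuous fun x => pot p ψ x - pot q χ x :=
    (continuous_pot p ψ).sub (continuous_pot q χ)
  have hA : MeasurableSet A :=
    (isClosed_le continuous_const (hu.sub continuous_const)).measurableSet
  set N := ∑ i, m i * ‖p i - q i‖ ^ 4 with hN
  have hN0 : 0 ≤ N := Finset.sum_nonneg fun i _ => mul_nonneg (hm i).le (by positivity)
  set a := ρ.real A with ha
  have ha0 : 0 ≤ a := measureReal_nonneg
  have hlow : a * t ≤ ∫ x in A, (pot p ψ x - pot q χ x) ∂ρ - a * c := by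
    have h1 : ∫ x in A, (t + c) ∂ρ ≤ ∫ x in A, (pot p ψ x - pot q χ x) ∂ρ :=
      setIntegral_mono_on (integrable_const _).integrableOn
        (hs.integrable_of_continuous hu).integrableOn hA fun x hx => by
          have : t ≤ pot p ψ x - pot q χ x - c := hx
          linarith
    rw [setIntegral_const, smul_eq_mul] at h1
    linarith
  have hc0 : 0 ≤ cABP d R := by unfold cABP; positivity
  rcases hc0.eq_or_lt with h0 | h0
  · have h2 := hlow.trans (pot_stab hK hm hm1 hp hq hψ hχ hA one_pos)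
    rw [← h0] at h2 ⊢
    have : a ≤ 0 := by nlinarith
    simpa using this
  · have h2 := hlow.trans (pot_stab hK hm hm1 hp hq hψ hχ hA (κ := 2 * cABP d R / t)
      (by positivity))
    rw [← ha, ← hN] at h2
    have e1 : cABP d R * (a / (2 * cABP d R / t) + (2 * cABP d R / t) ^ 3 * N) =
        a * t / 2 + 8 * cABP d R ^ 4 * N / t ^ 3 := by field_simp; ring
    rw [e1] at h2
    have h3 : a * t ≤ 16 * cABP d R ^ 4 * N / t ^ 3 := by
      have : 16 * cABP d R ^ 4 * N / t ^ 3 = 2 * (8 * cABP d R ^ 4 * N / t ^ 3) := by ring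
      linarith
    rw [le_div_iff₀ (by positivity)] at h3 ⊢
    linarith [show a * t ^ 4 = a * t * t ^ 3 by ring]

theorem pot_weak {K : Set (E d)} {R : ℝ} (hK : Body K R) {m : ι → ℝ}
    (hm : ∀ i, 0 < m i) (hm1 : ∑ i, m i = 1) {p q : ι → E d} (hp : Function.Injective p)
    (hq : Function.Injective q) {ψ χ : ι → ℝ} (hψ : IsOptWt (uniformProbOn K) m p ψ)
    (hχ : IsOptWt (uniformProbOn K) m q χ) :
    ∃ c : ℝ, ∀ t : ℝ, 0 < t →
      (uniformProbOn K).real {x | t ≤ |pot p ψ x - pot q χ x - c|} ≤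
        32 * cABP d R ^ 4 * (∑ i, m i * ‖p i - q i‖ ^ 4) / t ^ 4 := by
  have hs : IsSrc R (uniformProbOn K) := hK.isSrc
  have := hs.prob
  refine ⟨∫ x, (pot p ψ x - pot q χ x) ∂(uniformProbOn K), fun t ht => ?_⟩
  have h1 := pot_tail hK hm hm1 hp hq hψ hχ ht
  have h2 := pot_tail hK hm hm1 hq hp hχ hψ ht
  have e1 : ∫ x, (pot q χ x - pot p ψ x) ∂(uniformProbOn K) =
      -∫ x, (pot p ψ x - pot q χ x) ∂(uniformProbOn K) := by
    rw [← integral_neg]; simp
  rw [e1] at h2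
  simp_rw [norm_sub_rev (q _)] at h2
  set c := ∫ x, (pot p ψ x - pot q χ x) ∂(uniformProbOn K)
  have hsub : {x | t ≤ |pot p ψ x - pot q χ x - c|} ⊆
      {x | t ≤ pot p ψ x - pot q χ x - c} ∪ {x | t ≤ pot q χ x - pot p ψ x - -c} := by
    intro x hx
    rcases le_abs.1 (show t ≤ |pot p ψ x - pot q χ x - c| from hx) with h | h
    · exact Or.inl h
    · exact Or.inr (show t ≤ pot q χ x - pot p ψ x - -c by linarith)
  refine (measureReal_mono hsub).trans ((measureReal_union_le _ _).trans ?_)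
  have : 32 * cABP d R ^ 4 * (∑ i, m i * ‖p i - q i‖ ^ 4) / t ^ 4 =
      2 * (16 * cABP d R ^ 4 * (∑ i, m i * ‖p i - q i‖ ^ 4) / t ^ 4) := by ring
  linarith

end Crest.Agent.R82
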