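import Mathlib
import Crest.Prelude.Def_QuadraticTransport

/-!
The sharpness example for result 82: three-atom targets on the cube.
-/

set_option autoImplicit false

open MeasureTheory Set
open scoped ENNReal NNReal
open Crest.AnalysisR.OT

namespace Crest.Agent.R82.Sharp

section general
variable {V : Type*} [NormedAddCommGroup V] [InnerProductSpace ℝ V] [MeasurableSpace V]
  [BorelSpace V] [SecondCountableTopology V]

omit [InnerProductSpace ℝ V] [MeasurableSpace V] [BorelSpace V] [SecondCountableTopology V] in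
lemma enorm_sq_eq (v : V) : ‖v‖ₑ ^ 2 = ENNReal.ofReal (‖v‖ ^ 2) := by
  rw [← ofReal_norm, ← ENNReal.ofReal_pow (norm_nonneg _)]

/-- A map that maximises the inner product over a finite set is optimal, and every optimal map
with the same target maximises it too. -/
theorem opt_of_max {ρ : Measure V} [IsFiniteMeasure ρ] {R : ℝ} (hρ : ∀ᵐ x ∂ρ, ‖x‖ ≤ R)
    {F : Set V} (hF : F.Finite) {T : V → V} (hT : Measurable T) (hTF : ∀ x, T x ∈ F)
    (hmax : ∀ x, ∀ y ∈ F, inner ℝ x y ≤ inner ℝ x (T x)) :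
    IsOptimalMap ρ (ρ.map T) T ∧ ∀ S, IsOptimalMap ρ (ρ.map T) S →
      ∀ᵐ x ∂ρ, S x ∈ F ∧ inner ℝ x (T x) ≤ inner ℝ x (S x) := by
  obtain ⟨L, hL⟩ := hF.isBounded.exists_norm_le
  have hFm : MeasurableSet F := hF.measurableSet
  have hsq : Measurable fun y : V => ‖y‖ₑ ^ 2 := measurable_enorm.pow_const 2
  have hc : ∫⁻ x, ‖T x‖ₑ ^ 2 ∂ρ ≠ ∞ := by
    refine ne_top_of_le_ne_top (b := ∫⁻ _, ENNReal.ofReal (L ^ 2) ∂ρ) ?_ (lintegral_mono fun x => ?_)
    · rw [lintegral_const]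
      exact ENNReal.mul_ne_top ENNReal.ofReal_ne_top (measure_ne_top _ _)
    · rw [enorm_sq_eq]
      exact ENNReal.ofReal_le_ofReal (pow_le_pow_left₀ (norm_nonneg _) (hL _ (hTF x)) 2)
  have hfin : ∫⁻ x, ‖x - T x‖ₑ ^ 2 ∂ρ ≠ ∞ := by
    refine ne_top_of_le_ne_top (b := ∫⁻ _, ENNReal.ofReal ((R + L) ^ 2) ∂ρ) ?_
      (lintegral_mono_ae ?_)
    · rw [lintegral_const]
      exact ENNReal.mul_ne_top ENNReal.ofReal_ne_top (measure_ne_top _ _)
    · filter_upwards [hρ] with x hx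
      rw [enorm_sq_eq]
      refine ENNReal.ofReal_le_ofReal (pow_le_pow_left₀ (norm_nonneg _) ?_ 2)
      exact (norm_sub_le _ _).trans (add_le_add hx (hL _ (hTF x)))
  have key : ∀ S : V → V, Measurable S → ρ.map S = ρ.map T →
      (∀ᵐ x ∂ρ, S x ∈ F) ∧
      ∫⁻ x, ‖x - T x‖ₑ ^ 2 ∂ρ +
        ∫⁻ x, ENNReal.ofReal (2 * (inner ℝ x (T x) - inner ℝ x (S x))) ∂ρ =
        ∫⁻ x, ‖x - S x‖ₑ ^ 2 ∂ρ := by
    intro S hS hST
    have hSF : ∀ᵐ x ∂ρ, S x ∈ F := by
      refine ae_of_ae_map (p := fun y => y ∈ F) hS.aemeasurable ?_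
      rw [hST]
      exact (ae_map_iff hT.aemeasurable (p := fun y => y ∈ F) hFm).mpr
        (Filter.Eventually.of_forall hTF)
    refine ⟨hSF, ?_⟩
    have h1 : ∫⁻ x, ‖S x‖ₑ ^ 2 ∂ρ = ∫⁻ x, ‖T x‖ₑ ^ 2 ∂ρ := by
      rw [← lintegral_map hsq hS, hST, lintegral_map hsq hT]
    have m1 : Measurable fun x => ‖x - T x‖ₑ ^ 2 := hsq.comp (measurable_id.sub hT)
    have m2 : Measurable fun x => ‖x - S x‖ₑ ^ 2 := hsq.comp (measurable_id.sub hS)
    have m3 : Measurable fun x => ‖S x‖ₑ ^ 2 := hsq.comp hS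
    have h2 : ∫⁻ x, (‖x - T x‖ₑ ^ 2 +
        ENNReal.ofReal (2 * (inner ℝ x (T x) - inner ℝ x (S x))) + ‖S x‖ₑ ^ 2) ∂ρ =
        ∫⁻ x, (‖x - S x‖ₑ ^ 2 + ‖T x‖ₑ ^ 2) ∂ρ := by
      refine lintegral_congr_ae ?_
      filter_upwards [hSF] with x hx
      have h3 := hmax x _ hx
      rw [enorm_sq_eq, enorm_sq_eq, enorm_sq_eq, enorm_sq_eq,
        ← ENNReal.ofReal_add (sq_nonneg _) (by linarith),
        ← ENNReal.ofReal_add (add_nonneg (sq_nonneg _) (by linarith)) (sq_nonneg _),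
        ← ENNReal.ofReal_add (sq_nonneg _) (sq_nonneg _)]
      congr 1
      rw [norm_sub_sq_real, norm_sub_sq_real]
      ring
    rw [lintegral_add_right _ m3, lintegral_add_left m1, lintegral_add_left m2, h1] at h2
    exact (ENNReal.add_left_inj hc).mp h2
  refine ⟨⟨hT, rfl, fun S hS hST => ?_⟩, fun S hS => ?_⟩
  · rw [← (key S hS hST).2]
    exact le_self_add
  · obtain ⟨h1, h2⟩ := key S hS.1 hS.2.1
    have h3 := hS.2.2 T hT rfl
    rw [← h2] at h3
    have h4 : ∫⁻ x, ENNReal.ofReal (2 * (inner ℝ x (T x) - inner ℝ x (S x))) ∂ρ = 0 := by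
      have h5 : ∫⁻ x, ‖x - T x‖ₑ ^ 2 ∂ρ +
          ∫⁻ x, ENNReal.ofReal (2 * (inner ℝ x (T x) - inner ℝ x (S x))) ∂ρ ≤
          ∫⁻ x, ‖x - T x‖ₑ ^ 2 ∂ρ + 0 := by simpa using h3
      exact le_antisymm ((ENNReal.add_le_add_iff_left hfin).mp h5) (zero_le)
    have m4 : Measurable fun x =>
        ENNReal.ofReal (2 * (inner ℝ x (T x) - inner ℝ x (S x))) :=
      ENNReal.measurable_ofReal.comp (measurable_const.mul
        ((measurable_id.inner hT).sub (measurable_id.inner hS.1)))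
    rw [lintegral_eq_zero_iff m4] at h4
    filter_upwards [h1, h4] with x hx hx'
    refine ⟨hx, ?_⟩
    have : 2 * (inner ℝ x (T x) - inner ℝ x (S x)) ≤ 0 := ENNReal.ofReal_eq_zero.mp hx'
    linarith

omit [InnerProductSpace ℝ V] [SecondCountableTopology V] in
theorem threeAtomic_map {ρ : Measure V} [IsFiniteMeasure ρ] {y : Fin 3 → V}
    (hy : Function.Injective y) {T : V → V} (hT : Measurable T) (hTF : ∀ x, T x ∈ range y)
    (hpos : ∀ i, ρ (T ⁻¹' {y i}) ≠ 0) : IsThreeAtomic (ρ.map T) := by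
  classical
  refine ⟨y, hy, fun i => ((ρ.map T) {y i}).toReal, fun i => ?_, ?_⟩
  · refine ENNReal.toReal_pos ?_ (measure_ne_top _ _)
    rw [Measure.map_apply hT (measurableSet_singleton _)]
    exact hpos i
  · have h1 : ∀ᵐ a ∂(ρ.map T), a ∈ Finset.univ.image y := by
      refine (ae_map_iff hT.aemeasurable (p := fun a => a ∈ Finset.univ.image y)
        (Finset.measurableSet (Finset.univ.image y))).mpr
        (Filter.Eventually.of_forall fun x => ?_)
      obtain ⟨i, hi⟩ := hTF x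
      exact Finset.mem_image.mpr ⟨i, Finset.mem_univ _, hi⟩
    have h2 := Measure.ae_mem_finset_iff.mp h1
    rw [Finset.sum_image (fun a _ b _ h => hy h)] at h2
    refine h2.trans (Finset.sum_congr rfl fun i _ => ?_)
    rw [ENNReal.ofReal_toReal (measure_ne_top _ _)]

end general

section cube
variable {d : ℕ}

/-- The cube. -/
def Q (d : ℕ) : Set (EuclideanSpace ℝ (Fin d)) := {x | ∀ i, |x i| ≤ 1}

lemma volume_box (a b : Fin d → ℝ) :
    volume {x : EuclideanSpace ℝ (Fin d) | ∀ i, a i ≤ x i ∧ x i ≤ b i} =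
      ∏ i, ENNReal.ofReal (b i - a i) := by
  rw [← Real.volume_Icc_pi,
    ← (PiLp.volume_preserving_ofLp (Fin d)).measure_preimage measurableSet_Icc.nullMeasurableSet]
  congr 1
  ext x
  simp only [mem_ofPred_eq, mem_preimage, mem_Icc, Pi.le_def, forall_and]

lemma volume_Q : volume (Q d) = ∏ _i : Fin d, ENNReal.ofReal 2 := by
  have := volume_box (d := d) (fun _ => -1) (fun _ => 1)
  simp only [sub_neg_eq_add, one_add_one_eq_two] at this
  rw [← this]
  congr 1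
  ext x
  simp only [Q, mem_ofPred_eq, abs_le]

lemma measurableSet_Q : MeasurableSet (Q d) := by
  have : Q d = ⋂ i, {x : EuclideanSpace ℝ (Fin d) | |x i| ≤ 1} := by
    ext x; simp [Q]
  rw [this]
  exact MeasurableSet.iInter fun i => measurableSet_le (by fun_prop) measurable_const

lemma volume_Q_ne_zero : volume (Q d) ≠ 0 := by
  rw [volume_Q]; simp

lemma volume_Q_ne_top : volume (Q d) ≠ ∞ := by
  rw [volume_Q]; simp

instance : IsProbabilityMeasure (uniformProbOn (Q d)) where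
  measure_univ := by
    simp only [uniformProbOn, Measure.smul_apply, MeasurableSet.univ, Measure.restrict_apply,
      univ_inter, smul_eq_mul]
    exact ENNReal.inv_mul_cancel volume_Q_ne_zero volume_Q_ne_top

lemma ae_mem_Q : ∀ᵐ x ∂(uniformProbOn (Q d)), x ∈ Q d :=
  Measure.ae_smul_measure (ae_restrict_mem measurableSet_Q) _

lemma norm_le_of_mem_Q {x : EuclideanSpace ℝ (Fin d)} (hx : x ∈ Q d) : ‖x‖ ≤ Real.sqrt d := by
  rw [EuclideanSpace.norm_eq]
  apply Real.sqrt_le_sqrt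
  calc ∑ i, ‖x i‖ ^ 2 ≤ ∑ _i : Fin d, (1 : ℝ) := by
        refine Finset.sum_le_sum fun i _ => ?_
        rw [Real.norm_eq_abs]
        exact pow_le_one₀ (abs_nonneg _) (hx i)
    _ = d := by simp

/-- A rectangle in two coordinates. -/
def rect (i₀ i₁ : Fin d) (a₀ b₀ a₁ b₁ : ℝ) : Set (EuclideanSpace ℝ (Fin d)) :=
  {x | (a₀ ≤ x i₀ ∧ x i₀ ≤ b₀) ∧ (a₁ ≤ x i₁ ∧ x i₁ ≤ b₁)}

lemma measurableSet_rect (i₀ i₁ : Fin d) (a₀ b₀ a₁ b₁ : ℝ) :
    MeasurableSet (rect i₀ i₁ a₀ b₀ a₁ b₁) := by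
  have h : ∀ i : Fin d, Measurable fun x : EuclideanSpace ℝ (Fin d) => x i := fun i => by
    fun_prop
  exact ((measurableSet_le measurable_const (h i₀)).inter
    (measurableSet_le (h i₀) measurable_const)).inter
    ((measurableSet_le measurable_const (h i₁)).inter (measurableSet_le (h i₁) measurable_const))

lemma rho_rect {i₀ i₁ : Fin d} (hne : i₀ ≠ i₁) {a₀ b₀ a₁ b₁ : ℝ} (h₀ : -1 ≤ a₀) (h₀' : b₀ ≤ 1)
    (h₁ : -1 ≤ a₁) (h₁' : b₁ ≤ 1) (hab : a₀ ≤ b₀) :
    uniformProbOn (Q d) (rect i₀ i₁ a₀ b₀ a₁ b₁) =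
      ENNReal.ofReal ((b₀ - a₀) / 2 * ((b₁ - a₁) / 2)) := by
  classical
  set a : Fin d → ℝ := fun i => if i = i₀ then a₀ else if i = i₁ then a₁ else -1 with ha
  set b : Fin d → ℝ := fun i => if i = i₀ then b₀ else if i = i₁ then b₁ else 1 with hb
  have e1 : rect i₀ i₁ a₀ b₀ a₁ b₁ ∩ Q d =
      {x : EuclideanSpace ℝ (Fin d) | ∀ i, a i ≤ x i ∧ x i ≤ b i} := by
    ext x
    simp only [rect, Q, mem_inter_iff, mem_ofPred_eq, abs_le]
    constructor
    · rintro ⟨⟨h2, h3⟩, h4⟩ i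
      by_cases hi : i = i₀
      · subst hi; simpa [ha, hb] using h2
      · by_cases hi' : i = i₁
        · subst hi'; simpa [ha, hb, hi] using h3
        · simpa [ha, hb, hi, hi'] using h4 i
    · intro h
      have h2 := h i₀
      have h3 := h i₁
      simp only [ha, hb, if_true, if_neg hne.symm] at h2 h3
      refine ⟨⟨h2, h3⟩, fun i => ?_⟩
      by_cases hi : i = i₀
      · subst hi; constructor <;> linarith [h2.1, h2.2]
      · by_cases hi' : i = i₁
        · subst hi'; constructor <;> linarith [h3.1, h3.2]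
        · simpa [ha, hb, hi, hi'] using h i
  simp only [uniformProbOn, Measure.smul_apply, smul_eq_mul]
  rw [Measure.restrict_apply (measurableSet_rect _ _ _ _ _ _), e1, volume_box, volume_Q,
    ENNReal.prod_inv_distrib (fun _ _ _ _ _ => by simp), ← Finset.prod_mul_distrib,
    Finset.prod_eq_mul i₀ i₁ hne]
  · have e2 : ∀ t : ℝ, (ENNReal.ofReal 2)⁻¹ * ENNReal.ofReal t = ENNReal.ofReal (t / 2) := by
      intro t
      rw [ENNReal.ofReal_div_of_pos (by norm_num), mul_comm, div_eq_mul_inv]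
    simp only [ha, hb, if_true, if_neg hne.symm]
    rw [e2, e2, ← ENNReal.ofReal_mul (by linarith)]
  · intro i _ hi
    simp only [ha, hb, if_neg hi.1, if_neg hi.2]
    rw [show (1 : ℝ) - -1 = 2 by norm_num]
    exact ENNReal.inv_mul_cancel (by simp) (by simp)
  · simp
  · simp

/-- Reflection of one coordinate. -/
noncomputable def refl (i₁ : Fin d) : EuclideanSpace ℝ (Fin d) ≃ₗᵢ[ℝ] EuclideanSpace ℝ (Fin d) :=
  LinearIsometryEquiv.piLpCongrRight 2
    (fun i => if i = i₁ then LinearIsometryEquiv.neg ℝ else LinearIsometryEquiv.refl ℝ ℝ)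

lemma refl_apply (i₁ : Fin d) (x : EuclideanSpace ℝ (Fin d)) (i : Fin d) :
    refl i₁ x i = if i = i₁ then - x i else x i := by
  simp only [refl, LinearIsometryEquiv.piLpCongrRight_apply]
  split_ifs <;> simp

lemma map_refl (i₁ : Fin d) : (uniformProbOn (Q d)).map (refl i₁) = uniformProbOn (Q d) := by
  have h1 := (refl i₁).measurePreserving.restrict_preimage (measurableSet_Q (d := d))
  have h2 : refl i₁ ⁻¹' Q d = Q d := by
    ext x
    simp only [Q, mem_preimage, mem_ofPred_eq, refl_apply]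
    refine forall_congr' fun i => ?_
    split_ifs <;> simp
  rw [h2] at h1
  simp only [uniformProbOn, Measure.map_smul, h1.map_eq]

/-- The three atoms. -/
noncomputable def atom (i₀ i₁ : Fin d) (t : ℝ) : Fin 3 → EuclideanSpace ℝ (Fin d) :=
  ![EuclideanSpace.single i₁ t, EuclideanSpace.single i₀ 1, EuclideanSpace.single i₀ (-1)]

/-- The transport map. -/
noncomputable def tmap (i₀ i₁ : Fin d) (t : ℝ) (x : EuclideanSpace ℝ (Fin d)) :
    EuclideanSpace ℝ (Fin d) :=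
  if |x i₀| ≤ t * x i₁ then EuclideanSpace.single i₁ t
  else if 0 ≤ x i₀ then EuclideanSpace.single i₀ 1 else EuclideanSpace.single i₀ (-1)

lemma measurable_tmap (i₀ i₁ : Fin d) (t : ℝ) : Measurable (tmap i₀ i₁ t) := by
  refine Measurable.ite (measurableSet_le (by fun_prop) (by fun_prop)) measurable_const ?_
  exact Measurable.ite (measurableSet_le (by fun_prop) (by fun_prop)) measurable_const
    measurable_const

lemma tmap_mem (i₀ i₁ : Fin d) (t : ℝ) (x : EuclideanSpace ℝ (Fin d)) :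
    tmap i₀ i₁ t x ∈ range (atom i₀ i₁ t) := by
  unfold tmap
  split_ifs
  · exact ⟨0, rfl⟩
  · exact ⟨1, rfl⟩
  · exact ⟨2, rfl⟩

lemma inner_single (x : EuclideanSpace ℝ (Fin d)) (i : Fin d) (t : ℝ) :
    inner ℝ x (EuclideanSpace.single i t) = t * x i := by
  rw [EuclideanSpace.inner_single_right]; simp

lemma inner_tmap (i₀ i₁ : Fin d) (t : ℝ) (x : EuclideanSpace ℝ (Fin d)) :
    inner ℝ x (tmap i₀ i₁ t x) = max |x i₀| (t * x i₁) := by
  unfold tmap
  split_ifs with h1 h2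
  · rw [inner_single, max_eq_right h1]
  · rw [inner_single, max_eq_left (not_le.mp h1).le, abs_of_nonneg h2, one_mul]
  · rw [inner_single, max_eq_left (not_le.mp h1).le, abs_of_neg (not_le.mp h2)]; ring

lemma mem_range_atom {i₀ i₁ : Fin d} {t : ℝ} {y : EuclideanSpace ℝ (Fin d)}
    (hy : y ∈ range (atom i₀ i₁ t)) : y = EuclideanSpace.single i₁ t ∨
      y = EuclideanSpace.single i₀ 1 ∨ y = EuclideanSpace.single i₀ (-1) := by
  obtain ⟨j, rfl⟩ := hy
  fin_cases j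
  · left; rfl
  · right; left; rfl
  · right; right; rfl

lemma tmap_max (i₀ i₁ : Fin d) (t : ℝ) (x : EuclideanSpace ℝ (Fin d)) :
    ∀ y ∈ range (atom i₀ i₁ t), inner ℝ x y ≤ inner ℝ x (tmap i₀ i₁ t x) := by
  intro y hy
  rw [inner_tmap]
  rcases mem_range_atom hy with rfl | rfl | rfl
  · rw [inner_single]; exact le_max_right _ _
  · rw [inner_single, one_mul]; exact (le_abs_self _).trans (le_max_left _ _)
  · rw [inner_single, neg_one_mul]; exact (neg_le_abs _).trans (le_max_left _ _)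

lemma atom_injective {i₀ i₁ : Fin d} (hne : i₀ ≠ i₁) (t : ℝ) :
    Function.Injective (atom i₀ i₁ t) := by
  have h : ∀ j : Fin 3, atom i₀ i₁ t j i₀ = (![0, 1, -1] : Fin 3 → ℝ) j := by
    intro j
    fin_cases j <;> simp [atom, hne]
  intro j k hjk
  have h2 : (![0, 1, -1] : Fin 3 → ℝ) j = (![0, 1, -1] : Fin 3 → ℝ) k := by
    rw [← h, ← h, hjk]
  fin_cases j <;> fin_cases k <;> simp at h2 ⊢ <;> norm_num at h2

lemma atom_mem_Q (i₀ i₁ : Fin d) {t : ℝ} (ht : |t| ≤ 1) {y : EuclideanSpace ℝ (Fin d)}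
    (hy : y ∈ range (atom i₀ i₁ t)) : y ∈ Q d := by
  intro i
  rcases mem_range_atom hy with rfl | rfl | rfl <;> rw [PiLp.single_apply] <;> split_ifs <;>
    simp [ht]

lemma isProbabilityOn_map (i₀ i₁ : Fin d) {t : ℝ} (ht : |t| ≤ 1) :
    IsProbabilityOn (Q d) ((uniformProbOn (Q d)).map (tmap i₀ i₁ t)) := by
  refine ⟨Measure.isProbabilityMeasure_map (measurable_tmap i₀ i₁ t).aemeasurable, ?_⟩
  rw [Measure.map_apply (measurable_tmap i₀ i₁ t) measurableSet_Q.compl]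
  have : tmap i₀ i₁ t ⁻¹' (Q d)ᶜ = ∅ := by
    ext x
    simpa using atom_mem_Q i₀ i₁ ht (tmap_mem i₀ i₁ t x)
  rw [this, measure_empty]

lemma ne_zero_of_rect {i₀ i₁ : Fin d} (hne : i₀ ≠ i₁) {a₀ b₀ a₁ b₁ : ℝ} (h₀ : -1 ≤ a₀)
    (h₀' : b₀ ≤ 1) (h₁ : -1 ≤ a₁) (h₁' : b₁ ≤ 1) (hab : a₀ < b₀) (hab' : a₁ < b₁)
    {s : Set (EuclideanSpace ℝ (Fin d))} (hs : rect i₀ i₁ a₀ b₀ a₁ b₁ ⊆ s) :
    uniformProbOn (Q d) s ≠ 0 := by
  intro h
  have h2 := measure_mono_null hs h
  rw [rho_rect hne h₀ h₀' h₁ h₁' hab.le, ENNReal.ofReal_eq_zero] at h2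
  have : 0 < (b₀ - a₀) / 2 * ((b₁ - a₁) / 2) := mul_pos (by linarith) (by linarith)
  linarith

lemma threeAtomic_tmap {i₀ i₁ : Fin d} (hne : i₀ ≠ i₁) {t : ℝ} (ht0 : t ≠ 0) (ht : |t| ≤ 1) :
    IsThreeAtomic ((uniformProbOn (Q d)).map (tmap i₀ i₁ t)) := by
  refine threeAtomic_map (atom_injective hne t) (measurable_tmap i₀ i₁ t) (tmap_mem i₀ i₁ t) ?_
  have hsmall : ∀ u : ℝ, -(1 / 4) ≤ u → u ≤ 1 / 4 → t * u ≤ 1 / 4 := by
    intro u h1 h2
    have h3 : |u| ≤ 1 / 4 := abs_le.mpr ⟨h1, h2⟩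
    calc t * u ≤ |t * u| := le_abs_self _
      _ = |t| * |u| := abs_mul _ _
      _ ≤ 1 * (1 / 4) := mul_le_mul ht h3 (abs_nonneg _) zero_le_one
      _ = 1 / 4 := one_mul _
  intro j
  fin_cases j
  · have ht1 := abs_le.mp ht
    rcases lt_or_gt_of_ne ht0 with h | h
    · refine ne_zero_of_rect hne (a₀ := t / 2) (b₀ := -t / 2) (a₁ := -1) (b₁ := -(1 / 2))
        (by linarith) (by linarith) le_rfl (by norm_num) (by linarith) (by norm_num) ?_
      rintro x ⟨⟨h1, h2⟩, h3, h4⟩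
      have h5 : |x i₀| ≤ t * x i₁ := by
        rw [abs_le]; constructor <;> nlinarith
      simp [tmap, h5, atom]
    · refine ne_zero_of_rect hne (a₀ := -t / 2) (b₀ := t / 2) (a₁ := 1 / 2) (b₁ := 1)
        (by linarith) (by linarith) (by norm_num) le_rfl (by linarith) (by norm_num) ?_
      rintro x ⟨⟨h1, h2⟩, h3, h4⟩
      have h5 : |x i₀| ≤ t * x i₁ := by
        rw [abs_le]; constructor <;> nlinarith
      simp [tmap, h5, atom]
  · refine ne_zero_of_rect hne (a₀ := 1 / 2) (b₀ := 1) (a₁ := -(1 / 4)) (b₁ := 1 / 4)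
      (by norm_num) le_rfl (by norm_num) (by norm_num) (by norm_num) (by norm_num) ?_
    rintro x ⟨⟨h1, h2⟩, h3, h4⟩
    have h5 : ¬ |x i₀| ≤ t * x i₁ := by
      have := hsmall _ h3 h4
      have := le_abs_self (x i₀)
      linarith
    have h6 : 0 ≤ x i₀ := by linarith
    simp [tmap, h5, h6, atom]
  · refine ne_zero_of_rect hne (a₀ := -1) (b₀ := -(1 / 2)) (a₁ := -(1 / 4)) (b₁ := 1 / 4)
      le_rfl (by norm_num) (by norm_num) (by norm_num) (by norm_num) (by norm_num) ?_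
    rintro x ⟨⟨h1, h2⟩, h3, h4⟩
    have h5 : ¬ |x i₀| ≤ t * x i₁ := by
      have := hsmall _ h3 h4
      have := neg_le_abs (x i₀)
      linarith
    have h6 : ¬ 0 ≤ x i₀ := by linarith
    simp [tmap, h5, h6, atom]

lemma opt_tmap (i₀ i₁ : Fin d) (t : ℝ) :
    IsOptimalMap (uniformProbOn (Q d)) ((uniformProbOn (Q d)).map (tmap i₀ i₁ t)) (tmap i₀ i₁ t) ∧
      ∀ S, IsOptimalMap (uniformProbOn (Q d)) ((uniformProbOn (Q d)).map (tmap i₀ i₁ t)) S →
        ∀ᵐ x ∂(uniformProbOn (Q d)), S x ∈ range (atom i₀ i₁ t) ∧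
          inner ℝ x (tmap i₀ i₁ t x) ≤ inner ℝ x (S x) :=
  opt_of_max (R := Real.sqrt d) (ae_mem_Q.mono fun _ hx => norm_le_of_mem_Q hx)
    (finite_range _) (measurable_tmap i₀ i₁ t) (tmap_mem i₀ i₁ t) (tmap_max i₀ i₁ t)

lemma lower_bound {i₀ i₁ : Fin d} (hne : i₀ ≠ i₁) {ε : ℝ} (h0 : 0 < ε) (h1 : ε ≤ 1)
    {S S' : EuclideanSpace ℝ (Fin d) → EuclideanSpace ℝ (Fin d)}
    (hS : IsOptimalMap (uniformProbOn (Q d)) ((uniformProbOn (Q d)).map (tmap i₀ i₁ ε)) S)
    (hS' : IsOptimalMap (uniformProbOn (Q d)) ((uniformProbOn (Q d)).map (tmap i₀ i₁ (-ε))) S') :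
    ENNReal.ofReal (ε / 16) ≤ ∫⁻ x, ‖S x - S' x‖ₑ ^ 2 ∂(uniformProbOn (Q d)) := by
  have hB := rho_rect hne (a₀ := -ε / 4) (b₀ := ε / 4) (a₁ := 1 / 2) (b₁ := 1)
    (by linarith) (by linarith) (by norm_num) le_rfl (by linarith)
  rw [show (ε / 4 - -ε / 4) / 2 * ((1 - 1 / 2) / 2) = ε / 16 by ring] at hB
  rw [← hB, ← lintegral_indicator_one (measurableSet_rect _ _ _ _ _ _)]
  refine lintegral_mono_ae ?_
  filter_upwards [(opt_tmap i₀ i₁ ε).2 S hS, (opt_tmap i₀ i₁ (-ε)).2 S' hS'] with x hx hx'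
  by_cases hxB : x ∈ rect i₀ i₁ (-ε / 4) (ε / 4) (1 / 2) 1
  · rw [indicator_of_mem hxB]
    obtain ⟨⟨h2, h3⟩, h4, h5⟩ := hxB
    have h6 : ε / 2 ≤ ε * x i₁ := by nlinarith
    have e1 : S x i₀ = 0 := by
      have h7 := hx.2
      rw [inner_tmap] at h7
      have h8 := (le_max_right _ _).trans h7
      rcases mem_range_atom hx.1 with h | h | h
      · rw [h, PiLp.single_apply, if_neg hne]
      · rw [h, inner_single] at h8; linarith
      · rw [h, inner_single] at h8; linarith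
    have e2 : |S' x i₀| = 1 := by
      have h7 := hx'.2
      rw [inner_tmap] at h7
      have h8 := (abs_nonneg _).trans ((le_max_left _ _).trans h7)
      rcases mem_range_atom hx'.1 with h | h | h
      · rw [h, inner_single] at h8; linarith
      · rw [h]; simp
      · rw [h]; simp
    have e3 : 1 ≤ ‖S x - S' x‖ := by
      have := PiLp.norm_apply_le (S x - S' x) i₀
      rw [PiLp.sub_apply, e1, zero_sub, norm_neg, Real.norm_eq_abs, e2] at this
      exact this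
    rw [enorm_sq_eq, Pi.one_apply, ← ENNReal.ofReal_one]
    exact ENNReal.ofReal_le_ofReal (one_le_pow₀ e3)
  · rw [indicator_of_notMem hxB]; exact zero_le

lemma coupling {i₀ i₁ : Fin d} (hne : i₀ ≠ i₁) {ε : ℝ} (h0 : 0 < ε) (h1 : ε ≤ 1) :
    ∃ π : Measure (EuclideanSpace ℝ (Fin d) × EuclideanSpace ℝ (Fin d)),
      IsPairCoupling ((uniformProbOn (Q d)).map (tmap i₀ i₁ ε))
        ((uniformProbOn (Q d)).map (tmap i₀ i₁ (-ε))) π ∧
      quadCost π ≤ ENNReal.ofReal (4 * ε ^ 3) := by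
  have m1 := measurable_tmap i₀ i₁ ε
  have m2 := measurable_tmap i₀ i₁ (-ε)
  have m3 : Measurable (refl i₁) := (refl i₁).continuous.measurable
  have m4 : Measurable fun x => (tmap i₀ i₁ ε x, tmap i₀ i₁ (-ε) (refl i₁ x)) :=
    m1.prodMk (m2.comp m3)
  refine ⟨(uniformProbOn (Q d)).map fun x => (tmap i₀ i₁ ε x, tmap i₀ i₁ (-ε) (refl i₁ x)),
    ⟨?_, ?_⟩, ?_⟩
  · rw [Measure.map_map measurable_fst m4]; rfl
  · rw [Measure.map_map measurable_snd m4]
    conv_rhs => rw [← map_refl i₁, Measure.map_map m2 m3]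
    rfl
  · have hB := rho_rect hne (a₀ := -ε) (b₀ := ε) (a₁ := -1) (b₁ := 1)
      (by linarith) h1 le_rfl le_rfl (by linarith)
    rw [show (ε - -ε) / 2 * ((1 - -1) / 2) = ε by ring] at hB
    unfold quadCost
    rw [lintegral_map (by fun_prop) m4]
    calc _ ≤ ∫⁻ x, (rect i₀ i₁ (-ε) ε (-1) 1).indicator (fun _ => ENNReal.ofReal (4 * ε ^ 2)) x
          ∂(uniformProbOn (Q d)) := by
          refine lintegral_mono_ae ?_
          filter_upwards [ae_mem_Q] with x hx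
          have r0 : refl i₁ x i₀ = x i₀ := by rw [refl_apply, if_neg hne]
          have r1 : -ε * refl i₁ x i₁ = ε * x i₁ := by rw [refl_apply, if_pos rfl]; ring
          simp only [tmap, r0, r1]
          by_cases h : |x i₀| ≤ ε * x i₁
          · have h2 := abs_le.mp (hx i₁)
            have h3 : |x i₀| ≤ ε := h.trans (by nlinarith [h2.2])
            have h4 : x ∈ rect i₀ i₁ (-ε) ε (-1) 1 := ⟨abs_le.mp h3, h2⟩
            rw [indicator_of_mem h4, if_pos h, if_pos h, enorm_sq_eq, ← PiLp.single_sub,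
              PiLp.norm_single, Real.norm_eq_abs, sq_abs]
            exact le_of_eq (by congr 1; ring)
          · rw [if_neg h, if_neg h]
            simp
      _ = ENNReal.ofReal (4 * ε ^ 3) := by
          rw [lintegral_indicator_const (measurableSet_rect _ _ _ _ _ _), hB,
            ← ENNReal.ofReal_mul (by positivity)]
          congr 1; ring

end cube

lemma exists_eps {α : ℝ} (hα : 1 / 3 < α) {C : ℝ} (hC : 0 ≤ C) :
    ∃ ε : ℝ, 0 < ε ∧ ε ≤ 1 ∧ C * (4 * ε ^ 3) ^ α < ε / 16 := by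
  have hβ : 0 < 3 * α - 1 := by linarith
  set K : ℝ := 16 * C * 4 ^ α + 1 with hK
  have h4 : 0 ≤ 16 * C * 4 ^ α := by positivity
  have hK1 : 1 ≤ K := by linarith
  have hK0 : 0 < K := by linarith
  set ε : ℝ := K ^ (-(1 / (3 * α - 1))) with hε
  have hε0 : 0 < ε := Real.rpow_pos_of_pos hK0 _
  refine ⟨ε, hε0, Real.rpow_le_one_of_one_le_of_nonpos hK1 (by
    have : 0 < 1 / (3 * α - 1) := by positivity
    linarith), ?_⟩
  have e1 : ε ^ (3 * α - 1) = K⁻¹ := by
    rw [hε, ← Real.rpow_mul hK0.le, ← Real.rpow_neg_one]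
    congr 1
    field_simp
  have e2 : (ε ^ 3) ^ α = ε * K⁻¹ := by
    rw [← e1, ← Real.rpow_natCast, ← Real.rpow_mul hε0.le, ← Real.rpow_one_add' hε0.le]
    · congr 1; push_cast; ring
    · linarith
  rw [Real.mul_rpow (by norm_num) (by positivity), e2]
  have e3 : C * (4 ^ α * (ε * K⁻¹)) = ε / 16 * ((16 * C * 4 ^ α) / K) := by
    field_simp
  rw [e3]
  have e4 : (16 * C * 4 ^ α) / K < 1 := by
    rw [div_lt_one hK0]; linarith
  have : 0 < ε / 16 := by positivity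
  nlinarith

end Crest.Agent.R82.Sharp
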